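import Vale.Agent.P032.H758.Win
import Vale.Agent.P032.H802.ChainI

/-!
# P032, block X: gauge and chain data in the world with invisible points

`GaugeI758` : as `Gauge758` for the vertex type `QI` (H961).  `ChI.chn758` : the chain of H802 has the
data `Chn758`.
-/

open Set Filter Topology Metric

noncomputable section

namespace Vale.Agent.P032.Six

open Vale.Agent.P032.S5 Vale.Agent.P032.Carr Vale.Agent.P032.H961

variable {U : Fin 6 → Set ℂ} {T : ℂ → Set (Fin 6)} {f : ℂ → Set (Fin 6)} {Inv : ℂ → ℂ → Prop}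
  {V : ℤ → ℂ} {l : ℤ → Fin 6} {name : ℤ → Fin 6 → Fin 6}

/-- a choice of the separated pairs with prescribed pairs at a class of two-pair points -/
theorem Irr.exists_gaugeP758 (h : Irr U T) (P : ℂ → Set (Fin 6) → Prop)
    (hP : ∀ V S, P V S → ∃ a b c d, DPt T V a b c d ∧ S = {c, d})
    (hu : ∀ V S S', P V S → P V S' → S = S') :
    ∃ f, ChF T f ∧ ∀ V S, P V S → f V = S := by
  classical
  let P' : ℂ → Set (Fin 6) → Prop := fun V S => ∃ a b c d : Fin 6, DPt T V a b c d ∧ S = {a, b}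
  let G : ℂ → Set (Fin 6) := fun V => if h1 : ∃ S, P V S then h1.choose else
    if h2 : ∃ S, P' V S then h2.choose else ∅
  have hG1 : ∀ V, (∃ S, P V S) → P V (G V) := by
    intro V h1
    have e : G V = h1.choose := dif_pos h1
    rw [e]
    exact h1.choose_spec
  have hG2 : ∀ V, (¬ ∃ S, P V S) → (∃ S, P' V S) → P' V (G V) := by
    intro V h1 h2
    have e : G V = h2.choose := by
      simp only [G]
      rw [dif_neg h1, dif_pos h2]
    rw [e]
    exact h2.choose_spec
  obtain ⟨f, hf, hf2⟩ := exists_ChF T G (fun z a b c d hz => by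
    by_cases h1 : ∃ S, P z S
    · obtain ⟨a', b', c', d', h2, h3⟩ := hP z _ (hG1 z h1)
      rw [h3]
      rcases h.pairs758 hz h2 with h4 | h4
      · exact Or.inr h4.2
      · exact Or.inl h4.2
    · obtain ⟨a', b', c', d', h2, h3⟩ := hG2 z h1 ⟨{a, b}, a, b, c, d, hz, rfl⟩
      rw [h3]
      rcases h.pairs758 hz h2 with h4 | h4
      · exact Or.inl h4.1
      · exact Or.inr h4.1)
  refine ⟨f, hf, fun V S hV => ?_⟩
  obtain ⟨a, b, c, d, hD, -⟩ := hP V S hV
  rw [hf2 V ⟨a, b, c, d, hD⟩]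
  exact hu V _ _ (hG1 V ⟨S, hV⟩) hV

/-- the separated pair of a vertex is the non-connecting pair -/
structure GaugeI758 (T : ℂ → Set (Fin 6)) (Inv : ℂ → ℂ → Prop) (f : ℂ → Set (Fin 6)) : Prop where
  ch : ChF T f
  qi : ∀ {V V1 V2 : ℂ} {a b m n e g : Fin 6}, QI T Inv V a b m n e g V1 V2 → f V = {m, n}

theorem exists_gaugeI758 (h : Irr U T) (hw : QIW T Inv) : ∃ f, GaugeI758 T Inv f := by
  obtain ⟨f, h1, h2⟩ := h.exists_gaugeP758
    (fun V S => ∃ (a b m n e g : Fin 6) (V1 V2 : ℂ), QI T Inv V a b m n e g V1 V2 ∧ S = {m, n})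
    (by
      rintro V S ⟨a, b, m, n, e, g, V1, V2, hV, rfl⟩
      exact ⟨a, b, m, n, hV.dpt, rfl⟩)
    (by
      rintro V S S' ⟨a, b, m, n, e, g, V1, V2, hV, rfl⟩ ⟨a', b', m', n', e', g', V1', V2', hV', rfl⟩
      have h3 := QIW.pair_unique h hw hV hV'
      rcases h.pairs758 hV.dpt hV'.dpt with h4 | h4
      · exact h4.2.symm
      · exfalso
        rw [h3] at h4
        have h5 : a ∈ ({m, n} : Set (Fin 6)) := by rw [← h4.1]; simp
        rcases h5 with h5 | h5
        · exact hV.dpt.ac h5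
        · exact hV.dpt.ad h5)
  exact ⟨f, h1, fun {V V1 V2 a b m n e g} hV => h2 V {m, n} ⟨a, b, m, n, e, g, V1, V2, hV, rfl⟩⟩

/-- the chain of H802 in the world with invisible points -/
theorem ChI.chn758 {nx : Fin 6 → Fin 6 → Fin 6} (h : Irr U T) (hw : QIW T Inv)
    (hC : ChI nx T Inv V l name) (G : GaugeI758 T Inv f) : Chn758 nx T f V l name where
  inj := fun j => nodup_inj758 (hC.qf j).nd
  dpt := fun j => (hC.qf j).dpt
  gau := fun j => G.qi (hC.qf j)
  memR := fun j => (hC.qf j).toQI0.mem1 h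
  memL := fun j => (hC.qf j).toQI0.mem2 h
  conn := fun j => by
    obtain ⟨s, t, -, -, -, -, h5⟩ := (hC.qf j).toQI0.arc' h
    rw [h5]
    exact isPreconnected_Icc.image _ (S5.H767.continuous_pt _).continuousOn
  inv := fun j z hz hD hz1 hz2 t u ht hu heq => by
    obtain ⟨a, b, c, d, hD⟩ := hD
    rcases (hC.qf j).ord z hz hD.ncard.ge with h1 | h1 | h1
    · exact hz1 h1
    · exact hz2 h1
    · obtain ⟨a', b', m', n', e', g', W1, W2, hz3⟩ := hw.qf hD
      rw [G.qi hz3, hz3.dpt.diff758] at heq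
      have hsub : ({name j t, name j u} : Set (Fin 6)) ⊆ T (V j) := by
        rw [(hC.qf j).dpt.pal]
        rcases ht with rfl | rfl <;> rcases hu with rfl | rfl <;>
          (rintro i (rfl | rfl) <;> simp)
      rw [← heq] at hsub
      exact hw.inv h1 hz hz3 (hsub (Or.inl rfl)) (hsub (Or.inr rfl))
  nm := hC.nm

end Vale.Agent.P032.Six
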