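import Vale.Agent.P032.H274.XC
import Vale.Agent.P032.H553.ChainN
import Vale.Agent.P032.H758.GaugeI

/-!
# P032, block X: the chain is pure, the state of an all-STAY chain

`Fac758` : parity row and zero rows at the vertices of a chain.  `Chn758.pure758` : all links are
STAY K with the letter not dropped, or all are SWITCH K with that letter (row X-C of H274).
`Chn758.stateA758` : the state at a vertex of an all-STAY chain where the inner colour sees no face of
the two free colours is the plane `tabA` of H553.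
-/

open Set Filter Topology Metric

noncomputable section

namespace Vale.Agent.P032.Six

open Vale.Agent.P032.S5 Vale.Agent.P032.Carr Vale.Agent.P032.H961

variable {U : Fin 6 → Set ℂ} {T : ℂ → Set (Fin 6)} {f : ℂ → Set (Fin 6)} {Z : Set ℂ} {c : ℂ}
  {R δ₀ : ℝ} {V : ℤ → ℂ} {l : ℤ → Fin 6} {name : ℤ → Fin 6 → Fin 6}

/-- parity row and zero rows at the vertices of a chain -/
structure Fac758 (U : Fin 6 → Set ℂ) (T : ℂ → Set (Fin 6)) (f : ℂ → Set (Fin 6)) (V : ℤ → ℂ)
    (name : ℤ → Fin 6 → Fin 6) : Prop where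
  par : ∀ {Z : Set ℂ} {c : ℂ} {R δ₀ : ℝ}, DSt U T Z f c R δ₀ → ∀ j : ℤ, dist (V j) c < R - 1 →
    lamT T Z f δ₀ (name j 0) (V j) (name j 4) (name j 5) +
      lamT T Z f δ₀ (name j 1) (V j) (name j 4) (name j 5) +
      lamT T Z f δ₀ (name j 2) (V j) (name j 4) (name j 5) +
      lamT T Z f δ₀ (name j 3) (V j) (name j 4) (name j 5) = 1
  z1 : ∀ {Z : Set ℂ} {c : ℂ} {R δ₀ : ℝ}, DSt U T Z f c R δ₀ → ∀ j : ℤ, dist (V j) c < R - 1 →
    ∀ r : Fin 6, (r = 4 ∨ r = 5) →
    lamT T Z f δ₀ (name j 0) (V j) (name j 1) (name j r) = 0 ∧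
      lamT T Z f δ₀ (name j 1) (V j) (name j 0) (name j r) = 0
  z2 : ∀ {Z : Set ℂ} {c : ℂ} {R δ₀ : ℝ}, DSt U T Z f c R δ₀ → ∀ j : ℤ, dist (V j) c < R - 1 →
    ∀ k : ℤ, (k = j + 1 ∨ k = j - 1 ∨ k = j + 2 ∨ k = j - 2) → ∀ r : Fin 6, (r = 2 ∨ r = 3) →
    ∀ t x y : Fin 6, ({t, x, y} : Set (Fin 6)) = {name k r, name k 4, name k 5} →
    t ∈ T (V j) → lamT T Z f δ₀ t (V j) x y = 0

namespace Chn758

theorem winF758 (hC : Chn758 nxR802 T f V l name) (D : DSt U T Z f c R δ₀)
    (F : Fac758 U T f V name) (a : ℤ) (n : ℕ)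
    (hb : ∀ i : ℕ, i ≤ n → dist (V (a + i)) c ≤ R - 2) :
    H274.Win n (fun i : ℕ => (l (a + i)).val) (fun j : ℕ => NN758 T Z f δ₀ V name (a + j)) :=
  hC.winZ758 D a n hb (fun i _ hi => F.par D _ (by have := hb i hi.le; linarith))
    (fun i _ hi => F.z1 D _ (by have := hb i hi.le; linarith))
    (fun i _ hi => F.z2 D _ (by have := hb i hi.le; linarith))

theorem chW758 (hC : Chn758 nxR802 T f V l name) (hD : DF U T) (hf : ChF T f)
    (F : Fac758 U T f V name) : H274.ChW (fun j => (l j).val) where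
  lt := fun j => (l j).isLt
  win := fun a => by
    obtain ⟨Z, δ₀, D⟩ := hD.exists_DS hf (V a) 10
    refine ⟨_, hC.winF758 D F a 8 fun i hi => ?_⟩
    have h1 := hC.dist_le a i
    have h2 : (i : ℝ) ≤ 8 := by exact_mod_cast hi
    linarith

/-- **the chain is pure** -/
theorem pure758 (hC : Chn758 nxR802 T f V l name) (hD : DF U T) (hf : ChF T f)
    (F : Fac758 U T f V name) : (∀ j, l j = 2) ∨ (∀ j, l j = 5) := by
  rcases (hC.chW758 hD hf F).pure with h | h
  · exact Or.inl fun j => Fin.ext (h j)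
  · exact Or.inr fun j => Fin.ext (h j)

theorem dist_three758 {nx : Fin 6 → Fin 6 → Fin 6} (hC : Chn758 nx T f V l name) (j : ℤ) {i : ℕ}
    (hi : i ≤ 6) : dist (V (j - 3 + i)) (V j) ≤ 3 := by
  rcases le_total i 3 with h | h
  · have h1 := hC.dist_le (j - 3 + i) (3 - i)
    rw [show j - 3 + (i : ℤ) + ((3 - i : ℕ) : ℤ) = j by
      push_cast [Nat.cast_sub h]; ring, dist_comm] at h1
    refine h1.trans ?_
    exact_mod_cast Nat.sub_le 3 i
  · have h1 := hC.dist_le j (i - 3)
    rw [show j + ((i - 3 : ℕ) : ℤ) = j - 3 + i by push_cast [Nat.cast_sub h]; ring] at h1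
    refine h1.trans ?_
    have : i - 3 ≤ 3 := by omega
    exact_mod_cast this

theorem tabA_key758 : ∀ t x y : Fin 6, t < 4 → t ≠ 0 → x < y → t ≠ x → t ≠ y →
    (if H274.sT0.testBit (H274.idx 0 t.val x.val y.val) = true then (1 : ZMod 2) else 0) =
      tabA t x y := by
  decide +kernel

theorem tabA_zero758 : ∀ x y : Fin 6, x < y → (0 : Fin 6) ≠ x → (0 : Fin 6) ≠ y →
    (if H274.sT0.testBit (H274.idx 0 0 x.val y.val) = true then (1 : ZMod 2) else 0) = 0 := by
  decide +kernel

theorem sT1_key758 : H274.sT1.testBit (H274.idx 0 0 4 5) = true := by decide +kernel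

/-- the state at a vertex of an all-STAY chain, `x < y` -/
theorem state_aux758 (hC : Chn758 nxR802 T f V l name) (D : DSt U T Z f c R δ₀)
    (F : Fac758 U T f V name) (hl : ∀ j, l j = 2) {j : ℤ} (hj : dist (V j) c ≤ R - 5)
    (hI : lamT T Z f δ₀ (name j 0) (V j) (name j 4) (name j 5) = 0) {t x y : Fin 6} (ht : t < 4)
    (hxy : x < y) (htx : t ≠ x) (hty : t ≠ y) :
    lamT T Z f δ₀ (name j t) (V j) (name j x) (name j y) =
      if H274.sT0.testBit (H274.idx 0 t.val x.val y.val) = true then 1 else 0 := by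
  have W := hC.winF758 D F (j - 3) 6 fun i hi => by
    have h1 := hC.dist_three758 j hi
    have h2 := dist_triangle (V (j - 3 + i)) (V j) c
    linarith
  have ej : j - 3 + ((3 : ℕ) : ℤ) = j := by push_cast; ring
  have ro : ∀ r : Fin 6, ro758 r.val = r := fun r => Fin.ext (ro_val758 r.isLt)
  have key : ∀ r s u : Fin 6, NN758 T Z f δ₀ V name (j - 3 + ((3 : ℕ) : ℤ)) r.val s.val u.val =
      lamT T Z f δ₀ (name j r) (V j) (name j s) (name j u) := by
    intro r s u
    rw [ej]
    unfold NN758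
    rw [ro, ro, ro]
  rcases W.state_stay (fun i _ => by simp only [hl]; rfl) with h | h
  · have h1 := h t.val x.val y.val (by exact_mod_cast ht) x.isLt y.isLt hxy
      (fun e => htx (Fin.ext e)) (fun e => hty (Fin.ext e))
    rw [← h1]
    exact (key t x y).symm
  · exfalso
    have h1 := h 0 4 5 (by norm_num) (by norm_num) (by norm_num) (by norm_num) (by norm_num)
      (by norm_num)
    rw [sT1_key758, if_pos rfl] at h1
    have h2 := key 0 4 5
    rw [hI] at h2
    have h3 : (0 : ZMod 2) = 1 := h2.symm.trans h1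
    exact absurd h3 (by decide)

/-- **state A** : the state at a vertex of an all-STAY chain is the plane `tabA` -/
theorem stateA758 (hC : Chn758 nxR802 T f V l name) (D : DSt U T Z f c R δ₀)
    (F : Fac758 U T f V name) (hl : ∀ j, l j = 2) {j : ℤ} (hj : dist (V j) c ≤ R - 5)
    (hI : lamT T Z f δ₀ (name j 0) (V j) (name j 4) (name j 5) = 0) {t x y : Fin 6} (ht : t < 4)
    (ht0 : t ≠ 0) (hxy : x ≠ y) (htx : t ≠ x) (hty : t ≠ y) :
    lamT T Z f δ₀ (name j t) (V j) (name j x) (name j y) = tabA t x y := by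
  rcases lt_or_gt_of_ne hxy with h | h
  · rw [hC.state_aux758 D F hl hj hI ht h htx hty]
    exact tabA_key758 t x y ht ht0 h htx hty
  · rw [lamT_symm, hC.state_aux758 D F hl hj hI ht h hty htx, tabA_key758 t y x ht ht0 h hty htx]
    unfold tabA
    rw [Finset.pair_comm]

/-- in state A the inner colour sees no face -/
theorem stateA_zero758 (hC : Chn758 nxR802 T f V l name) (D : DSt U T Z f c R δ₀)
    (F : Fac758 U T f V name) (hl : ∀ j, l j = 2) {j : ℤ} (hj : dist (V j) c ≤ R - 5)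
    (hI : lamT T Z f δ₀ (name j 0) (V j) (name j 4) (name j 5) = 0) {x y : Fin 6}
    (hxy : x ≠ y) (htx : (0 : Fin 6) ≠ x) (hty : (0 : Fin 6) ≠ y) :
    lamT T Z f δ₀ (name j 0) (V j) (name j x) (name j y) = 0 := by
  rcases lt_or_gt_of_ne hxy with h | h
  · rw [hC.state_aux758 D F hl hj hI (by decide) h htx hty]
    exact tabA_zero758 x y h htx hty
  · rw [lamT_symm, hC.state_aux758 D F hl hj hI (by decide) h hty htx]
    exact tabA_zero758 y x h hty htx

end Chn758

end Vale.Agent.P032.Six
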