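import Vale.Agent.P032.H758.Stt

/-!
# P032, block X, row G1: the facts `Win n` of H274 in a window of the chain

`NN758 .. j t x y` : the state at `V j`, the colours given by the roles `t`, `x`, `y` (natural
numbers).  `Chn758.win758` : the window of `n` links from `V a`.
-/

open Set Filter Topology Metric

noncomputable section

namespace Vale.Agent.P032.Six

open Vale.Agent.P032.S5 Vale.Agent.P032.Carr Vale.Agent.P032.H961

variable {U : Fin 6 → Set ℂ} {T : ℂ → Set (Fin 6)} {f : ℂ → Set (Fin 6)} {Z : Set ℂ} {c : ℂ}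
  {R δ₀ : ℝ} {V : ℤ → ℂ} {l : ℤ → Fin 6} {name : ℤ → Fin 6 → Fin 6}

/-- role as an element of `Fin 6` -/
def ro758 (r : ℕ) : Fin 6 := Fin.ofNat 6 r

/-- the state at `V j`, all colours in roles -/
def NN758 (T : ℂ → Set (Fin 6)) (Z : Set ℂ) (f : ℂ → Set (Fin 6)) (δ₀ : ℝ) (V : ℤ → ℂ)
    (name : ℤ → Fin 6 → Fin 6) (j : ℤ) (t x y : ℕ) : ZMod 2 :=
  lamT T Z f δ₀ (name j (ro758 t)) (V j) (name j (ro758 x)) (name j (ro758 y))

theorem nx_ro758 : ∀ l : Fin 6, ∀ a < 6,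
    ro758 (H274.nx l.val a) = nxR802 l (ro758 a) := by decide +kernel

theorem bk_ro758 : ∀ l : Fin 6, ∀ a < 6,
    nxR802 l (ro758 (H274.bk l.val a)) = ro758 a := by decide +kernel

theorem ro_inj758 : ∀ a < 6, ∀ b < 6, ro758 a = ro758 b → a = b := by decide

theorem ro_lt758 : ∀ a < 4, ro758 a < 4 := by decide

/-- the border facts in the form of H274, one border -/
def JP758 (t u : Fin 6) (p q : ℕ) : Prop := ∀ lm lp x : Fin 6, x ≠ t → x ≠ u →
  (¬ ((nxR802 lp 0 = t ∧ nxR802 lp 1 = u ∨ nxR802 lp 0 = u ∧ nxR802 lp 1 = t) ∧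
    (nxR802 lm t = 0 ∧ nxR802 lm u = 1 ∨ nxR802 lm u = 0 ∧ nxR802 lm t = 1))) ∧
  ((if (nxR802 lp 0 = t ∧ nxR802 lp 1 = u ∨ nxR802 lp 0 = u ∧ nxR802 lp 1 = t) ∧
      (x = nxR802 lp 2 ∨ x = nxR802 lp 3) then (1 : ZMod 2) else 0) +
    (if (nxR802 lm t = 0 ∧ nxR802 lm u = 1 ∨ nxR802 lm u = 0 ∧ nxR802 lm t = 1) ∧
      (nxR802 lm x = 2 ∨ nxR802 lm x = 3) then 1 else 0) =
    if H274.jmp lm.val lp.val p q x.val then 1 else 0)

instance (t u : Fin 6) (p q : ℕ) : Decidable (JP758 t u p q) := by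
  unfold JP758
  infer_instance

theorem jp0_758 : JP758 0 2 0 2 := by decide +kernel
theorem jp1_758 : JP758 1 2 2 1 := by decide +kernel
theorem jp2_758 : JP758 1 3 1 3 := by decide +kernel
theorem jp3_758 : JP758 0 3 3 0 := by decide +kernel

theorem ro_val758 {x : ℕ} (hx : x < 6) : (ro758 x).val = x := Nat.mod_eq_of_lt hx

theorem jmp758 (lm lp : Fin 6) {i x : ℕ} (hi : i < 4) (hx : x < 6) (hx1 : x ≠ H274.bp i)
    (hx2 : x ≠ H274.bq i) :
    ∃ t u : Fin 6, (t = 0 ∨ t = 1) ∧ (u = 2 ∨ u = 3) ∧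
      (t = ro758 (H274.bp i) ∧ u = ro758 (H274.bq i) ∨
        u = ro758 (H274.bp i) ∧ t = ro758 (H274.bq i)) ∧
      (¬ ((nxR802 lp 0 = t ∧ nxR802 lp 1 = u ∨ nxR802 lp 0 = u ∧ nxR802 lp 1 = t) ∧
        (nxR802 lm t = 0 ∧ nxR802 lm u = 1 ∨ nxR802 lm u = 0 ∧ nxR802 lm t = 1))) ∧
      ro758 x ≠ t ∧ ro758 x ≠ u ∧
      ((if (nxR802 lp 0 = t ∧ nxR802 lp 1 = u ∨ nxR802 lp 0 = u ∧ nxR802 lp 1 = t) ∧
          (ro758 x = nxR802 lp 2 ∨ ro758 x = nxR802 lp 3) then (1 : ZMod 2) else 0) +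
        (if (nxR802 lm t = 0 ∧ nxR802 lm u = 1 ∨ nxR802 lm u = 0 ∧ nxR802 lm t = 1) ∧
          (nxR802 lm (ro758 x) = 2 ∨ nxR802 lm (ro758 x) = 3) then 1 else 0) =
        if H274.jmp lm.val lp.val (H274.bp i) (H274.bq i) x then 1 else 0) := by
  have hi' : i = 0 ∨ i = 1 ∨ i = 2 ∨ i = 3 := by omega
  have hv := ro_val758 hx
  have ne : ∀ {k : ℕ} (t : Fin 6), t.val = k → x ≠ k → ro758 x ≠ t := by
    intro k t h1 h2 h3
    exact h2 (by rw [← h1, ← h3, hv])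
  rcases hi' with rfl | rfl | rfl | rfl
  · have h1 : ro758 x ≠ 0 := ne (k := 0) 0 rfl hx1
    have h2 : ro758 x ≠ 2 := ne (k := 2) 2 rfl hx2
    obtain ⟨k1, k2⟩ := jp0_758 lm lp (ro758 x) h1 h2
    rw [hv] at k2
    exact ⟨0, 2, Or.inl rfl, Or.inl rfl, Or.inl ⟨rfl, rfl⟩, k1, h1, h2, k2⟩
  · have h1 : ro758 x ≠ 1 := ne (k := 1) 1 rfl hx2
    have h2 : ro758 x ≠ 2 := ne (k := 2) 2 rfl hx1
    obtain ⟨k1, k2⟩ := jp1_758 lm lp (ro758 x) h1 h2
    rw [hv] at k2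
    exact ⟨1, 2, Or.inr rfl, Or.inl rfl, Or.inr ⟨rfl, rfl⟩, k1, h1, h2, k2⟩
  · have h1 : ro758 x ≠ 1 := ne (k := 1) 1 rfl hx1
    have h2 : ro758 x ≠ 3 := ne (k := 3) 3 rfl hx2
    obtain ⟨k1, k2⟩ := jp2_758 lm lp (ro758 x) h1 h2
    rw [hv] at k2
    exact ⟨1, 3, Or.inr rfl, Or.inr rfl, Or.inl ⟨rfl, rfl⟩, k1, h1, h2, k2⟩
  · have h1 : ro758 x ≠ 0 := ne (k := 0) 0 rfl hx2
    have h2 : ro758 x ≠ 3 := ne (k := 3) 3 rfl hx1
    obtain ⟨k1, k2⟩ := jp3_758 lm lp (ro758 x) h1 h2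
    rw [hv] at k2
    exact ⟨0, 3, Or.inl rfl, Or.inr rfl, Or.inr ⟨rfl, rfl⟩, k1, h1, h2, k2⟩

theorem tri_key758 : ∀ a b d : Fin 6, H274.tri a.val b.val d.val = true →
    (({a, b, d} : Finset (Fin 6)) = {2, 4, 5} ∨ ({a, b, d} : Finset (Fin 6)) = {3, 4, 5}) := by
  decide +kernel

namespace Chn758

/-- names through a link, right -/
theorem nmR758 (hC : Chn758 nxR802 T f V l name) (j : ℤ) {a : ℕ} (ha : a < 6) :
    name j (ro758 (H274.nx (l j).val a)) = name (j + 1) (ro758 a) := by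
  rw [nx_ro758 _ a ha, hC.nm]

/-- names through a link, left -/
theorem nmL758 (hC : Chn758 nxR802 T f V l name) (j : ℤ) {a : ℕ} (ha : a < 6) :
    name j (ro758 (H274.bk (l (j - 1)).val a)) = name (j - 1) (ro758 a) := by
  rw [hC.nmB, bk_ro758 _ a ha]

theorem tri_lt758 {a b c : ℕ} (h : H274.tri a b c = true) : a < 6 ∧ b < 6 ∧ c < 6 :=
  H274.tri_lt h

/-- the face complementary to a face of a vertex -/
theorem tri_set758 {a b d : ℕ} (h : H274.tri a b d = true) (g : Fin 6 → Fin 6) :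
    ∃ r : Fin 6, (r = 2 ∨ r = 3) ∧
      ({g (ro758 a), g (ro758 b), g (ro758 d)} : Set (Fin 6)) = {g r, g 4, g 5} := by
  obtain ⟨ha, hb, hd⟩ := H274.tri_lt h
  obtain ⟨r, hr, he⟩ : ∃ r : Fin 6, (r = 2 ∨ r = 3) ∧
      (({ro758 a, ro758 b, ro758 d} : Finset (Fin 6)) = {r, 4, 5}) := by
    rcases tri_key758 (ro758 a) (ro758 b) (ro758 d)
      (by rw [ro_val758 ha, ro_val758 hb, ro_val758 hd]; exact h) with h1 | h1
    · exact ⟨2, Or.inl rfl, h1⟩
    · exact ⟨3, Or.inr rfl, h1⟩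
  refine ⟨r, hr, ?_⟩
  have e1 := congrArg (fun s : Finset (Fin 6) => g '' (s : Set (Fin 6))) he
  simp only [Finset.coe_insert, Finset.coe_singleton, image_insert_eq, image_singleton] at e1
  exact e1

/-- **the window of `n` links from `V a`**, zeros as zeros of the state -/
theorem winZ758 (hC : Chn758 nxR802 T f V l name) (D : DSt U T Z f c R δ₀) (a : ℤ) (n : ℕ)
    (hb : ∀ i : ℕ, i ≤ n → dist (V (a + i)) c ≤ R - 2)
    (hpar : ∀ i : ℕ, 0 < i → i < n →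
      lamT T Z f δ₀ (name (a + i) 0) (V (a + i)) (name (a + i) 4) (name (a + i) 5) +
        lamT T Z f δ₀ (name (a + i) 1) (V (a + i)) (name (a + i) 4) (name (a + i) 5) +
        lamT T Z f δ₀ (name (a + i) 2) (V (a + i)) (name (a + i) 4) (name (a + i) 5) +
        lamT T Z f δ₀ (name (a + i) 3) (V (a + i)) (name (a + i) 4) (name (a + i) 5) = 1)
    (hz1 : ∀ i : ℕ, 0 < i → i < n → ∀ r : Fin 6, (r = 4 ∨ r = 5) →
      lamT T Z f δ₀ (name (a + i) 0) (V (a + i)) (name (a + i) 1) (name (a + i) r) = 0 ∧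
      lamT T Z f δ₀ (name (a + i) 1) (V (a + i)) (name (a + i) 0) (name (a + i) r) = 0)
    (hz2 : ∀ i : ℕ, 0 < i → i < n → ∀ k : ℤ, (k = a + i + 1 ∨ k = a + i - 1 ∨ k = a + i + 2 ∨
      k = a + i - 2) → ∀ r : Fin 6, (r = 2 ∨ r = 3) → ∀ t x y : Fin 6,
      ({t, x, y} : Set (Fin 6)) = {name k r, name k 4, name k 5} → t ∈ T (V (a + i)) →
      lamT T Z f δ₀ t (V (a + i)) x y = 0) :
    H274.Win n (fun i : ℕ => (l (a + i)).val) (fun j : ℕ => NN758 T Z f δ₀ V name (a + j)) := by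
  have e1 : ∀ j : ℕ, 0 < j → (a + ((j - 1 : ℕ) : ℤ)) = a + j - 1 := by
    intro j hj
    push_cast [Nat.cast_sub (Nat.one_le_iff_ne_zero.2 hj.ne')]
    ring
  have e2 : ∀ j : ℕ, 2 ≤ j → (a + ((j - 2 : ℕ) : ℤ)) = a + j - 2 := by
    intro j hj
    push_cast [Nat.cast_sub hj]
    ring
  have e3 : ∀ j : ℕ, (a + ((j + 1 : ℕ) : ℤ)) = a + j + 1 := by
    intro j
    push_cast
    ring
  have e4 : ∀ j : ℕ, (a + ((j + 2 : ℕ) : ℤ)) = a + j + 2 := by
    intro j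
    push_cast
    ring
  have hb1 : ∀ i : ℕ, i ≤ n → dist (V (a + i)) c ≤ R - 1 := fun i hi => by
    have := hb i hi
    linarith
  -- one zero fact
  have zz : ∀ j : ℕ, 0 < j → j < n → ∀ k : ℤ, (k = a + j + 1 ∨ k = a + j - 1 ∨ k = a + j + 2 ∨
      k = a + j - 2) → ∀ x y z : ℕ, H274.tri x y z = true →
      name k (ro758 x) ∈ T (V (a + j)) →
      lamT T Z f δ₀ (name k (ro758 x)) (V (a + j)) (name k (ro758 y)) (name k (ro758 z)) = 0 := by
    intro j h0 hn k hk x y z ht hx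
    obtain ⟨r, hr, he⟩ := tri_set758 ht (name k)
    exact hz2 j h0 hn k hk r hr _ _ _ he hx
  refine ⟨?_, ?_, ?_, ?_, ?_, ?_, ?_, ?_, ?_, ?_⟩
  · intro j t x y
    exact lamT_symm _ _ _ _
  · intro j t x h0 hn ht hx htx
    have hs := hC.eul D (hb1 j hn.le) (t := ro758 t) (u := ro758 x) (ro_lt758 t ht)
      (fun h => htx (ro_inj758 t (by omega) x hx h))
    have hz : ∀ y < 6, (if y = t ∨ y = x then 0 else NN758 T Z f δ₀ V name (a + j) t x y) =
        NN758 T Z f δ₀ V name (a + j) t x y := by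
      intro y _
      split_ifs with h
      · rcases h with rfl | rfl
        · unfold NN758
          rw [lamT_symm, lamT_self]
        · unfold NN758
          rw [lamT_diag]
      · rfl
    have hr : ((List.range 6).map fun y => if y = t ∨ y = x then 0
        else NN758 T Z f δ₀ V name (a + j) t x y) =
        (List.range 6).map fun y => NN758 T Z f δ₀ V name (a + j) t x y :=
      List.map_congr_left fun y hy => hz y (List.mem_range.1 hy)
    rw [hr, ← hs, Fin.sum_univ_six]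
    simp only [List.range, List.range.loop, List.map_cons, List.map_nil, List.sum_cons,
      List.sum_nil, add_zero]
    unfold NN758
    simp only [← add_assoc]
    rfl
  · intro j i x h0 hn hi hx hx1 hx2
    rw [e1 j h0]
    obtain ⟨t, u, ht, hu, hor, hne, h1, h2, h3⟩ := jmp758 (l (a + j - 1)) (l (a + j)) hi hx hx1 hx2
    have key := hC.brd D (hb1 j hn.le) ht hu hne h1 h2
    rw [← h3, ← key]
    unfold NN758
    rcases hor with ⟨rfl, rfl⟩ | ⟨rfl, rfl⟩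
    · rfl
    · rw [add_comm]
  · intro j h0 hn
    exact hpar j h0 hn
  · intro j x b h0 hn hx hb2
    have hx' : ro758 x = 4 ∨ ro758 x = 5 := by
      rcases hx with rfl | rfl
      · exact Or.inl rfl
      · exact Or.inr rfl
    have hb' : b = 0 ∨ b = 1 := by omega
    rcases hb' with rfl | rfl
    · exact (hz1 j h0 hn _ hx').1
    · exact (hz1 j h0 hn _ hx').2
  · intro j x y z h0 hn ht hlt
    obtain ⟨hx, hy, hz⟩ := H274.tri_lt ht
    unfold NN758
    rw [hC.nmR758 _ hx, hC.nmR758 _ hy, hC.nmR758 _ hz]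
    refine zz j h0 hn _ (Or.inl rfl) x y z ht ?_
    rw [← hC.nmR758 _ hx]
    exact hC.mem _ (ro_lt758 _ hlt)
  · intro j x y z h0 hn ht hlt
    rw [e1 j h0] at hlt ⊢
    obtain ⟨hx, hy, hz⟩ := H274.tri_lt ht
    unfold NN758
    rw [hC.nmL758 _ hx, hC.nmL758 _ hy, hC.nmL758 _ hz]
    refine zz j h0 hn _ (Or.inr (Or.inl rfl)) x y z ht ?_
    rw [← hC.nmL758 _ hx]
    exact hC.mem _ (ro_lt758 _ hlt)
  · intro j x y z h0 hn ht hlt
    rw [e3 j] at hlt ⊢
    obtain ⟨hx, hy, hz⟩ := H274.tri_lt ht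
    have k1 : ∀ r < 6, name (a + j) (ro758 (H274.nx (l (a + j)).val (H274.nx (l (a + j + 1)).val r))) =
        name (a + j + 2) (ro758 r) := by
      intro r hr
      rw [hC.nmR758 _ (H274.nx_lt _ (l (a + j + 1)).isLt r hr), hC.nmR758 _ hr]
      congr 1
      ring
    unfold NN758
    rw [k1 x hx, k1 y hy, k1 z hz]
    refine zz j h0 (by omega) _ (Or.inr (Or.inr (Or.inl rfl))) x y z ht ?_
    rw [← k1 x hx]
    exact hC.mem _ (ro_lt758 _ hlt)
  · intro j x y z h0 hn ht hlt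
    rw [e1 j (by omega), e2 j h0] at hlt ⊢
    obtain ⟨hx, hy, hz⟩ := H274.tri_lt ht
    have k1 : ∀ r < 6, name (a + j) (ro758 (H274.bk (l (a + j - 1)).val
        (H274.bk (l (a + j - 2)).val r))) = name (a + j - 2) (ro758 r) := by
      intro r hr
      have h5 := hC.nmL758 (a + j - 1) hr
      rw [show a + j - 1 - 1 = a + j - 2 by ring] at h5
      rw [hC.nmL758 _ (H274.bk_lt _ (l (a + j - 2)).isLt r hr), h5]
    unfold NN758
    rw [k1 x hx, k1 y hy, k1 z hz]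
    refine zz j (by omega) hn _ (Or.inr (Or.inr (Or.inr rfl))) x y z ht ?_
    rw [← k1 x hx]
    exact hC.mem _ (ro_lt758 _ hlt)
  · intro j x y z h0 hn hx hy hz _ _ _
    rw [e3 j, e4 j]
    have k1 : ∀ r < 6, name (a + j + 2) (ro758 (H274.bk (l (a + j + 1)).val r)) =
        name (a + j + 1) (ro758 r) := by
      intro r hr
      have h5 := hC.nmL758 (a + j + 2) hr
      rwa [show a + j + 2 - 1 = a + j + 1 by ring] at h5
    unfold NN758
    rw [hC.nmR758 _ (by omega), hC.nmR758 _ hy, hC.nmR758 _ hz, k1 x (by omega), k1 y hy, k1 z hz]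
    have hr : ro758 x = 0 ∨ ro758 x = 1 := by
      have : x = 0 ∨ x = 1 := by omega
      rcases this with rfl | rfl
      · exact Or.inl rfl
      · exact Or.inr rfl
    have h6 := hC.glue D (j := a + j) (by
      have := hb (j + 1) (by omega)
      rwa [e3 j] at this) hr
    exact congrFun (congrFun h6 _) _

/-- **the window of `n` links from `V a`**, zeros as absent faces -/
theorem win758 (hC : Chn758 nxR802 T f V l name) (D : DSt U T Z f c R δ₀) (a : ℤ) (n : ℕ)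
    (hb : ∀ i : ℕ, i ≤ n → dist (V (a + i)) c ≤ R - 2)
    (hpar : ∀ i : ℕ, 0 < i → i < n →
      lamT T Z f δ₀ (name (a + i) 0) (V (a + i)) (name (a + i) 4) (name (a + i) 5) +
        lamT T Z f δ₀ (name (a + i) 1) (V (a + i)) (name (a + i) 4) (name (a + i) 5) +
        lamT T Z f δ₀ (name (a + i) 2) (V (a + i)) (name (a + i) 4) (name (a + i) 5) +
        lamT T Z f δ₀ (name (a + i) 3) (V (a + i)) (name (a + i) 4) (name (a + i) 5) = 1)
    (hz1 : ∀ i : ℕ, 0 < i → i < n → ∀ r : Fin 6, (r = 4 ∨ r = 5) → ∀ t : Fin 6, (t = 0 ∨ t = 1) →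
      NoF758 T f (V (a + i)) {name (a + i) 0, name (a + i) 1, name (a + i) r} (name (a + i) t))
    (hz2 : ∀ i : ℕ, 0 < i → i < n → ∀ k : ℤ, (k = a + i + 1 ∨ k = a + i - 1 ∨ k = a + i + 2 ∨
      k = a + i - 2) → ∀ r : Fin 6, (r = 2 ∨ r = 3) → ∀ t : Fin 6,
      t ∈ ({name k r, name k 4, name k 5} : Set (Fin 6)) → t ∈ T (V (a + i)) →
      NoF758 T f (V (a + i)) {name k r, name k 4, name k 5} t) :
    H274.Win n (fun i : ℕ => (l (a + i)).val) (fun j : ℕ => NN758 T Z f δ₀ V name (a + j)) := by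
  have hb1 : ∀ i : ℕ, i ≤ n → dist (V (a + i)) c ≤ R - 1 := fun i hi => by
    have := hb i hi
    linarith
  refine hC.winZ758 D a n hb hpar (fun i h0 hn r hr => ⟨?_, ?_⟩) fun i h0 hn k hk r hr t x y he ht => ?_
  · exact D.zero758 (hb1 i hn.le) (hC.mem _ (by decide)) (hz1 i h0 hn _ hr 0 (Or.inl rfl))
  · refine D.zero758 (hb1 i hn.le) (hC.mem _ (by decide)) ?_
    have h4 := hz1 i h0 hn _ hr 1 (Or.inr rfl)
    rwa [insert_comm] at h4
  · refine D.zero758 (hb1 i hn.le) ht ?_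
    rw [he]
    refine hz2 i h0 hn k hk r hr _ ?_ ht
    rw [← he]
    exact Or.inl rfl

end Chn758

end Vale.Agent.P032.Six
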