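import Vale.Agent.P032.H961.ZeroI
import Vale.Agent.P032.H758.Pure

/-!
# P032, block X: the row `z2` of `Fac758` in the world without invisible points

`QIW.zero_two758` : the state of `V0` vanishes at the complements of the faces of the next but one
vertex `V2`; with 961's `zero_adjI` (neighbours) : `DSt.z2_758`.
-/

open Set Filter Topology Metric

noncomputable section

namespace Vale.Agent.P032.Six

open Vale.Agent.P032.S5 Vale.Agent.P032.Carr Vale.Agent.P032.H961 Vale.Agent.P032.S5.H767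

variable {U : Fin 6 → Set ℂ} {T : ℂ → Set (Fin 6)} {f : ℂ → Set (Fin 6)} {Z : Set ℂ} {c : ℂ}
  {R δ₀ : ℝ} {Inv : ℂ → ℂ → Prop} {W V0 V1 V2 X1 X2 Y1 Y2 u : ℂ}
  {a b m n e g a1 b1 m1 n1 e1 g1 : Fin 6} {s : Set (Fin 6)}

/-- the faces complementary to a face of `W` are not in the closed disc of a point `V0` of the open
disc of `W` with `dist V0 V1 = 1`, `V1` an end of the connecting arc -/
theorem qi_far2_758 (h : Irr U T) (H : QI0 T Inv W a b m n e g Y1 Y2) (hI : ∀ p, ¬ Inv W p)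
    (hV1 : V1 = Y1 ∨ V1 = Y2) (hd : dist V0 V1 = 1) (hW : dist V0 W < 1) (F : Six.Fc T u s)
    (hs : s = ({a, b, m} : Set (Fin 6))ᶜ ∨ s = ({a, b, n} : Set (Fin 6))ᶜ) : 1 < dist V0 u := by
  by_contra hcl
  push Not at hcl
  have hlt : dist u W < 2 := by
    have := dist_triangle u V0 W
    rw [dist_comm u V0] at this
    linarith
  have hne : u ≠ W := by
    rcases hs with hs | hs
    · exact H383.fc_ne F H.dpt.swap34 hs h
    · exact H383.fc_ne F H.dpt hs h
  have hmem : V1 ∈ closure (Ex T W {a, b}) := by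
    rcases hV1 with rfl | rfl
    · exact H.mem1 h
    · exact H.mem2 h
  have hV1W : dist V1 W = 1 := dist_of_closure hmem
  have h3 := qi_three h H hI F hs
  obtain ⟨p, p', hpp, h1, h2, h1', h2', e, e'⟩ := H227.exists_two hlt hne
  have key : ∀ q, dist q u = 1 → dist q W = 1 → u + W ≠ 2 * q → dist V1 q ≤ 1 := fun q g1 g2 g3 =>
    H.diam h hmem (qi_cv h H hI F hs g1 g2 g3)
  have hne1 : V1 ≠ u := by
    rintro rfl
    rw [hV1W] at h3
    norm_num at h3
  have := H383.lens_half h2 h1 h2' h1' hpp hne.symm (key p h1 h2 e) (key p' h1' h2' e') hne1 hW hcl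
  rw [hd] at this
  exact lt_irrefl _ this

/-- **row V_(±2)** in the world `QIW` without invisible points -/
theorem QIW.zero_two758 (hw : QIW T Inv) (hI : ∀ V p, ¬ Inv V p) (D : DSt U T Z f c R δ₀)
    (G : GaugeI758 T Inv f) (hx : dist V0 c < R - 1) (H1 : QI T Inv V1 a1 b1 m1 n1 e1 g1 X1 X2)
    (hv : V0 = X1 ∧ V2 = X2 ∨ V0 = X2 ∧ V2 = X1) (H : QI T Inv V2 a b m n e g Y1 Y2)
    (hV1 : V1 = Y1 ∨ V1 = Y2) {t x y : Fin 6} (ht : t ∈ T V0)
    (hs : ({t, x, y} : Set (Fin 6)) = ({a, b, m} : Set (Fin 6))ᶜ ∨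
      ({t, x, y} : Set (Fin 6)) = ({a, b, n} : Set (Fin 6))ᶜ) :
    lamT T Z f δ₀ t V0 x y = 0 := by
  have h := D.df.irr
  have hd01 : dist V0 V1 = 1 := by
    rcases hv with ⟨rfl, -⟩ | ⟨rfl, -⟩
    · exact H1.toQI0.dist1
    · exact H1.toQI0.dist2
  have hd02 : dist V0 V2 ≤ 1 := by
    rcases hv with ⟨rfl, rfl⟩ | ⟨rfl, rfl⟩
    · exact H1.toQI0.dist12
    · rw [dist_comm]; exact H1.toQI0.dist12
  have h40 : (T V0).ncard = 4 := by
    rcases hv with ⟨rfl, -⟩ | ⟨rfl, -⟩
    · exact H1.toQI0.ord1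
    · exact H1.toQI0.ord2
  rcases hd02.lt_or_eq with hlt | heq
  · -- `V0` in the open disc of `V2`
    by_contra hne
    obtain ⟨u, hu, hF, -⟩ := D.supp hx.le ht hne
    rw [mem_closedBall] at hu
    have hcard : ({t, x, y} : Set (Fin 6)).ncard = 3 := by
      rcases hs with hs | hs
      · rw [hs, ← compl_face (nodup_cd H.nd)]
        have nd := H.nd
        simp only [List.nodup_cons, List.mem_cons, List.not_mem_nil, or_false, not_or,
          List.nodup_nil, and_true, not_false_eq_true] at nd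
        exact Set.ncard_eq_three.2 ⟨n, e, g, nd.2.2.2.1.1, nd.2.2.2.1.2, nd.2.2.2.2, rfl⟩
      · rw [hs, ← compl_face H.nd]
        have nd := H.nd
        simp only [List.nodup_cons, List.mem_cons, List.not_mem_nil, or_false, not_or,
          List.nodup_nil, and_true, not_false_eq_true] at nd
        exact Set.ncard_eq_three.2 ⟨m, e, g, nd.2.2.1.2.1, nd.2.2.1.2.2, nd.2.2.2.2, rfl⟩
    rcases fc_of_fcd D.df D.ch hF hcard with F | hD
    · have := qi_far2_758 h H.toQI0 (hI V2) hV1 hd01 hlt F hs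
      rw [dist_comm] at this
      linarith
    · rcases hs with hs | hs
      · rw [hs, ← compl_face (nodup_cd H.nd)] at hF
        exact H678.twoI678 h hw hI (fun K => G.qi K) H1 hv H hV1 hD hu (Or.inr rfl) hF
      · rw [hs, ← compl_face H.nd] at hF
        exact H678.twoI678 h hw hI (fun K => G.qi K) H1 hv H hV1 hD hu (Or.inl rfl) hF
  · -- `V0`, `V2` are linked
    have key : ∀ {m' n' : Fin 6} {Y : ℂ}, QI T Inv V2 a b m' n' e g Y V0 →
        (({t, x, y} : Set (Fin 6)) = ({a, b, m'} : Set (Fin 6))ᶜ ∨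
          ({t, x, y} : Set (Fin 6)) = ({a, b, n'} : Set (Fin 6))ᶜ) →
        lamT T Z f δ₀ t V0 x y = 0 := by
      intro m' n' Y K hs'
      have hlk : ∃ g' e' f' W', QI T Inv V0 a n' g' b e' f' W' V2 ∨
          QI T Inv V0 m' b a g' e' f' W' V2 := hw.link K.mirror
      obtain ⟨g', e', f', W', h1 | h1⟩ := hlk
      · exact hw.zero_nb hI D G hx h1.mirror K ht hs'
      · exact hw.zero_nb hI D G hx h1.mirror K ht hs'
    rcases H.ord V0 heq h40.ge with h1 | h1 | h1
    · subst h1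
      exact key H.mirror hs.symm
    · subst h1
      exact key H hs
    · exact absurd h1 (hI _ _)

/-- **row z2** : all four neighbours in the chain -/
theorem DSt.z2_758 {V : ℤ → ℂ} {l : ℤ → Fin 6} {name : ℤ → Fin 6 → Fin 6}
    {nx : Fin 6 → Fin 6 → Fin 6} (D : DSt U T Z f c R δ₀) (hw : QIW T Inv)
    (hI : ∀ V p, ¬ Inv V p) (G : GaugeI758 T Inv f) (hC : ChI nx T Inv V l name) {j : ℤ}
    (hx : dist (V j) c < R - 1) {k : ℤ} (hk : k = j + 1 ∨ k = j - 1 ∨ k = j + 2 ∨ k = j - 2)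
    {r : Fin 6} (hr : r = 2 ∨ r = 3) {t x y : Fin 6}
    (hs : ({t, x, y} : Set (Fin 6)) = {name k r, name k 4, name k 5}) (ht : t ∈ T (V j)) :
    lamT T Z f δ₀ t (V j) x y = 0 := by
  rcases hk with hk | hk | hk | hk
  · exact zero_adjI hw hI D G hC hx (Or.inl hk) hr hs ht
  · exact zero_adjI hw hI D G hC hx (Or.inr hk) hr hs ht
  all_goals
    have hf : ({t, x, y} : Set (Fin 6)) = ({name k 0, name k 1, name k 2} : Set (Fin 6))ᶜ ∨
        ({t, x, y} : Set (Fin 6)) = ({name k 0, name k 1, name k 3} : Set (Fin 6))ᶜ := by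
      rw [hs]
      rcases hr with rfl | rfl
      · exact Or.inr (compl_face (hC.qf k).nd)
      · exact Or.inl (compl_face (nodup_cd (hC.qf k).nd))
    subst hk
  · have h1 := hC.qf (j + 1)
    rw [add_sub_cancel_right, show j + 1 + 1 = j + 2 by ring] at h1
    have h2 := hC.qf (j + 2)
    rw [show j + 2 - 1 = j + 1 by ring] at h2
    exact QIW.zero_two758 hw hI D G hx h1 (Or.inr ⟨rfl, rfl⟩) h2 (Or.inr rfl) ht hf
  · have h1 := hC.qf (j - 1)
    rw [sub_add_cancel, show j - 1 - 1 = j - 2 by ring] at h1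
    have h2 := hC.qf (j - 2)
    rw [show j - 2 + 1 = j - 1 by ring] at h2
    exact QIW.zero_two758 hw hI D G hx h1 (Or.inl ⟨rfl, rfl⟩) h2 (Or.inl rfl) ht hf

end Vale.Agent.P032.Six
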