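import Vale.Agent.P032.H353.EndsI
import Vale.Agent.P032.H758.FacZ2

/-!
# P032, block X: the facts along the chains of the world without invisible points

`fac_all758` : `Fac758` (parity row: 353, `z1`: 353 / 747, `z2`: 961, 678 and `FacZ2`) for every chain
of the world `QIW T Inv` without invisible points.
-/

open Set Filter Topology Metric

noncomputable section

namespace Vale.Agent.P032.Six

open Vale.Agent.P032.S5 Vale.Agent.P032.Carr Vale.Agent.P032.H961

variable {U : Fin 6 → Set ℂ} {T : ℂ → Set (Fin 6)} {f : ℂ → Set (Fin 6)} {Inv : ℂ → ℂ → Prop}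
  {V : ℤ → ℂ} {l : ℤ → Fin 6} {name : ℤ → Fin 6 → Fin 6} {nx : Fin 6 → Fin 6 → Fin 6}

/-- **the facts along a chain**, world without invisible points -/
theorem fac_all758 (hN : NoComp T) (hw : QIW T Inv) (hI : ∀ x y, ¬ Inv x y)
    (G : GaugeI758 T Inv f) (hC : ChI nx T Inv V l name) : Fac758 U T f V name where
  par := fun D j hj => qi_par353 D hj.le hw hI (hC.qf j)
  z1 := fun D j hj _r hr => qi_zero353 D hj.le hN hw hI G (hC.qf j)
    (hr.imp (fun h1 => by rw [h1]) fun h1 => by rw [h1])
  z2 := fun D _j hj _k hk _r hr _t _x _y hs ht => D.z2_758 hw hI G hC hj hk hr hs ht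

end Vale.Agent.P032.Six
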