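import Vale.Agent.P032.H416.XPure
import Vale.Agent.P032.H758.Fac

/-!
# P032, block X: the first input of the pure world

`xFac` : the facts along every chain, world without invisible points.
-/

open Set Filter Topology Metric

noncomputable section

namespace Vale.Agent.P032.Six

open Vale.Agent.P032.H961

/-- **the facts along the chains** -/
theorem xFac : XFac fun _ => NoInv := fun _ _ _ hN hw _ G _ _ _ hC =>
  fac_all758 hN hw (fun _ _ h => h) G hC

end Vale.Agent.P032.Six
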