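import Vale.Agent.P032.H538.State1
import Vale.Agent.P032.H961.QF
import Vale.Agent.P032.S5.H824.Two

/-!
# P032, block X: the gauge of the state functions in the world of quasi-full points

`Gauge758 T f` : `f` is a choice of separated pairs (`ChF`) and at a quasi-full point the separated
pair is the pair which does not connect (so the faces of `V = ab|mn` are `{a, b, m}`, `{a, b, n}`).
-/

open Set Filter Topology Metric

noncomputable section

namespace Vale.Agent.P032.Six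

open Vale.Agent.P032.S5 Vale.Agent.P032.Carr Vale.Agent.P032.H961

variable {U : Fin 6 → Set ℂ} {T : ℂ → Set (Fin 6)} {f : ℂ → Set (Fin 6)} {V z : ℂ}

/-- an exact pair of a two-pair point is one of its two pairs -/
theorem Irr.pair758 (h : Irr U T) {a b c d : Fin 6} (hz : DPt T z a b c d) {p : ℂ} {u v : Fin 6}
    (hu : u ∈ T z) (hv : v ∈ T z) (huv : u ≠ v) (hp : Arc T z p {u, v}) :
    ({u, v} : Set (Fin 6)) = {a, b} ∨ ({u, v} : Set (Fin 6)) = {c, d} := by
  rw [hz.pal] at hu hv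
  rcases hu with rfl | rfl | rfl | rfl <;> rcases hv with rfl | rfl | rfl | rfl
  · exact absurd rfl huv
  · exact Or.inl rfl
  · exact (h.no_cross hz hp).elim
  · exact (h.no_cross hz.swap34 hp).elim
  · exact Or.inl (pair_comm _ _)
  · exact absurd rfl huv
  · exact (h.no_cross hz.swap12 hp).elim
  · exact (h.no_cross hz.swap12.swap34 hp).elim
  · exact (h.no_cross hz.swap hp).elim
  · exact (h.no_cross hz.swap.swap34 hp).elim
  · exact absurd rfl huv
  · exact Or.inr rfl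
  · exact (h.no_cross hz.swap.swap12 hp).elim
  · exact (h.no_cross hz.swap.swap12.swap34 hp).elim
  · exact Or.inr (pair_comm _ _)
  · exact absurd rfl huv

/-- the complement of a pair in the palette -/
theorem DPt.diff758 {a b c d : Fin 6} (hz : DPt T z a b c d) : T z \ {c, d} = {a, b} := by
  rw [hz.pal]
  ext i
  simp only [Set.mem_sdiff, mem_insert_iff, mem_singleton_iff, not_or]
  constructor
  · rintro ⟨h1 | h1 | h1 | h1, h2, h3⟩
    · exact Or.inl h1
    · exact Or.inr h1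
    · exact absurd h1 h2
    · exact absurd h1 h3
  · rintro (rfl | rfl)
    · exact ⟨Or.inl rfl, hz.ac, hz.ad⟩
    · exact ⟨Or.inr (Or.inl rfl), hz.bc, hz.bd⟩

/-- the two pairs of a two-pair point -/
theorem Irr.pairs758 (h : Irr U T) {a b c d a' b' c' d' : Fin 6} (hz : DPt T z a b c d)
    (hz' : DPt T z a' b' c' d') :
    (({a', b'} : Set (Fin 6)) = {a, b} ∧ ({c', d'} : Set (Fin 6)) = {c, d}) ∨
      (({a', b'} : Set (Fin 6)) = {c, d} ∧ ({c', d'} : Set (Fin 6)) = {a, b}) := by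
  obtain ⟨p, hp⟩ := hz'.arc1
  have ha : a' ∈ T z := by rw [hz'.pal]; simp
  have hb : b' ∈ T z := by rw [hz'.pal]; simp
  have e1 := hz'.swap.diff758
  rcases h.pair758 hz ha hb hz'.ab hp with h1 | h1
  · left
    refine ⟨h1, ?_⟩
    rw [← e1, h1, hz.swap.diff758]
  · right
    refine ⟨h1, ?_⟩
    rw [← e1, h1, hz.diff758]

theorem pt_add758 (V : ℂ) (u : ℝ) (k : ℤ) : S5.H767.pt V (u + 6 * k) = S5.H767.pt V u := by
  unfold S5.H767.pt
  congr 1
  unfold cis
  rw [Complex.exp_eq_exp_iff_exists_int]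
  refine ⟨k, ?_⟩
  push_cast
  ring

/-- the connecting pair is unique -/
theorem Irr.conn_unique758 (h : Irr U T) {a b m n e g a' b' m' n' e' g' : Fin 6} {V1 V2 V1' V2' : ℂ}
    (h1 : QF0 T V a b m n e g V1 V2) (h2 : QF0 T V a' b' m' n' e' g' V1' V2') :
    ({m', n'} : Set (Fin 6)) = {m, n} ∧ ({a', b'} : Set (Fin 6)) = {a, b} := by
  rcases h.pairs758 h1.dpt h2.dpt with h3 | h3
  · exact ⟨h3.2, h3.1⟩
  exfalso
  obtain ⟨s, t, hst, hts, hor, hin, -⟩ := h1.arc
  obtain ⟨s', t', hst', hts', hor', hin', -⟩ := h2.arc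
  -- the ends
  have mem : ∀ y, dist y V = 1 → 4 ≤ (T y).ncard →
      y = S5.H767.pt V s ∨ y = S5.H767.pt V t := by
    intro y hy h4
    rcases hor with ⟨r1, r2⟩ | ⟨r1, r2⟩ <;> rcases h1.ord y hy h4 with q1 | q1
    · exact Or.inr (q1.trans r1)
    · exact Or.inl (q1.trans r2)
    · exact Or.inl (q1.trans r1)
    · exact Or.inr (q1.trans r2)
  have n4 : 4 ≤ (T (S5.H767.pt V s')).ncard ∧ 4 ≤ (T (S5.H767.pt V t')).ncard := by
    have q1 := h2.ord1.ge
    have q2 := h2.ord2.ge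
    rcases hor' with ⟨r1, r2⟩ | ⟨r1, r2⟩ <;> rw [r1] at q1 <;> rw [r2] at q2
    · exact ⟨q2, q1⟩
    · exact ⟨q1, q2⟩
  have hne : S5.H767.pt V s' ≠ S5.H767.pt V t' := pt_ne hst' (by linarith)
  have k1 : S5.H767.pt V s' = S5.H767.pt V s ∧ S5.H767.pt V t' = S5.H767.pt V t ∨
      S5.H767.pt V s' = S5.H767.pt V t ∧ S5.H767.pt V t' = S5.H767.pt V s := by
    rcases mem _ (S5.H767.dist_pt _ _) n4.1 with q1 | q1 <;>
      rcases mem _ (S5.H767.dist_pt _ _) n4.2 with q2 | q2
    · exact absurd (q1.trans q2.symm) hne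
    · exact Or.inl ⟨q1, q2⟩
    · exact Or.inr ⟨q1, q2⟩
    · exact absurd (q1.trans q2.symm) hne
  rcases k1 with ⟨g1, g2⟩ | ⟨g1, g2⟩
  · obtain ⟨k, hk⟩ := S5.H349.pt_eq g1
    obtain ⟨l, hl⟩ := S5.H349.pt_eq g2
    have hkl : k = l := by
      have a1 : ((l - k : ℤ) : ℝ) < 1 := by push_cast; linarith
      have a2 : (-1 : ℝ) < ((l - k : ℤ) : ℝ) := by push_cast; linarith
      have a3 : l - k < 1 := by exact_mod_cast a1
      have a4 : -1 < l - k := by exact_mod_cast a2
      omega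
    subst hkl
    have e1 := hin ((s + t) / 2) ⟨by linarith, by linarith⟩
    have e2 := hin' ((s + t) / 2 + 6 * k) ⟨by rw [hk]; linarith, by rw [hl]; linarith⟩
    rw [pt_add758, e1, h3.1] at e2
    have e3 : a ∈ ({m, n} : Set (Fin 6)) := by rw [← e2]; simp
    rcases e3 with e3 | e3
    · exact h1.dpt.ac e3
    · exact h1.dpt.ad e3
  · obtain ⟨k, hk⟩ := S5.H349.pt_eq g1
    obtain ⟨l, hl⟩ := S5.H349.pt_eq g2
    have a1 : ((l - k : ℤ) : ℝ) < 1 := by push_cast; linarith
    have a2 : (0 : ℝ) < ((l - k : ℤ) : ℝ) := by push_cast; linarith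
    have a3 : l - k < 1 := by exact_mod_cast a1
    have a4 : 0 < l - k := by exact_mod_cast a2
    omega

/-- the separated pair of a quasi-full point is the non-connecting pair -/
structure Gauge758 (T : ℂ → Set (Fin 6)) (f : ℂ → Set (Fin 6)) : Prop where
  ch : ChF T f
  qf : ∀ {V V1 V2 : ℂ} {a b m n e g : Fin 6}, QF0 T V a b m n e g V1 V2 → f V = {m, n}

theorem Irr.exists_gauge758 (h : Irr U T) : ∃ f, Gauge758 T f := by
  classical
  let P : ℂ → Set (Fin 6) → Prop := fun V S => ∃ (a b m n e g : Fin 6) (V1 V2 : ℂ),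
    QF0 T V a b m n e g V1 V2 ∧ S = {m, n}
  let P' : ℂ → Set (Fin 6) → Prop := fun V S => ∃ a b c d : Fin 6, DPt T V a b c d ∧ S = {a, b}
  let G : ℂ → Set (Fin 6) := fun V => if h1 : ∃ S, P V S then h1.choose else
    if h2 : ∃ S, P' V S then h2.choose else ∅
  have hG1 : ∀ V, (∃ S, P V S) → P V (G V) := by
    intro V h1
    have e : G V = h1.choose := dif_pos h1
    rw [e]
    exact h1.choose_spec
  have hG2 : ∀ V, (¬ ∃ S, P V S) → (∃ S, P' V S) → P' V (G V) := by
    intro V h1 h2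
    have e : G V = h2.choose := by
      simp only [G]
      rw [dif_neg h1, dif_pos h2]
    rw [e]
    exact h2.choose_spec
  obtain ⟨f, hf, hf2⟩ := exists_ChF T G (fun z a b c d hz => by
    by_cases h1 : ∃ S, P z S
    · obtain ⟨a', b', m', n', e', g', V1', V2', h2, h3⟩ := hG1 z h1
      rw [h3]
      rcases h.pairs758 hz h2.dpt with h4 | h4
      · exact Or.inr h4.2
      · exact Or.inl h4.2
    · obtain ⟨a', b', c', d', h2, h3⟩ := hG2 z h1 ⟨{a, b}, a, b, c, d, hz, rfl⟩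
      rw [h3]
      rcases h.pairs758 hz h2 with h4 | h4
      · exact Or.inl h4.1
      · exact Or.inr h4.1)
  refine ⟨f, hf, fun {V V1 V2 a b m n e g} hV => ?_⟩
  rw [hf2 V ⟨a, b, m, n, hV.dpt⟩]
  obtain ⟨a', b', m', n', e', g', V1', V2', h2, h3⟩ :=
    hG1 V ⟨{m, n}, a, b, m, n, e, g, V1, V2, hV, rfl⟩
  rw [h3]
  exact (h.conn_unique758 hV h2).1

/-- the faces of a quasi-full point avoid the separated pair -/
theorem Gauge758.diff758 (G : Gauge758 T f) {V1 V2 : ℂ} {a b m n e g : Fin 6}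
    (hV : QF0 T V a b m n e g V1 V2) : T V \ f V = {a, b} := by
  rw [G.qf hV]
  exact hV.dpt.diff758

end Vale.Agent.P032.Six
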