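import Vale.Agent.P032.Carr.LamT

/-!
# P032, X.STATE.5: the jump between the states at two colours

`Ch_diff758` : the difference of the chains of two labellings of the same mesh is the sum over the
ring.  `lamS_jump758` : at a point `x` whose circle has points where only the two colours `a`, `b`
are available, the states at `a` and at `b` differ by the number of `b|d` changes of a labelling of
the circle which avoids `a` (and uses `b` only where `a` is available, too).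
`apF758` : the full apex cover; `Hm.jump758` : the same for the state `lamT` in the presence of
four-coloured points.
-/

open Set Filter Topology Metric Complex

noncomputable section

namespace Vale.Agent.P032.S5

section chain

variable {α : Type} [DecidableEq α]

/-- the difference of the chains of two labellings of the same mesh -/
theorem Ch_diff758 (l l' : ℕ → ℕ → α) (m n : ℕ) (hper : ∀ i ≤ m, l i n = l i 0)
    (hper' : ∀ i ≤ m, l' i n = l' i 0) (hcen : ∀ k ≤ n, l 0 k = l 0 0)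
    (hcen' : ∀ k ≤ n, l' 0 k = l' 0 0) {s : Finset α}
    (hcell : ∀ i < m, ∀ k < n, ∃ M : Finset α, (M.card ≤ 3 ∨ ¬ s ⊆ M) ∧
      ∀ i' k', (i' = i ∨ i' = i + 1) → (k' = k ∨ k' = k + 1) → l i' k' ∈ M ∧ l' i' k' ∈ M) :
    Ch l' m n s + Ch l m n s =
      ∑ k ∈ Finset.range n, hh (l m k) (l m (k + 1)) (l' m k) (l' m (k + 1)) s := by
  have h2 := stokes (fun i k => hh (l i k) (l (i + 1) k) (l' i k) (l' (i + 1) k) s)
    (fun i k => hh (l i k) (l i (k + 1)) (l' i k) (l' i (k + 1)) s)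
    (fun i k => hh (l i k) (l (i + 1) (k + 1)) (l' i k) (l' (i + 1) (k + 1)) s) m n (fun i hi => by
      rw [hper i hi.le, hper (i + 1) hi, hper' i hi.le, hper' (i + 1) hi])
  have h0 : ∀ k ∈ Finset.range n, hh (l 0 k) (l 0 (k + 1)) (l' 0 k) (l' 0 (k + 1)) s = 0 := by
    intro k hk
    rw [hcen k (Finset.mem_range.1 hk).le, hcen (k + 1) (Finset.mem_range.1 hk),
      hcen' k (Finset.mem_range.1 hk).le, hcen' (k + 1) (Finset.mem_range.1 hk)]
    unfold hh
    rw [tau_same12, tau_same23, add_zero]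
  rw [Finset.sum_eq_zero h0, add_zero] at h2
  rw [← h2]
  unfold Ch
  rw [← Finset.sum_add_distrib]
  refine Finset.sum_congr rfl fun i hi => ?_
  rw [← Finset.sum_add_distrib]
  refine Finset.sum_congr rfl fun k hk => ?_
  obtain ⟨M, hM, hl⟩ := hcell i (Finset.mem_range.1 hi) k (Finset.mem_range.1 hk)
  have tz : ∀ w x y z : α, w ∈ M → x ∈ M → y ∈ M → z ∈ M → tet w x y z s = 0 := by
    intro w x y z hw hx hy hz
    rcases hM with hM | hM
    · exact tet_of_card hM hw hx hy hz s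
    · exact tet_of_sub hw hx hy hz hM
  have p00 := hl i k (Or.inl rfl) (Or.inl rfl)
  have p10 := hl (i + 1) k (Or.inr rfl) (Or.inl rfl)
  have p01 := hl i (k + 1) (Or.inl rfl) (Or.inr rfl)
  have p11 := hl (i + 1) (k + 1) (Or.inr rfl) (Or.inr rfl)
  have e1 := prism (l i k) (l (i + 1) k) (l (i + 1) (k + 1)) (l' i k) (l' (i + 1) k)
    (l' (i + 1) (k + 1)) s
  rw [tz _ _ _ _ p00.1 p10.1 p11.1 p11.2, tz _ _ _ _ p00.1 p10.1 p10.2 p11.2,
    tz _ _ _ _ p00.1 p00.2 p10.2 p11.2] at e1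
  have e2 := prism (l i k) (l i (k + 1)) (l (i + 1) (k + 1)) (l' i k) (l' i (k + 1))
    (l' (i + 1) (k + 1)) s
  rw [tz _ _ _ _ p00.1 p01.1 p11.1 p11.2, tz _ _ _ _ p00.1 p01.1 p01.2 p11.2,
    tz _ _ _ _ p00.1 p00.2 p01.2 p11.2] at e2
  linear_combination e1 + e2

/-- the side of the prism over a ring edge where `b` is replaced by `a` -/
theorem hh_flip758 {a b d p q : α} (hab : a ≠ b) (had : a ≠ d) (hbd : b ≠ d) (hp : p ≠ a)
    (hq : q ≠ a) : hh p q (if p = b then a else p) (if q = b then a else q) {a, b, d} =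
      eps p q {b, d} := by
  have tau1 : ∀ r : α, r ≠ a → r ≠ b → tau b a r {a, b, d} = eps b r {b, d} := by
    intro r hra hrb
    by_cases hrd : r = d
    · subst hrd
      rw [show tau b a r {a, b, r} = (1 : ZMod 2) from if_pos ⟨hab.symm, had, hbd, by
        ext t; simp only [Finset.mem_insert, Finset.mem_singleton]; tauto⟩,
        show eps b r {b, r} = (1 : ZMod 2) from if_pos ⟨hbd, rfl⟩]
    · rw [show tau b a r {a, b, d} = (0 : ZMod 2) from if_neg fun h => ?_,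
        show eps b r {b, d} = (0 : ZMod 2) from if_neg fun h => ?_]
      · have h1 : r ∈ ({b, d} : Finset α) := by rw [h.2]; simp
        simp only [Finset.mem_insert, Finset.mem_singleton] at h1
        tauto
      · have h1 : r ∈ ({a, b, d} : Finset α) := by rw [h.2.2.2]; simp
        simp only [Finset.mem_insert, Finset.mem_singleton] at h1
        tauto
  unfold hh
  by_cases h1 : p = b <;> by_cases h2 : q = b
  · subst h1
    subst h2
    rw [if_pos rfl, tau_same12, tau_same23, eps_same, add_zero]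
  · subst h1
    rw [if_pos rfl, if_neg h2, tau_same23, zero_add]
    exact tau1 q hq h2
  · subst h2
    rw [if_pos rfl, if_neg h1, tau_same12, add_zero, ← tau1 p hp h1 |>.trans (eps_symm _ _ _),
      tau_rot p q a]
  · rw [if_neg h1, if_neg h2, tau_same23, tau_same12, add_zero,
      eps_zero (x := b) (by simp) (Ne.symm h1) (Ne.symm h2)]

end chain

/-- **The jump** -/
theorem lamS_jump758 {K : ℂ → Set (Fin 6)} {x : ℂ} (hK : Nice K x) {a b d : Fin 6} (hab : a ≠ b)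
    (had : a ≠ d) (hbd : b ≠ d) (ha : Av K x a) (hb : Av K x b) {v : ZMod 2}
    (hW : ∃ᶠ j : ℕ in atTop, ∃ h : ℕ → Fin 6, h (6 * 2 ^ j) = h 0 ∧
      (∀ k ≤ 6 * 2 ^ j, h k ∈ K (pt x j (2 ^ j) k) ∧ h k ≠ a ∧
        (h k = b → a ∈ K (pt x j (2 ^ j) k))) ∧
        ∑ k ∈ Finset.range (6 * 2 ^ j), eps (h k) (h (k + 1)) {b, d} = v) :
    lamS K a x {a, b, d} + lamS K b x {a, b, d} = v := by
  classical
  obtain ⟨δ, ⟨hδa, hδb⟩, hδ0⟩ :=
    (((lamS_all hK ha).and (lamS_all hK hb)).and self_mem_nhdsWithin).exists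
  have hδ0 : 0 < δ := hδ0
  obtain ⟨δ₁, hδ₁, hL⟩ := exists_leb hK.usc hK.three
  obtain ⟨j, ⟨h, hper, hh1, hsum⟩, hj⟩ :=
    (hW.and_eventually ((tendsto_order.1 tendsto_mesh).2 _ (lt_min hδ0 hδ₁))).exists
  have hjd : (3 : ℝ) / 2 ^ j < δ := hj.trans_le (min_le_left _ _)
  have hj1 : (3 : ℝ) / 2 ^ j < δ₁ := hj.trans_le (min_le_right _ _)
  choose c hc using hK.ne
  let l : ℕ → ℕ → Fin 6 := fun i k => if i = 2 ^ j then h k else c (pt x j i k)
  let l' : ℕ → ℕ → Fin 6 := fun i k =>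
    if i = 2 ^ j then (if h k = b then a else h k) else c (pt x j i k)
  have h0 : (0 : ℕ) ≠ 2 ^ j := by positivity
  have hl : ∀ i ≤ 2 ^ j, ∀ k ≤ 6 * 2 ^ j, l i k ∈ K (pt x j i k) := by
    intro i hi k hk
    by_cases h2 : i = 2 ^ j
    · subst h2
      simp only [l, if_true]
      exact (hh1 k hk).1
    · simp only [l, if_neg h2]
      exact hc _
  have hl' : ∀ i ≤ 2 ^ j, ∀ k ≤ 6 * 2 ^ j, l' i k ∈ K (pt x j i k) := by
    intro i hi k hk
    by_cases h2 : i = 2 ^ j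
    · subst h2
      simp only [l', if_true]
      by_cases h3 : h k = b
      · rw [if_pos h3]
        exact (hh1 k hk).2.2 h3
      · rw [if_neg h3]
        exact (hh1 k hk).1
    · simp only [l', if_neg h2]
      exact hc _
  have hlb : Lb K x δ j l := by
    refine ⟨fun i _ => ?_, fun k _ => ?_, fun i hi k hk => ⟨_, by rwa [dist_self], hl i hi k hk⟩⟩
    · simp only [l]
      by_cases h2 : i = 2 ^ j
      · rw [if_pos h2, if_pos h2, hper]
      · rw [if_neg h2, if_neg h2, pt_per]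
    · simp only [l, if_neg h0, pt_zero]
  have hlb' : Lb K x δ j l' := by
    refine ⟨fun i _ => ?_, fun k _ => ?_, fun i hi k hk => ⟨_, by rwa [dist_self], hl' i hi k hk⟩⟩
    · simp only [l']
      by_cases h2 : i = 2 ^ j
      · rw [if_pos h2, if_pos h2, hper]
      · rw [if_neg h2, if_neg h2, pt_per]
    · simp only [l', if_neg h0, pt_zero]
  have hlm : ∀ k, l (2 ^ j) k = h k := fun k => if_pos rfl
  have hlm' : ∀ k, l' (2 ^ j) k = if h k = b then a else h k := fun k => if_pos rfl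
  have e1 := hδa {a, b, d} (by simp) j hjd l hlb fun k hk => by
    rw [hlm]; exact (hh1 k hk).2.1
  have e2 := hδb {a, b, d} (by simp) j hjd l' hlb' fun k hk => by
    rw [hlm']
    split_ifs with h3
    · exact hab
    · exact h3
  have e3 := Ch_diff758 l l' (2 ^ j) (6 * 2 ^ j) hlb.per hlb'.per hlb.cen hlb'.cen
    (s := {a, b, d}) (fun i hi k hk => by
      obtain ⟨M, hM, hMw⟩ := hL (pt x j i k) (pt_mem hi.le k)
      refine ⟨M, Or.inl hM, fun i' k' q1 q2 => ?_⟩
      have hi' : i' ≤ 2 ^ j := by omega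
      have hk' : k' ≤ 6 * 2 ^ j := by omega
      have hd := (dist_cell x hi' q1 q2).trans_lt hj1
      exact ⟨hMw _ hd _ (hl i' hi' k' hk'), hMw _ hd _ (hl' i' hi' k' hk')⟩)
  rw [e1, e2] at e3
  rw [add_comm, e3, ← hsum]
  refine Finset.sum_congr rfl fun k hk => ?_
  have hk' := Finset.mem_range.1 hk
  rw [hlm, hlm, hlm', hlm']
  exact hh_flip758 hab had hbd (hh1 k hk'.le).2.1 (hh1 (k + 1) hk').2.1

end Vale.Agent.P032.S5

namespace Vale.Agent.P032.Carr

open Vale.Agent.P032.S5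

variable {K : ℂ → Set (Fin 6)} {Z : Set ℂ} {f : ℂ → Set (Fin 6)} {δ δ₀ : ℝ} {x : ℂ}
  {a b d : Fin 6}

/-- the full apex cover: near a point `z` of `Z` the two colours of `K z \ f z` -/
def apF758 (K : ℂ → Set (Fin 6)) (Z : Set ℂ) (f : ℂ → Set (Fin 6)) (δ : ℝ) (w : ℂ) : Set (Fin 6) :=
  {i | (i ∈ K w ∧ ∀ z ∈ Z, δ ≤ dist w z) ∨ ∃ z ∈ Z, dist w z ≤ δ ∧ i ∈ K z ∧ i ∉ f z}

theorem Hm.apx_sub758 (H : Hm K Z f δ₀) (A : Set (Fin 6)) (w : ℂ) :
    apx K Z δ (hp K f A) w ⊆ apF758 K Z f δ w := by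
  rintro i (hi | ⟨z, hz, hwz, rfl⟩)
  · exact Or.inl hi
  · exact Or.inr ⟨z, hz, hwz, H.apex hz A⟩

theorem mem_apF_iff758 (H : Hm K Z f δ₀) {i : Fin 6} {w : ℂ} :
    i ∈ apF758 K Z f δ w ↔ ∃ t : Fin 6, i ∈ apx K Z δ (hp K f {t}ᶜ) w := by
  constructor
  · rintro (hi | ⟨z, hz, hwz, h1, h2⟩)
    · exact ⟨i, Or.inl hi⟩
    · refine ⟨i, Or.inr ⟨z, hz, hwz, ?_⟩⟩
      have h3 : hp K f {i}ᶜ z ∉ ({i}ᶜ : Set (Fin 6)) :=
        pick_avoid (A := {i}ᶜ) ⟨i, h1, h2, by simp⟩
      simpa using h3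
  · rintro ⟨t, ht⟩
    exact H.apx_sub758 _ _ ht

theorem Hm.apF_nice758 (H : Hm K Z f δ₀) (hr : Rg K Z x) (hδ : 0 < δ) (hδ' : δ ≤ δ₀ / 2) :
    Nice (apF758 K Z f δ) x := by
  have hδ₀ := H.pos
  refine ⟨usc_of_closed fun i => ?_, fun y => ?_, fun u hu => ?_⟩
  · have e : {w | i ∈ apF758 K Z f δ w} = ⋃ t : Fin 6, {w | i ∈ apx K Z δ (hp K f {t}ᶜ) w} := by
      ext w
      simp only [mem_ofPred_eq, mem_iUnion]
      exact mem_apF_iff758 H
    rw [e]
    exact isClosed_iUnion_of_finite fun t => (H.sc hδ hδ' _).closed H.compact H.usc i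
  · obtain ⟨i, hi⟩ := apx_ne (Z := Z) (δ := δ) (h := hp K f ∅) H.ne y
    exact ⟨i, H.apx_sub758 _ _ hi⟩
  · by_cases huZ : u ∈ Z
    · have h1 : apF758 K Z f δ u ⊆ K u \ f u := by
        rintro i (⟨-, hi⟩ | ⟨z, hz, huz, h1, h2⟩)
        · have := hi u huZ
          rw [dist_self] at this
          exact absurd hδ (not_lt.2 this)
        · obtain ⟨e1, e2⟩ := H.const z hz u huZ (by linarith)
          rw [e1, e2]
          exact ⟨h1, h2⟩
      have h2 := Set.ncard_le_ncard h1 (Set.toFinite _)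
      rw [H.card_diff huZ] at h2
      omega
    · by_cases hn : ∃ z ∈ Z, dist u z ≤ δ
      · obtain ⟨z, hz, huz⟩ := hn
        refine H.faceU hz (by linarith) huZ fun i hi => ?_
        rcases hi with hi | ⟨z', hz', huz', h1, h2⟩
        · exact Or.inl hi.1
        · obtain ⟨e1, e2⟩ := H.const z hz z' hz' (by
            have := dist_triangle_left z' z u
            linarith)
          exact Or.inr ⟨e1 ▸ h1, e2 ▸ h2⟩
      · push Not at hn
        refine (Set.ncard_le_ncard ?_ (Set.toFinite _)).trans (hr u hu huZ)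
        rintro i (hi | ⟨z, hz, huz, -⟩)
        · exact hi.1
        · exact absurd huz (not_le.2 (hn z hz))

theorem Hm.apF_av758 (H : Hm K Z f δ₀) (ha : Av K x a) (δ : ℝ) : Av (apF758 K Z f δ) x a :=
  fun y hy => (H.av ha δ y hy).imp fun _ h => ⟨H.apx_sub758 _ _ h.1, h.2⟩

/-- the state of the full apex cover -/
theorem Hm.lam_apF758 (H : Hm K Z f δ₀) (hr : Rg K Z x) (ha : Av K x a) (hδ : 0 < δ)
    (hδ' : δ ≤ δ₀ / 2) {s : Finset (Fin 6)} (has : a ∈ s) :
    lamS (apF758 K Z f δ) a x s = lamH K Z f δ₀ a x s := by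
  refine H.lam_eqG hr ha (H.apF_nice758 hr hδ hδ') (H.apF_av758 ha δ) hδ hδ' (fun u hu => ?_) has
  rw [union_eq_left.2 (H.apx_sub758 {a} u)]
  exact (H.apF_nice758 hr hδ hδ').three u hu

/-- **The jump** between the states at `a` and at `b` -/
theorem Hm.jump758 (H : Hm K Z f δ₀) (hr : Rg K Z x) (hab : a ≠ b) (had : a ≠ d) (hbd : b ≠ d)
    (ha : Av K x a) (hb : Av K x b) (hδ : 0 < δ) (hδ' : δ ≤ δ₀ / 2) {v : ZMod 2}
    (hW : ∃ᶠ j : ℕ in atTop, ∃ h : ℕ → Fin 6, h (6 * 2 ^ j) = h 0 ∧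
      (∀ k ≤ 6 * 2 ^ j, h k ∈ apF758 K Z f δ (pt x j (2 ^ j) k) ∧ h k ≠ a ∧
        (h k = b → a ∈ apF758 K Z f δ (pt x j (2 ^ j) k))) ∧
        ∑ k ∈ Finset.range (6 * 2 ^ j), eps (h k) (h (k + 1)) {b, d} = v) :
    lamT K Z f δ₀ a x b d + lamT K Z f δ₀ b x a d = v := by
  have e : ({b, a, d} : Finset (Fin 6)) = {a, b, d} := by
    ext t
    simp only [Finset.mem_insert, Finset.mem_singleton]
    tauto
  rw [lamT_eq ⟨hab, had, hbd⟩, lamT_eq ⟨hab.symm, hbd, had⟩, e,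
    ← H.lam_apF758 hr ha hδ hδ' (by simp), ← H.lam_apF758 hr hb hδ hδ' (by simp)]
  exact lamS_jump758 (H.apF_nice758 hr hδ hδ') hab had hbd (H.apF_av758 ha δ) (H.apF_av758 hb δ) hW

end Vale.Agent.P032.Carr
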