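import Vale.Agent.P032.S5.Lam
import Vale.Agent.P032.Six.Geo

/-!
# P032, X.STATE.5: the changes of a labelling of the circle with one arc of a colour `b`

`ring_two758` : a `2π`-periodic labelling `L` of the angles with the label `b` exactly on an arc
`[θ₁, θ₂]`, label `p` just before and `q` just after the arc: the number of `b|d` changes at the
ring points of the mesh is `[p = d] + [q = d]`.
-/

open Set Filter Topology Metric

noncomputable section

namespace Vale.Agent.P032.S5

/-- the angle of the `k`-th point of the ring of level `j` -/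
def ang758 (j k : ℕ) : ℝ := Real.pi / 3 * (k : ℝ) / 2 ^ j

theorem ang_succ758 (j k : ℕ) : ang758 j (k + 1) = ang758 j k + Real.pi / 3 / 2 ^ j := by
  unfold ang758
  push_cast
  ring

theorem ang_add758 (j k m : ℕ) : ang758 j (k + m) = ang758 j k + ang758 j m := by
  unfold ang758
  push_cast
  ring

theorem ang_per758 (j k : ℕ) : ang758 j (k + 6 * 2 ^ j) = ang758 j k + 2 * Real.pi := by
  rw [ang_add758]
  congr 1
  unfold ang758
  push_cast
  field_simp
  ring

theorem pt_ring_eq758 (x : ℂ) (j k : ℕ) : pt x j (2 ^ j) k = x + Six.cis (ang758 j k) := by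
  unfold pt Six.cis ang758
  have h : (((2 ^ j : ℕ) : ℝ) / 2 ^ j : ℝ) = 1 := by
    push_cast
    exact div_self (by positivity)
  rw [h, Complex.ofReal_one, one_mul]

theorem sum_shift758 {F : ℕ → ZMod 2} {n : ℕ} (hF : ∀ k, F (k + n) = F k) (m : ℕ) :
    ∑ k ∈ Finset.range n, F (m + k) = ∑ k ∈ Finset.range n, F k := by
  induction m with
  | zero => simp
  | succ m ih =>
    rw [← ih]
    have h1 := Finset.sum_range_succ (fun k => F (m + k)) n
    have h2 := Finset.sum_range_succ' (fun k => F (m + k)) n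
    have h3 : F (m + n) = F (m + 0) := hF m
    rw [h1, h3] at h2
    have h4 := add_right_cancel h2
    rw [h4]
    refine Finset.sum_congr rfl fun k _ => ?_
    congr 1
    ring

theorem eps_bd758 {p b d : Fin 6} (hpb : p ≠ b) :
    eps p b {b, d} = if p = d then (1 : ZMod 2) else 0 := by
  by_cases hpd : p = d
  · subst hpd
    rw [if_pos rfl]
    exact if_pos ⟨hpb, Finset.pair_comm _ _⟩
  · rw [if_neg hpd]
    refine if_neg fun h => ?_
    have h1 : p ∈ ({b, d} : Finset (Fin 6)) := by rw [h.2]; simp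
    simp only [Finset.mem_insert, Finset.mem_singleton] at h1
    tauto

/-- **one arc of the label `b`** -/
theorem ring_two758 {L : ℝ → Fin 6} (per : ∀ t, L (t + 2 * Real.pi) = L t) {b d p q : Fin 6}
    {θ₁ θ₂ η : ℝ} (h12 : θ₁ < θ₂) (hη : 0 < η) (h0 : η ≤ θ₁) (hlt : θ₂ + η ≤ θ₁ - η + 2 * Real.pi)
    (hpb : p ≠ b) (hqb : q ≠ b)
    (hin : ∀ t ∈ Icc θ₁ θ₂, L t = b) (hl : ∀ t ∈ Ioo (θ₁ - η) θ₁, L t = p)
    (hr : ∀ t ∈ Ioo θ₂ (θ₂ + η), L t = q) (hout : ∀ t ∈ Ioo θ₂ (θ₁ + 2 * Real.pi), L t ≠ b) :
    ∀ᶠ j : ℕ in atTop, ∑ k ∈ Finset.range (6 * 2 ^ j),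
      eps (L (ang758 j k)) (L (ang758 j (k + 1))) {b, d} =
        (if p = d then (1 : ZMod 2) else 0) + (if q = d then 1 else 0) := by
  have hpi := Real.pi_pos
  have hpi4 := Real.pi_le_four
  filter_upwards [(tendsto_order.1 tendsto_mesh).2 _ (lt_min (half_pos hη) (sub_pos.2 h12))]
    with j hj
  set h : ℝ := Real.pi / 3 / 2 ^ j with hh
  have hh0 : 0 < h := by positivity
  have hh3 : h ≤ 3 / 2 ^ j := by
    rw [hh]
    exact div_le_div_of_nonneg_right (by linarith) (by positivity)
  have hhη : h < η / 2 := hh3.trans_lt (hj.trans_le (min_le_left _ _))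
  have hh12 : h < θ₂ - θ₁ := hh3.trans_lt (hj.trans_le (min_le_right _ _))
  have hang : ∀ k, ang758 j k = k * h := by
    intro k
    unfold ang758
    rw [hh]
    ring
  set n := 6 * 2 ^ j with hn
  set F : ℕ → ZMod 2 := fun k => eps (L (ang758 j k)) (L (ang758 j (k + 1))) {b, d} with hF
  have hFper : ∀ k, F (k + n) = F k := by
    intro k
    simp only [hF]
    have e1 : k + n + 1 = k + 1 + n := by ring
    rw [e1, hn, ang_per758, ang_per758, per, per]
  obtain ⟨m, hm⟩ : ∃ m : ℕ, m = ⌊(θ₁ - η / 2) / h⌋₊ := ⟨_, rfl⟩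
  have hm0 : 0 ≤ (θ₁ - η / 2) / h := div_nonneg (by linarith) hh0.le
  have hm1 : (m : ℝ) * h ≤ θ₁ - η / 2 := by
    have := Nat.floor_le hm0
    rw [← hm] at this
    rwa [le_div_iff₀ hh0] at this
  have hm2 : θ₁ - η / 2 < (m + 1 : ℝ) * h := by
    have := Nat.lt_floor_add_one ((θ₁ - η / 2) / h)
    rw [← hm] at this
    rwa [div_lt_iff₀ hh0] at this
  rw [← sum_shift758 hFper m]
  classical
  set G : ℕ → ZMod 2 := fun k => (if θ₁ ≤ ang758 j (m + k) then
    (if p = d then (1 : ZMod 2) else 0) else 0) +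
      (if θ₂ < ang758 j (m + k) then (if q = d then (1 : ZMod 2) else 0) else 0) with hG
  have key : ∀ k ∈ Finset.range n, F (m + k) = G k + G (k + 1) := by
    intro k hk
    have hk' := Finset.mem_range.1 hk
    set t := ang758 j (m + k) with ht
    have ht' : ang758 j (m + k + 1) = t + h := ang_succ758 j (m + k)
    have e1 : θ₁ - η < t := by
      rw [ht, hang]
      push_cast
      have : (0 : ℝ) ≤ k * h := by positivity
      nlinarith
    have e2 : t + h < θ₁ + 2 * Real.pi := by
      have h1 : t + h = ang758 j (m + (k + 1)) := ht'.symm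
      have h2 : ang758 j (m + (k + 1)) ≤ ang758 j (m + n) := by
        rw [hang, hang]
        refine mul_le_mul_of_nonneg_right ?_ hh0.le
        exact_mod_cast (by omega : m + (k + 1) ≤ m + n)
      rw [hn, ang_per758, hang m] at h2
      linarith
    have eG : G (k + 1) = (if θ₁ ≤ t + h then (if p = d then (1 : ZMod 2) else 0) else 0) +
        (if θ₂ < t + h then (if q = d then (1 : ZMod 2) else 0) else 0) := by
      simp only [hG]
      rw [show m + (k + 1) = m + k + 1 by ring, ht']
    have eG0 : G k = (if θ₁ ≤ t then (if p = d then (1 : ZMod 2) else 0) else 0) +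
        (if θ₂ < t then (if q = d then (1 : ZMod 2) else 0) else 0) := rfl
    rw [eG, eG0]
    simp only [hF]
    rw [ht', ← ht]
    rcases lt_or_ge (t + h) θ₁ with c1 | c1
    · rw [hl t ⟨e1, by linarith⟩, hl (t + h) ⟨by linarith, c1⟩, eps_same,
        if_neg (by linarith), if_neg (by linarith), if_neg (by linarith), if_neg (by linarith)]
      decide
    · rcases lt_or_ge t θ₁ with c2 | c2
      · rw [hl t ⟨e1, c2⟩, hin (t + h) ⟨c1, by linarith⟩, eps_bd758 hpb,
          if_neg (show ¬ θ₁ ≤ t by linarith), if_neg (show ¬ θ₂ < t by linarith),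
          if_pos c1, if_neg (show ¬ θ₂ < t + h by linarith), add_zero, zero_add, add_zero]
      · rcases le_or_gt (t + h) θ₂ with c3 | c3
        · rw [hin t ⟨c2, by linarith⟩, hin (t + h) ⟨c1, c3⟩, eps_same,
            if_pos c2, if_pos c1, if_neg (show ¬ θ₂ < t by linarith),
            if_neg (show ¬ θ₂ < t + h by linarith), add_zero, z2]
        · rcases le_or_gt t θ₂ with c4 | c4
          · rw [hin t ⟨c2, c4⟩, hr (t + h) ⟨c3, by linarith⟩, eps_symm, eps_bd758 hqb,
              if_pos c2, if_pos c1, if_neg (show ¬ θ₂ < t by linarith), if_pos c3, add_zero,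
              ← add_assoc, z2, zero_add]
          · rw [eps_zero (x := b) (by simp) (hout t ⟨c4, by linarith⟩).symm
              (hout (t + h) ⟨c3, e2⟩).symm, if_pos c2, if_pos c1, if_pos c4, if_pos c3, z2]
  rw [Finset.sum_congr rfl key, tele2]
  have eG0 : G 0 = 0 := by
    simp only [hG]
    rw [add_zero, hang, if_neg (by linarith), if_neg (by linarith), add_zero]
  have eGn : G n = (if p = d then (1 : ZMod 2) else 0) + (if q = d then 1 else 0) := by
    simp only [hG]
    rw [hn, ang_per758, hang]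
    have h1 : θ₂ < (m : ℝ) * h + 2 * Real.pi := by nlinarith
    rw [if_pos (by linarith), if_pos h1]
  rw [eG0, eGn, zero_add]

end Vale.Agent.P032.S5
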