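import Vale.Agent.P032.H758.Jump
import Vale.Agent.P032.H758.Ring

/-!
# P032, X.STATE.5: the jump at an exceptional point `V` of the circle

`Hm.jump_pt758` : `V` is an exceptional point of the circle about `x` with `K V = {a, b, m, n}` and
`f V = {m, n}` (apex colours `a`, `b`), the circle passes `V` from a side without `n` to a side
without `m`, all other exceptional points of the circle have an apex off `a`, `b`.  Then the states
at `a` and at `b` differ exactly by the two faces `{a, b, m}`, `{a, b, n}` of `V`.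
-/

open Set Filter Topology Metric Complex

noncomputable section

namespace Vale.Agent.P032.Carr

open Vale.Agent.P032.S5 Vale.Agent.P032.Six

variable {K : ℂ → Set (Fin 6)} {Z : Set ℂ} {f : ℂ → Set (Fin 6)} {δ δ₀ : ℝ} {x : ℂ}
  {a b d : Fin 6}

theorem dist_cis758 (x : ℂ) (s t : ℝ) :
    dist (x + Six.cis s) (x + Six.cis t) ^ 2 = 2 - 2 * Real.cos (s - t) := by
  rw [Six.sq_dist, Real.cos_sub]
  have h1 : ∀ u : ℝ, (Six.cis u).re = Real.cos u := fun u => by
    simp [Six.cis, Complex.exp_ofReal_mul_I_re]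
  have h2 : ∀ u : ℝ, (Six.cis u).im = Real.sin u := fun u => by
    simp [Six.cis, Complex.exp_ofReal_mul_I_im]
  simp only [Complex.add_re, Complex.add_im, h1, h2]
  have e1 := Real.sin_sq_add_cos_sq s
  have e2 := Real.sin_sq_add_cos_sq t
  nlinarith

theorem cis_per758 (t : ℝ) : Six.cis (t + 2 * Real.pi) = Six.cis t := by
  unfold Six.cis
  push_cast
  rw [add_mul, Complex.exp_add, Complex.exp_two_pi_mul_I, mul_one]

theorem cos_lt758 {ε u : ℝ} (h0 : 0 ≤ ε) (h1 : ε < u) (h2 : u < 2 * Real.pi - ε) :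
    Real.cos u < Real.cos ε := by
  rcases le_or_gt u Real.pi with h3 | h3
  · exact Real.cos_lt_cos_of_nonneg_of_le_pi h0 h3 h1
  · have h4 := Real.cos_lt_cos_of_nonneg_of_le_pi h0 (y := 2 * Real.pi - u) (by linarith)
      (by linarith)
    rwa [Real.cos_two_pi_sub] at h4

theorem cos_le758 {ε u : ℝ} (h1 : |u| ≤ ε) (h2 : ε ≤ Real.pi) : Real.cos ε ≤ Real.cos u := by
  rw [← Real.cos_abs u]
  exact Real.cos_le_cos_of_nonneg_of_le_pi (abs_nonneg _) h2 h1

/-- separation of the circle from the other exceptional points without an apex off `A` -/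
theorem Hm.scale758 (H : Hm K Z f δ₀) {V : ℂ} (hiso : ∀ᶠ z in 𝓝 V, z ∈ Z → z = V)
    {P : Set (Fin 6) → Set (Fin 6) → Prop}
    (hP : ∀ z ∈ Z, dist z x = 1 → z ≠ V → P (K z) (f z)) : ∃ δ > 0,
      ∀ z ∈ Z, z ≠ V → (∃ y, dist y x = 1 ∧ dist y z ≤ δ) → P (K z) (f z) := by
  have hc : IsCompact {z | z ∈ Z ∧ z ≠ V ∧ ¬ P (K z) (f z)} := by
    refine H.compact.of_isClosed_subset ?_ fun z hz => hz.1
    rw [← isOpen_compl_iff, isOpen_iff_mem_nhds]
    intro y hy
    by_cases hyV : y = V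
    · subst hyV
      filter_upwards [hiso] with z hz hzZ
      exact hzZ.2.1 (hz hzZ.1)
    by_cases hyZ : y ∈ Z
    · filter_upwards [ball_mem_nhds y H.pos] with z hz hzZ
      obtain ⟨e1, e2⟩ := H.const y hyZ z hzZ.1 (mem_ball.1 hz).le
      exact hy ⟨hyZ, hyV, fun h => hzZ.2.2 (by rw [e1, e2]; exact h)⟩
    · filter_upwards [H.compact.isClosed.isOpen_compl.mem_nhds hyZ] with z hz hzZ
      exact hz hzZ.1
  have hd : Disjoint {z | z ∈ Z ∧ z ≠ V ∧ ¬ P (K z) (f z)} (sphere x 1) := by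
    rw [Set.disjoint_left]
    intro z hz hzS
    exact hz.2.2 (hP z hz.1 hzS hz.2.1)
  obtain ⟨η, hη, hdis⟩ := hd.exists_thickenings hc isClosed_sphere
  refine ⟨η / 2, by linarith, ?_⟩
  rintro z hz hzV ⟨y, hy, hyz⟩
  by_contra hcon
  have h1 : y ∈ thickening η {z | z ∈ Z ∧ z ≠ V ∧ ¬ P (K z) (f z)} := by
    rw [mem_thickening_iff]
    exact ⟨z, ⟨hz, hzV, hcon⟩, by linarith⟩
  have h2 : y ∈ thickening η (sphere x 1) := self_subset_thickening hη _ (mem_sphere.2 hy)
  exact Set.disjoint_left.1 hdis h1 h2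

/-- **The jump at an exceptional point of the circle** -/
theorem Hm.jump_pt758 (H : Hm K Z f δ₀) (hr : Rg K Z x) {m n : Fin 6}
    (hnd : [a, b, m, n].Nodup) (hda : d ≠ a) (hdb : d ≠ b) {θ : ℝ}
    (hVZ : x + Six.cis θ ∈ Z) (hKV : K (x + Six.cis θ) = {a, b, m, n})
    (hfV : f (x + Six.cis θ) = {m, n})
    (hiso : ∀ᶠ z in 𝓝 (x + Six.cis θ), z ∈ Z → z = x + Six.cis θ)
    (hS : ∀ y, dist y x = 1 → ∃ i ∈ K y, i ≠ a ∧ i ≠ b)
    (hz : ∀ z ∈ Z, dist z x = 1 → z ≠ x + Six.cis θ →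
      ∃ i, i ∈ K z ∧ i ∉ f z ∧ i ∉ ({a, b} : Set (Fin 6)))
    (hR : ∀ᶠ t in 𝓝[>] θ, m ∉ K (x + Six.cis t)) (hL : ∀ᶠ t in 𝓝[<] θ, n ∉ K (x + Six.cis t)) :
    lamT K Z f δ₀ a x b d + lamT K Z f δ₀ b x a d = if d = m ∨ d = n then 1 else 0 := by
  classical
  have hpi := Real.pi_pos
  have hpi3 := Real.pi_gt_three
  simp only [List.nodup_cons, List.mem_cons, List.not_mem_nil, or_false, not_or,
    List.nodup_nil, and_true, not_false_eq_true] at hnd
  obtain ⟨⟨hab, ham, han⟩, ⟨hbm, hbn⟩, hmn⟩ := hnd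
  -- a representative of the angle which is larger than `1`
  obtain ⟨N, hN⟩ := exists_nat_gt ((1 - θ) / (2 * Real.pi))
  have hN' : 1 < θ + N * (2 * Real.pi) := by
    rw [div_lt_iff₀ (by positivity)] at hN
    linarith
  have hcisN : ∀ (M : ℕ) (t : ℝ), Six.cis (t + M * (2 * Real.pi)) = Six.cis t := by
    intro M t
    induction M with
    | zero => simp
    | succ M ih =>
      rw [← ih, ← cis_per758 (t + M * (2 * Real.pi))]
      congr 1
      push_cast
      ring
  obtain ⟨θ', hθ'⟩ : ∃ θ' : ℝ, θ' = θ + N * (2 * Real.pi) := ⟨_, rfl⟩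
  have hcis : Six.cis θ' = Six.cis θ := by rw [hθ', hcisN]
  set V := x + Six.cis θ with hV
  have hVx : dist V x = 1 := Six.dist_add_cis x θ
  have hVθ' : V = x + Six.cis θ' := by rw [hcis]
  have hR' : ∀ᶠ t in 𝓝[>] θ', m ∉ K (x + Six.cis t) := by
    have h1 : Tendsto (fun t : ℝ => t - N * (2 * Real.pi)) (𝓝[>] θ') (𝓝[>] θ) := by
      refine tendsto_nhdsWithin_iff.2 ⟨?_, ?_⟩
      · have h2 : Tendsto (fun t : ℝ => t - N * (2 * Real.pi)) (𝓝 θ') (𝓝 (θ' - N * (2 * Real.pi))) :=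
          (continuous_id.sub continuous_const).tendsto θ'
        rw [hθ', add_sub_cancel_right] at h2
        rw [hθ']
        exact h2.mono_left nhdsWithin_le_nhds
      · filter_upwards [self_mem_nhdsWithin] with t ht
        rw [mem_Ioi] at ht ⊢
        linarith
    filter_upwards [h1.eventually hR] with t ht
    rwa [← hcisN N (t - N * (2 * Real.pi)), sub_add_cancel] at ht
  have hL' : ∀ᶠ t in 𝓝[<] θ', n ∉ K (x + Six.cis t) := by
    have h1 : Tendsto (fun t : ℝ => t - N * (2 * Real.pi)) (𝓝[<] θ') (𝓝[<] θ) := by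
      refine tendsto_nhdsWithin_iff.2 ⟨?_, ?_⟩
      · have h2 : Tendsto (fun t : ℝ => t - N * (2 * Real.pi)) (𝓝 θ') (𝓝 (θ' - N * (2 * Real.pi))) :=
          (continuous_id.sub continuous_const).tendsto θ'
        rw [hθ', add_sub_cancel_right] at h2
        rw [hθ']
        exact h2.mono_left nhdsWithin_le_nhds
      · filter_upwards [self_mem_nhdsWithin] with t ht
        rw [mem_Iio] at ht ⊢
        linarith
    filter_upwards [h1.eventually hL] with t ht
    rwa [← hcisN N (t - N * (2 * Real.pi)), sub_add_cancel] at ht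
  obtain ⟨ρ1, hρ1, hρR⟩ : ∃ ρ > 0, ∀ t ∈ Ioo θ' (θ' + ρ), m ∉ K (x + Six.cis t) := by
    obtain ⟨u, hu, hu'⟩ := mem_nhdsGT_iff_exists_Ioo_subset.1 hR'
    exact ⟨u - θ', sub_pos.2 hu, fun t ht => hu' ⟨ht.1, by have := ht.2; linarith⟩⟩
  obtain ⟨ρ2, hρ2, hρL⟩ : ∃ ρ > 0, ∀ t ∈ Ioo (θ' - ρ) θ', n ∉ K (x + Six.cis t) := by
    obtain ⟨u, hu, hu'⟩ := mem_nhdsLT_iff_exists_Ioo_subset.1 hL'
    exact ⟨θ' - u, sub_pos.2 hu, fun t ht => hu' ⟨by have := ht.1; linarith, ht.2⟩⟩
  obtain ⟨r0, hr0, hr0'⟩ := Metric.eventually_nhds_iff.1 hiso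
  obtain ⟨r1, hr1, hr1'⟩ := Metric.eventually_nhds_iff.1 (H.usc V)
  obtain ⟨δ2, hδ2, hδ2'⟩ := H.scale758 (x := x) hiso
    (P := fun S F => ∃ i, i ∈ S ∧ i ∉ F ∧ i ∉ ({a, b} : Set (Fin 6))) hz
  have hδ₀ := H.pos
  obtain ⟨ε, hε⟩ : ∃ ε : ℝ, ε = min (min (min (ρ1 / 2) (ρ2 / 2)) (min (r0 / 4) (r1 / 4)))
      (min (min δ2 (δ₀ / 2)) (1 / 4)) := ⟨_, rfl⟩
  have hε0 : 0 < ε := by
    rw [hε]
    refine lt_min (lt_min (lt_min ?_ ?_) (lt_min ?_ ?_)) (lt_min (lt_min hδ2 ?_) ?_) <;> linarith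
  have e1 : ε ≤ ρ1 / 2 := by
    rw [hε]; exact (min_le_left _ _).trans ((min_le_left _ _).trans (min_le_left _ _))
  have e2 : ε ≤ ρ2 / 2 := by
    rw [hε]; exact (min_le_left _ _).trans ((min_le_left _ _).trans (min_le_right _ _))
  have e3 : ε ≤ r0 / 4 := by
    rw [hε]; exact (min_le_left _ _).trans ((min_le_right _ _).trans (min_le_left _ _))
  have e4 : ε ≤ r1 / 4 := by
    rw [hε]; exact (min_le_left _ _).trans ((min_le_right _ _).trans (min_le_right _ _))
  have e5 : ε ≤ δ2 := by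
    rw [hε]; exact (min_le_right _ _).trans ((min_le_left _ _).trans (min_le_left _ _))
  have e6 : ε ≤ δ₀ / 2 := by
    rw [hε]; exact (min_le_right _ _).trans ((min_le_left _ _).trans (min_le_right _ _))
  have e7 : ε ≤ 1 / 4 := by
    rw [hε]; exact (min_le_right _ _).trans (min_le_right _ _)
  -- the radius
  obtain ⟨δ, hδ⟩ : ∃ δ : ℝ, δ = dist (x + Six.cis ε) (x + Six.cis 0) := ⟨_, rfl⟩
  have hδsq : δ ^ 2 = 2 - 2 * Real.cos ε := by rw [hδ, dist_cis758, sub_zero]
  have hδ0' : 0 ≤ δ := by rw [hδ]; exact dist_nonneg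
  have hcosε : Real.cos ε < 1 := by
    have := cos_lt758 (ε := 0) (u := ε) le_rfl hε0 (by linarith)
    rwa [Real.cos_zero] at this
  have hδ0 : 0 < δ := by
    rcases hδ0'.eq_or_lt with h1 | h1
    · rw [← h1] at hδsq; linarith
    · exact h1
  have hδε : δ ≤ ε := by
    have h1 := Real.one_sub_sq_div_two_le_cos (x := ε)
    nlinarith
  have hin : ∀ t, |t - θ'| ≤ ε → dist (x + Six.cis t) V ≤ δ := by
    intro t ht
    have h1 := dist_cis758 x t θ'
    rw [← hVθ'] at h1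
    have h2 := cos_le758 ht (by linarith)
    have h3 := dist_nonneg (x := x + Six.cis t) (y := V)
    nlinarith
  have hout : ∀ t, θ' + ε < t → t < θ' - ε + 2 * Real.pi → δ < dist (x + Six.cis t) V := by
    intro t ht1 ht2
    have h1 := dist_cis758 x t θ'
    rw [← hVθ'] at h1
    have h2 := cos_lt758 (ε := ε) (u := t - θ') hε0.le (by linarith) (by linarith)
    have h3 := dist_nonneg (x := x + Six.cis t) (y := V)
    nlinarith
  have hclose : ∀ t, |t - θ'| ≤ 2 * ε → dist (x + Six.cis t) V ≤ 2 * ε := by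
    intro t ht
    have h1 := dist_cis758 x t θ'
    rw [← hVθ'] at h1
    have h2 := Real.one_sub_sq_div_two_le_cos (x := t - θ')
    have h3 := dist_nonneg (x := x + Six.cis t) (y := V)
    have h4 : (t - θ') ^ 2 ≤ (2 * ε) ^ 2 := by
      rw [← sq_abs]
      exact pow_le_pow_left₀ (abs_nonneg _) ht 2
    nlinarith
  -- the labels
  have hex : ∀ y, dist y x = 1 → δ < dist y V → ∃ i ∈ apF758 K Z f δ y, i ≠ a ∧ i ≠ b := by
    intro y hy hyV
    by_cases hn : ∃ z ∈ Z, dist y z ≤ δ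
    · obtain ⟨z, hzZ, hyz⟩ := hn
      have hzV : z ≠ V := by
        rintro rfl
        exact absurd hyz (not_le.2 hyV)
      obtain ⟨i, hi1, hi2, hi3⟩ := hδ2' z hzZ hzV ⟨y, hy, hyz.trans (hδε.trans e5)⟩
      refine ⟨i, Or.inr ⟨z, hzZ, hyz, hi1, hi2⟩, ?_⟩
      simpa [not_or] using hi3
    · push Not at hn
      obtain ⟨i, hi, hia, hib⟩ := hS y hy
      exact ⟨i, Or.inl ⟨hi, fun z hz => (hn z hz).le⟩, hia, hib⟩
  let lab : ℂ → Fin 6 := fun y => if dist y V ≤ δ then b else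
    if h : ∃ i ∈ apF758 K Z f δ y, i ≠ a ∧ i ≠ b then h.choose else 0
  have lab_in : ∀ y, dist y V ≤ δ → lab y = b := fun y hy => if_pos hy
  have lab_out : ∀ y, dist y x = 1 → δ < dist y V →
      lab y ∈ apF758 K Z f δ y ∧ lab y ≠ a ∧ lab y ≠ b := by
    intro y hy hyV
    have h1 := hex y hy hyV
    have h2 : lab y = h1.choose := by
      simp only [lab]
      rw [if_neg (not_le.2 hyV), dif_pos h1]
    rw [h2]
    exact h1.choose_spec
  have hper : ∀ t, lab (x + Six.cis (t + 2 * Real.pi)) = lab (x + Six.cis t) := fun t => by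
    rw [cis_per758]
  -- near `V`
  have near : ∀ t, |t - θ'| ≤ 2 * ε → δ < dist (x + Six.cis t) V →
      lab (x + Six.cis t) ∈ K (x + Six.cis t) ∧
        (lab (x + Six.cis t) = m ∨ lab (x + Six.cis t) = n) := by
    intro t ht hd
    obtain ⟨h1, h2, h3⟩ := lab_out _ (Six.dist_add_cis x t) hd
    have hc := hclose t ht
    have h4 : lab (x + Six.cis t) ∈ K (x + Six.cis t) := by
      rcases h1 with h1 | ⟨z, hzZ, hyz, -⟩
      · exact h1.1
      · exfalso
        have h5 : z = V := hr0' (by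
          have := dist_triangle_left z V (x + Six.cis t)
          linarith) hzZ
        rw [h5] at hyz
        linarith
    have h5 : lab (x + Six.cis t) ∈ K V := hr1' (by linarith) h4
    rw [hKV] at h5
    simp only [mem_insert_iff, mem_singleton_iff] at h5
    exact ⟨h4, by tauto⟩
  have hpt : ∀ j k, pt x j (2 ^ j) k = x + Six.cis (ang758 j k) := fun j k => pt_ring_eq758 x j k
  have hring := ring_two758 (L := fun t => lab (x + Six.cis t)) hper (b := b) (d := d) (p := m)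
    (q := n) (θ₁ := θ' - ε) (θ₂ := θ' + ε) (η := ε) (by linarith) hε0 (by linarith) (by linarith)
    (Ne.symm hbm) (Ne.symm hbn) (fun t ht => lab_in _ (hin t (abs_le.2 ⟨by linarith [ht.1], by
      linarith [ht.2]⟩)))
    (fun t ht => by
      have h1 : δ < dist (x + Six.cis t) V := by
        have h2 := hout (t + 2 * Real.pi) (by linarith [ht.1]) (by linarith [ht.2])
        rwa [cis_per758] at h2
      obtain ⟨h2, h3⟩ := near t (abs_le.2 ⟨by linarith [ht.1], by linarith [ht.2]⟩) h1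
      rcases h3 with h3 | h3
      · exact h3
      · exact absurd (h3 ▸ h2) (hρL t ⟨by linarith [ht.1], by linarith [ht.2]⟩))
    (fun t ht => by
      have h1 : δ < dist (x + Six.cis t) V := hout t (by linarith [ht.1]) (by linarith [ht.2])
      obtain ⟨h2, h3⟩ := near t (abs_le.2 ⟨by linarith [ht.1], by linarith [ht.2]⟩) h1
      rcases h3 with h3 | h3
      · exact absurd (h3 ▸ h2) (hρR t ⟨by linarith [ht.1], by linarith [ht.2]⟩)
      · exact h3)
    (fun t ht => (lab_out _ (Six.dist_add_cis x t) (hout t (by linarith [ht.1])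
      (by linarith [ht.2]))).2.2)
  have ha : Av K x a := fun y hy => (hS y hy).imp fun _ h => ⟨h.1, h.2.1⟩
  have hb : Av K x b := fun y hy => (hS y hy).imp fun _ h => ⟨h.1, h.2.2⟩
  have e : (if m = d then (1 : ZMod 2) else 0) + (if n = d then 1 else 0) =
      if d = m ∨ d = n then 1 else 0 := by
    by_cases h1 : d = m
    · rw [if_pos h1.symm, if_neg (by rw [h1]; exact Ne.symm hmn), if_pos (Or.inl h1), add_zero]
    · by_cases h2 : d = n
      · rw [if_neg (Ne.symm h1), if_pos h2.symm, if_pos (Or.inr h2), zero_add]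
      · rw [if_neg (Ne.symm h1), if_neg (Ne.symm h2), if_neg (by tauto), add_zero]
  rw [← e]
  refine H.jump758 hr hab hda.symm hdb.symm ha hb hδ0 (hδε.trans e6)
    (hring.mono fun j hj => ⟨fun k => lab (pt x j (2 ^ j) k), ?_, fun k hk => ?_, ?_⟩).frequently
  · show lab _ = lab _
    rw [pt_per]
  · simp only []
    rw [hpt]
    set y := x + Six.cis (ang758 j k) with hy
    have hyx : dist y x = 1 := Six.dist_add_cis x _
    rcases le_or_gt (dist y V) δ with h1 | h1
    · rw [lab_in y h1]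
      refine ⟨Or.inr ⟨V, hVZ, h1, ?_, ?_⟩, Ne.symm hab, fun _ => Or.inr ⟨V, hVZ, h1, ?_, ?_⟩⟩
      · rw [hKV]; simp
      · rw [hfV]; simp [hbm, hbn]
      · rw [hKV]; simp
      · rw [hfV]; simp [ham, han]
    · obtain ⟨h2, h3, h4⟩ := lab_out y hyx h1
      exact ⟨h2, h3, fun h5 => absurd h5 h4⟩
  · rw [← hj]
    refine Finset.sum_congr rfl fun k _ => ?_
    simp only []
    rw [hpt, hpt]

end Vale.Agent.P032.Carr
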