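import Vale.Agent.P032.H538.State1
import Vale.Agent.P032.H809.Side
import Vale.Agent.P032.H758.Pt

/-!
# P032, X.STATE.5: the jump of the state across a connecting arc, in the frame `DSt`

`DSt.jump758` : `V` a two-pair point of the circle about `x` (any `x`: a point of the exact
`{a, b}`-arc of `S(V)`, a plain end, or a two-pair point at its end), resolved into the two faces
which contain `{a, b}`; no other four-coloured point of the circle is resolved along `{a, b}`.  Then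
`lam a x b d + lam b x a d` is `1` for the two colours `d` of `f V` and `0` for the other two.
-/

open Set Filter Topology Metric

noncomputable section

namespace Vale.Agent.P032.Six

open Vale.Agent.P032.S5 Vale.Agent.P032.Carr

variable {U : Fin 6 → Set ℂ} {T : ℂ → Set (Fin 6)} {f : ℂ → Set (Fin 6)} {Z : Set ℂ} {c : ℂ}
  {R δ₀ : ℝ} {x V : ℂ} {a b m n d : Fin 6}

/-- a half branch of the circle at `x + cis θ` in the angle coordinate, positive side -/
theorem Br.right758 {θ : ℝ} {X : Set (Fin 6)} (h : Br T x (x + cis θ) 1 X) :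
    ∀ᶠ t in 𝓝[>] θ, T (x + cis t) ⊆ X := by
  have h1 : Tendsto (fun t : ℝ => t - θ) (𝓝[>] θ) (𝓝[>] 0) := by
    refine tendsto_nhdsWithin_iff.2 ⟨?_, ?_⟩
    · have h2 : Tendsto (fun t : ℝ => t - θ) (𝓝 θ) (𝓝 (θ - θ)) :=
        (continuous_id.sub continuous_const).tendsto θ
      rw [sub_self] at h2
      exact h2.mono_left nhdsWithin_le_nhds
    · filter_upwards [self_mem_nhdsWithin] with t ht
      rw [mem_Ioi] at ht ⊢
      linarith
  filter_upwards [h1.eventually h] with t ht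
  have e : x + (x + cis θ - x) * cis (1 * (t - θ)) = x + cis t := by
    unfold cis
    rw [add_sub_cancel_left, ← Complex.exp_add]
    congr 2
    push_cast
    ring
  rwa [e] at ht

/-- the same, negative side -/
theorem Br.left758 {θ : ℝ} {X : Set (Fin 6)} (h : Br T x (x + cis θ) (-1) X) :
    ∀ᶠ t in 𝓝[<] θ, T (x + cis t) ⊆ X := by
  have h1 : Tendsto (fun t : ℝ => θ - t) (𝓝[<] θ) (𝓝[>] 0) := by
    refine tendsto_nhdsWithin_iff.2 ⟨?_, ?_⟩
    · have h2 : Tendsto (fun t : ℝ => θ - t) (𝓝 θ) (𝓝 (θ - θ)) :=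
        (continuous_const.sub continuous_id).tendsto θ
      rw [sub_self] at h2
      exact h2.mono_left nhdsWithin_le_nhds
    · filter_upwards [self_mem_nhdsWithin] with t ht
      rw [mem_Iio] at ht
      rw [mem_Ioi]
      linarith
  filter_upwards [h1.eventually h] with t ht
  have e : x + (x + cis θ - x) * cis (-1 * (θ - t)) = x + cis t := by
    unfold cis
    rw [add_sub_cancel_left, ← Complex.exp_add]
    congr 2
    push_cast
    ring
  rwa [e] at ht

namespace DSt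

/-- **(D1) / arc borders**: the jump of the state at the colours of the connecting pair `{a, b}` of
a two-pair point `V` of the circle about `x` -/
theorem jumpR758 (D : DSt U T Z f c R δ₀) (hr : Rg T Z x) (hV : DPt T V a b m n)
    (hVx : dist V x = 1) (hf : f V = {m, n}) (hab : ∀ y, dist y x = 1 → ¬ T y ⊆ {a, b})
    (hap : ∀ z, dist z x = 1 → 4 ≤ (T z).ncard → z ≠ V → ¬ T z \ f z ⊆ {a, b})
    (hda : d ≠ a) (hdb : d ≠ b) :
    lamT T Z f δ₀ a x b d + lamT T Z f δ₀ b x a d = if d = m ∨ d = n then 1 else 0 := by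
  have h := D.df.irr
  obtain ⟨θ, hθ⟩ : ∃ θ : ℝ, V = x + cis θ := by
    obtain ⟨θ, hθ⟩ := exists_cis (u := V - x) (by rw [← dist_eq_norm]; exact hVx)
    exact ⟨θ, by rw [← hθ]; ring⟩
  have hVZ : V ∈ Z := by
    by_contra hcon
    have h3 := hr V (mem_closedBall.2 hVx.le) hcon
    rw [hV.ncard] at h3
    omega
  have hiso : ∀ᶠ z in 𝓝 V, z ∈ Z → z = V := by
    filter_upwards [D.df.isolated4 hV] with z hz hzZ
    exact hz (D.zs.four z hzZ)
  have hS : ∀ y, dist y x = 1 → ∃ i ∈ T y, i ≠ a ∧ i ≠ b := by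
    intro y hy
    obtain ⟨i, hi, hi'⟩ := Set.not_subset.1 (hab y hy)
    simp only [mem_insert_iff, mem_singleton_iff, not_or] at hi'
    exact ⟨i, hi, hi'⟩
  have hz : ∀ z ∈ Z, dist z x = 1 → z ≠ V → ∃ i, i ∈ T z ∧ i ∉ f z ∧ i ∉ ({a, b} : Set (Fin 6)) := by
    intro z hz hzx hzV
    obtain ⟨i, hi, hi'⟩ := Set.not_subset.1 (hap z hzx (D.zs.four z hz) hzV)
    exact ⟨i, hi.1, hi.2, hi'⟩
  have nd1 : [a, b, m, n].Nodup := by
    simp only [List.nodup_cons, List.mem_cons, List.not_mem_nil, or_false, not_or,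
      List.nodup_nil, and_true, not_false_eq_true]
    exact ⟨⟨hV.ab, hV.ac, hV.ad⟩, ⟨hV.bc, hV.bd⟩, hV.cd⟩
  have nd2 : [a, b, n, m].Nodup := by
    simp only [List.nodup_cons, List.mem_cons, List.not_mem_nil, or_false, not_or,
      List.nodup_nil, and_true, not_false_eq_true]
    exact ⟨⟨hV.ab, hV.ad, hV.ac⟩, ⟨hV.bd, hV.bc⟩, hV.cd.symm⟩
  have hpal := hV.pal
  have hsw : ({a, b, m, n} : Set (Fin 6)) = {a, b, n, m} := by rw [pair_comm m n]
  have hor : (d = n ∨ d = m) ↔ (d = m ∨ d = n) := or_comm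
  -- the two orders of the sides
  have key : (∀ᶠ t in 𝓝[>] θ, m ∉ T (x + cis t)) ∧ (∀ᶠ t in 𝓝[<] θ, n ∉ T (x + cis t)) ∨
      (∀ᶠ t in 𝓝[>] θ, n ∉ T (x + cis t)) ∧ (∀ᶠ t in 𝓝[<] θ, m ∉ T (x + cis t)) := by
    obtain ⟨X, Y, hXY, τ, hτ, h1, h2⟩ := h.side_split hV hVx
    rw [hθ] at h1 h2
    have mX : (n ∉ X ∧ m ∉ Y) ∨ (m ∉ X ∧ n ∉ Y) := by
      rcases hXY with ⟨rfl, rfl⟩ | ⟨rfl, rfl⟩
      · left
        exact ⟨by simp [hV.ad.symm, hV.cd.symm], by simp [hV.bc.symm, hV.cd]⟩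
      · right
        exact ⟨by simp [hV.ac.symm, hV.cd], by simp [hV.bd.symm, hV.cd.symm]⟩
    rcases hτ with rfl | rfl
    · have r1 := Br.right758 h1
      have r2 := Br.left758 h2
      rcases mX with ⟨k1, k2⟩ | ⟨k1, k2⟩
      · exact Or.inr ⟨r1.mono fun t ht hn => k1 (ht hn), r2.mono fun t ht hn => k2 (ht hn)⟩
      · exact Or.inl ⟨r1.mono fun t ht hn => k1 (ht hn), r2.mono fun t ht hn => k2 (ht hn)⟩
    · rw [neg_neg] at h2
      have r1 := Br.left758 h1
      have r2 := Br.right758 h2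
      rcases mX with ⟨k1, k2⟩ | ⟨k1, k2⟩
      · exact Or.inl ⟨r2.mono fun t ht hn => k2 (ht hn), r1.mono fun t ht hn => k1 (ht hn)⟩
      · exact Or.inr ⟨r2.mono fun t ht hn => k2 (ht hn), r1.mono fun t ht hn => k1 (ht hn)⟩
  rw [hθ] at hVZ hiso hz hpal hf
  rcases key with ⟨hR, hL⟩ | ⟨hR, hL⟩
  · exact D.hm.jump_pt758 hr nd1 hda hdb hVZ hpal hf hiso hS hz hR hL
  · have h1 := D.hm.jump_pt758 hr nd2 hda hdb hVZ (hpal.trans hsw)
      (hf.trans (pair_comm m n)) hiso hS hz hR hL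
    rw [h1]
    exact if_congr hor rfl rfl

/-- the same in the ball -/
theorem jump758 (D : DSt U T Z f c R δ₀) (hx : dist x c ≤ R - 1) (hV : DPt T V a b m n)
    (hVx : dist V x = 1) (hf : f V = {m, n}) (hab : ∀ y, dist y x = 1 → ¬ T y ⊆ {a, b})
    (hap : ∀ z, dist z x = 1 → 4 ≤ (T z).ncard → z ≠ V → ¬ T z \ f z ⊆ {a, b})
    (hda : d ≠ a) (hdb : d ≠ b) :
    lamT T Z f δ₀ a x b d + lamT T Z f δ₀ b x a d = if d = m ∨ d = n then 1 else 0 :=
  D.jumpR758 (D.rg hx) hV hVx hf hab hap hda hdb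

/-- the same at a point with at most three colours -/
theorem jump3_758 (D : DSt U T Z f c R δ₀) (hx : dist x c ≤ R - 1) (h3 : (T x).ncard ≤ 3)
    (ha : a ∈ T x) (hb : b ∈ T x) (hV : DPt T V a b m n)
    (hVx : dist V x = 1) (hf : f V = {m, n})
    (hap : ∀ z, dist z x = 1 → 4 ≤ (T z).ncard → z ≠ V → ¬ T z \ f z ⊆ {a, b})
    (hda : d ≠ a) (hdb : d ≠ b) :
    lamT T Z f δ₀ a x b d + lamT T Z f δ₀ b x a d = if d = m ∨ d = n then 1 else 0 := by
  refine D.jump758 hx hV hVx hf (fun y hy hsub => ?_) hap hda hdb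
  refine D.df.irr.not_sub hy h3 (hsub.trans ?_)
  rintro i (rfl | rfl)
  · exact ha
  · exact hb

/-- the same at a two-pair point `x = ap|bq` : `{a, b}` is the pair of a border of `x` and of an
exact arc of the circle about the neighbour `V` -/
theorem jumpV_758 (D : DSt U T Z f c R δ₀) (hx : dist x c ≤ R - 1) {p q : Fin 6}
    (hxD : DPt T x a p b q) (hV : DPt T V a b m n) (hVx : dist V x = 1) (hf : f V = {m, n})
    (hap : ∀ z, dist z x = 1 → 4 ≤ (T z).ncard → z ≠ V → ¬ T z \ f z ⊆ {a, b})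
    (hda : d ≠ a) (hdb : d ≠ b) :
    lamT T Z f δ₀ a x b d + lamT T Z f δ₀ b x a d = if d = m ∨ d = n then 1 else 0 := by
  have h := D.df.irr
  have ha : a ∈ T x := by rw [hxD.pal]; simp
  have hb : b ∈ T x := by rw [hxD.pal]; simp
  refine D.jump758 hx hV hVx hf (fun y hy hsub => ?_) hap hda hdb
  have key : ∀ q', dist q' x = 1 → T q' ⊆ {a, b} → T q' = {a, b} := by
    intro q' hq' hs
    obtain ⟨i, hi, hia⟩ := av_T h ha q' hq'
    obtain ⟨j, hj, hjb⟩ := av_T h hb q' hq'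
    have hi' : i = b := by
      rcases hs hi with h1 | h1
      · exact absurd h1 hia
      · exact h1
    have hj' : j = a := by
      rcases hs hj with h1 | h1
      · exact h1
      · exact absurd h1 hjb
    refine hs.antisymm ?_
    rintro t (rfl | rfl)
    · exact hj' ▸ hj
    · exact hi' ▸ hi
  refine h.no_cross hxD (p := y) ⟨hy, ?_⟩
  filter_upwards [mem_nhdsWithin_of_mem_nhds (h.nhd y), self_mem_nhdsWithin] with q' h1 h2
  exact key q' h2 (h1.trans hsub)

end DSt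

end Vale.Agent.P032.Six
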