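import Vale.Agent.P032.H758.Pt

/-!
# P032, X.STATE.5: the jump at the centre of an arc

`Hm.short758` : the circle about `x` has exactly one closed arc `[θ₁, θ₂]` of points where only the
colours `a`, `b` are available; its ends are isolated exceptional points with an apex `p₁`, `p₂` off
`a`, `b`.  Then the states at `a` and at `b` differ by the faces `{a, b, p₁}`, `{a, b, p₂}`.
-/

open Set Filter Topology Metric Complex

noncomputable section

namespace Vale.Agent.P032.Carr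

open Vale.Agent.P032.S5 Vale.Agent.P032.Six

variable {K : ℂ → Set (Fin 6)} {Z : Set ℂ} {f : ℂ → Set (Fin 6)} {δ δ₀ : ℝ} {x : ℂ}
  {a b d : Fin 6}

theorem cis_natper758 (M : ℕ) (t : ℝ) : Six.cis (t + M * (2 * Real.pi)) = Six.cis t := by
  induction M with
  | zero => simp
  | succ M ih =>
    rw [← ih, ← cis_per758 (t + M * (2 * Real.pi))]
    congr 1
    push_cast
    ring

/-- a radius for an angle -/
theorem exists_radius758 (x : ℂ) {ε : ℝ} (h0 : 0 < ε) (h1 : ε < Real.pi) : ∃ δ : ℝ, 0 < δ ∧ δ ≤ ε ∧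
    ∀ μ : ℝ, (∀ t, |t - μ| ≤ ε → dist (x + Six.cis t) (x + Six.cis μ) ≤ δ) ∧
      ∀ t, μ + ε < t → t < μ - ε + 2 * Real.pi → δ < dist (x + Six.cis t) (x + Six.cis μ) := by
  have hpi := Real.pi_pos
  refine ⟨dist (x + Six.cis ε) (x + Six.cis 0), ?_, ?_, fun μ => ⟨fun t ht => ?_, fun t h2 h3 => ?_⟩⟩
  · have h2 := dist_cis758 x ε 0
    rw [sub_zero] at h2
    have h3 := cos_lt758 (ε := 0) (u := ε) le_rfl h0 (by linarith)
    rw [Real.cos_zero] at h3
    rcases (dist_nonneg (x := x + Six.cis ε) (y := x + Six.cis 0)).eq_or_lt with h4 | h4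
    · rw [← h4] at h2; linarith
    · exact h4
  · have h2 := dist_cis758 x ε 0
    rw [sub_zero] at h2
    have h3 := Real.one_sub_sq_div_two_le_cos (x := ε)
    have h4 := dist_nonneg (x := x + Six.cis ε) (y := x + Six.cis 0)
    nlinarith
  · have h2 := dist_cis758 x ε 0
    have h3 := dist_cis758 x t μ
    rw [sub_zero] at h2
    have h4 := cos_le758 ht h1.le
    have h5 := dist_nonneg (x := x + Six.cis t) (y := x + Six.cis μ)
    have h6 := dist_nonneg (x := x + Six.cis ε) (y := x + Six.cis 0)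
    nlinarith
  · have h4 := dist_cis758 x ε 0
    have h5 := dist_cis758 x t μ
    rw [sub_zero] at h4
    have h6 := cos_lt758 (ε := ε) (u := t - μ) h0.le (by linarith) (by linarith)
    have h7 := dist_nonneg (x := x + Six.cis t) (y := x + Six.cis μ)
    have h8 := dist_nonneg (x := x + Six.cis ε) (y := x + Six.cis 0)
    nlinarith

/-- **the jump at the centre of one arc**, first with large angles -/
theorem Hm.short_aux758 (H : Hm K Z f δ₀) (hr : Rg K Z x) (hab : a ≠ b) (hda : d ≠ a)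
    (hdb : d ≠ b) {θ₁ θ₂ : ℝ} (h1 : 1 < θ₁) (h12 : θ₁ < θ₂) (h21 : θ₂ ≤ θ₁ + Real.pi)
    {p₁ p₂ : Fin 6} (hp₁a : p₁ ≠ a) (hp₁b : p₁ ≠ b) (hp₂a : p₂ ≠ a) (hp₂b : p₂ ≠ b)
    (hP₁ : p₁ ∈ K (x + Six.cis θ₁)) (hP₁f : p₁ ∉ f (x + Six.cis θ₁)) (hZ₁ : x + Six.cis θ₁ ∈ Z)
    (hP₂ : p₂ ∈ K (x + Six.cis θ₂)) (hP₂f : p₂ ∉ f (x + Six.cis θ₂)) (hZ₂ : x + Six.cis θ₂ ∈ Z)
    (hiso₁ : ∀ᶠ z in 𝓝 (x + Six.cis θ₁), z ∈ Z → z = x + Six.cis θ₁)
    (hiso₂ : ∀ᶠ z in 𝓝 (x + Six.cis θ₂), z ∈ Z → z = x + Six.cis θ₂)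
    (hin : ∀ t ∈ Ioo θ₁ θ₂, a ∈ K (x + Six.cis t) ∧ b ∈ K (x + Six.cis t) ∧ x + Six.cis t ∉ Z)
    (hout : ∀ t ∈ Ioo θ₂ (θ₁ + 2 * Real.pi), ∃ i ∈ K (x + Six.cis t), i ≠ a ∧ i ≠ b)
    (ha : Av K x a) (hb : Av K x b)
    (hz : ∀ z ∈ Z, dist z x = 1 → ∃ i, i ∈ K z ∧ i ∉ f z ∧ i ∉ ({a, b} : Set (Fin 6))) :
    lamT K Z f δ₀ a x b d + lamT K Z f δ₀ b x a d =
      (if p₁ = d then (1 : ZMod 2) else 0) + (if p₂ = d then 1 else 0) := by
  classical
  have hpi := Real.pi_pos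
  have hpi3 := Real.pi_gt_three
  have hδ₀ := H.pos
  set P₁ := x + Six.cis θ₁ with hP1
  set P₂ := x + Six.cis θ₂ with hP2
  obtain ⟨δ2, hδ2, hδ2le, hδ2'⟩ := H.scale (x := x)
    (P := fun S F => ∃ i, i ∈ S ∧ i ∉ F ∧ i ∉ ({a, b} : Set (Fin 6))) hz
  obtain ⟨r1, hr1, hr1'⟩ := Metric.eventually_nhds_iff.1 hiso₁
  obtain ⟨r2, hr2, hr2'⟩ := Metric.eventually_nhds_iff.1 hiso₂
  -- the other exceptional points are away from the closed arc
  obtain ⟨r3, hr3, hr3'⟩ : ∃ r > 0, ∀ z ∈ Z, z ≠ P₁ → z ≠ P₂ → ∀ t ∈ Icc θ₁ θ₂,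
      r < dist (x + Six.cis t) z := by
    have hA : IsCompact ((fun t : ℝ => x + Six.cis t) '' Icc θ₁ θ₂) :=
      isCompact_Icc.image (continuous_const.add Six.continuous_cis)
    have hc : IsCompact (Z \ (ball P₁ r1 ∪ ball P₂ r2)) := H.compact.diff (isOpen_ball.union isOpen_ball)
    have hd : Disjoint ((fun t : ℝ => x + Six.cis t) '' Icc θ₁ θ₂) (Z \ (ball P₁ r1 ∪ ball P₂ r2)) := by
      rw [Set.disjoint_left]
      rintro _ ⟨t, ht, rfl⟩ hcon
      rcases ht.1.eq_or_lt with h3 | h3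
      · subst h3
        exact hcon.2 (Or.inl (mem_ball_self hr1))
      · rcases ht.2.eq_or_lt with h4 | h4
        · subst h4
          exact hcon.2 (Or.inr (mem_ball_self hr2))
        · exact (hin t ⟨h3, h4⟩).2.2 hcon.1
    obtain ⟨η, hη, hdis⟩ := hd.exists_thickenings hA hc.isClosed
    refine ⟨η / 2, by linarith, fun z hzZ hz1 hz2 t ht => ?_⟩
    by_contra hcon
    push Not at hcon
    have hzB : z ∈ Z \ (ball P₁ r1 ∪ ball P₂ r2) := by
      refine ⟨hzZ, ?_⟩
      rintro (h3 | h3)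
      · exact hz1 (hr1' (mem_ball.1 h3) hzZ)
      · exact hz2 (hr2' (mem_ball.1 h3) hzZ)
    have h3 : z ∈ thickening η ((fun t : ℝ => x + Six.cis t) '' Icc θ₁ θ₂) := by
      rw [mem_thickening_iff]
      exact ⟨_, ⟨t, ht, rfl⟩, by rw [dist_comm]; linarith⟩
    exact Set.disjoint_left.1 hdis h3 (self_subset_thickening hη _ hzB)
  obtain ⟨ε, hε⟩ : ∃ ε : ℝ, ε = min (min (min δ2 (δ₀ / 2)) (min r3 (1 / 4))) ((θ₂ - θ₁) / 4) :=
    ⟨_, rfl⟩
  have hε0 : 0 < ε := by
    rw [hε]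
    refine lt_min (lt_min (lt_min hδ2 ?_) (lt_min hr3 ?_)) ?_ <;> linarith
  have e1 : ε ≤ δ2 := by
    rw [hε]; exact (min_le_left _ _).trans ((min_le_left _ _).trans (min_le_left _ _))
  have e2 : ε ≤ δ₀ / 2 := by
    rw [hε]; exact (min_le_left _ _).trans ((min_le_left _ _).trans (min_le_right _ _))
  have e3 : ε ≤ r3 := by
    rw [hε]; exact (min_le_left _ _).trans ((min_le_right _ _).trans (min_le_left _ _))
  have e4 : ε ≤ 1 / 4 := by
    rw [hε]; exact (min_le_left _ _).trans ((min_le_right _ _).trans (min_le_right _ _))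
  have e5 : ε ≤ (θ₂ - θ₁) / 4 := by
    rw [hε]; exact min_le_right _ _
  obtain ⟨δ, hδ0, hδε, hδ⟩ := exists_radius758 x hε0 (by linarith)
  obtain ⟨ρ, hρ0, hρw, hρ⟩ := exists_radius758 x (ε := (θ₂ - θ₁) / 2 - ε) (by linarith)
    (by linarith)
  set w := (θ₂ - θ₁) / 2 - ε with hw
  set μ := (θ₁ + θ₂) / 2 with hμ
  set M := x + Six.cis μ with hM
  -- membership in the full apex cover
  have mem1 : ∀ y, dist y P₁ ≤ δ → p₁ ∈ apF758 K Z f δ y := fun y hy =>
    Or.inr ⟨P₁, hZ₁, hy, hP₁, hP₁f⟩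
  have mem2 : ∀ y, dist y P₂ ≤ δ → p₂ ∈ apF758 K Z f δ y := fun y hy =>
    Or.inr ⟨P₂, hZ₂, hy, hP₂, hP₂f⟩
  have memb : ∀ t, |t - μ| ≤ w → a ∈ apF758 K Z f δ (x + Six.cis t) ∧
      b ∈ apF758 K Z f δ (x + Six.cis t) := by
    intro t ht
    rw [abs_le] at ht
    have t1 : θ₁ + ε ≤ t := by linarith
    have t2 : t ≤ θ₂ - ε := by linarith
    have hfar : ∀ z ∈ Z, δ ≤ dist (x + Six.cis t) z := by
      intro z hzZ
      by_cases hz1 : z = P₁
      · rw [hz1]
        rcases t1.eq_or_lt with h3 | h3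
        · have h4 := dist_cis758 x t θ₁
          have h5 := (hδ θ₁).1 (θ₁ + ε) (by rw [add_sub_cancel_left, abs_of_pos hε0])
          -- the radius itself
          by_contra hcon
          push Not at hcon
          have hc : Continuous fun s : ℝ => dist (x + Six.cis s) P₁ :=
            (continuous_const.add Six.continuous_cis).dist continuous_const
          obtain ⟨s, hs, hs'⟩ := ((hc.tendsto t).eventually_lt_const hcon).filter_mono
            (nhdsWithin_le_nhds (s := Ioi t)) |>.and (Ioo_mem_nhdsGT (show t < t + 1 by linarith))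
            |>.exists
          have h6 := (hδ θ₁).2 s (by linarith [hs'.1]) (by linarith [hs'.2])
          exact absurd hs (not_lt.2 h6.le)
        · exact ((hδ θ₁).2 t h3 (by linarith)).le
      · by_cases hz2 : z = P₂
        · rw [hz2]
          rcases t2.eq_or_lt with h3 | h3
          · by_contra hcon
            push Not at hcon
            have hc : Continuous fun s : ℝ => dist (x + Six.cis s) P₂ :=
              (continuous_const.add Six.continuous_cis).dist continuous_const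
            obtain ⟨s, hs, hs'⟩ := ((hc.tendsto t).eventually_lt_const hcon).filter_mono
              (nhdsWithin_le_nhds (s := Iio t)) |>.and (Ioo_mem_nhdsLT (show t - 1 < t by linarith))
              |>.exists
            have h6 := (hδ θ₂).2 (s + 2 * Real.pi) (by linarith [hs'.1]) (by linarith [hs'.2])
            rw [cis_per758] at h6
            exact absurd hs (not_lt.2 h6.le)
          · have h6 := (hδ θ₂).2 (t + 2 * Real.pi) (by linarith) (by linarith)
            rw [cis_per758] at h6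
            exact h6.le
        · exact ((hδε.trans e3).trans_lt (hr3' z hzZ hz1 hz2 t ⟨by linarith, by linarith⟩)).le
    obtain ⟨k1, k2, -⟩ := hin t ⟨by linarith, by linarith⟩
    exact ⟨Or.inl ⟨k1, hfar⟩, Or.inl ⟨k2, hfar⟩⟩
  -- labels off the arc
  have hex : ∀ y, dist y x = 1 → ρ < dist y M → ∃ i ∈ apF758 K Z f δ y, i ≠ a ∧ i ≠ b := by
    intro y hy hyM
    by_cases hn : ∃ z ∈ Z, dist y z ≤ δ
    · obtain ⟨z, hzZ, hyz⟩ := hn
      obtain ⟨i, hi1, hi2, hi3⟩ := hδ2' z hzZ ⟨y, hy, hyz.trans (hδε.trans e1)⟩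
      refine ⟨i, Or.inr ⟨z, hzZ, hyz, hi1, hi2⟩, ?_⟩
      simpa [not_or] using hi3
    · push Not at hn
      -- the angle of `y`
      obtain ⟨t, ht, hyt⟩ : ∃ t ∈ Ioc (θ₂ - 2 * Real.pi) θ₂, y = x + Six.cis t := by
        obtain ⟨s, hs⟩ := exists_cis (u := y - x) (by rw [← dist_eq_norm]; exact hy)
        refine ⟨toIocMod (by linarith : (0 : ℝ) < 2 * Real.pi) (θ₂ - 2 * Real.pi) s, ?_, ?_⟩
        · have := toIocMod_mem_Ioc (by linarith : (0 : ℝ) < 2 * Real.pi) (θ₂ - 2 * Real.pi) s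
          rwa [sub_add_cancel] at this
        · have h3 : Six.cis (toIocMod (by linarith : (0 : ℝ) < 2 * Real.pi) (θ₂ - 2 * Real.pi) s) =
              Six.cis s := by
            rw [toIocMod]
            unfold Six.cis
            rw [Complex.exp_eq_exp_iff_exists_int]
            refine ⟨-toIocDiv (by linarith : (0 : ℝ) < 2 * Real.pi) (θ₂ - 2 * Real.pi) s, ?_⟩
            push_cast
            rw [zsmul_eq_mul]
            ring
          rw [h3, ← hs]
          ring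
      have key : ∃ i ∈ K y, i ≠ a ∧ i ≠ b := by
        rcases lt_or_ge t (θ₁ - ε) with c1 | c1
        · have h3 := hout (t + 2 * Real.pi) ⟨by linarith [ht.1], by linarith⟩
          rw [cis_per758, ← hyt] at h3
          exact h3
        · exfalso
          rcases le_or_gt t (θ₁ + ε) with c2 | c2
          · have h3 := (hδ θ₁).1 t (abs_le.2 ⟨by linarith, by linarith⟩)
            rw [← hyt] at h3
            exact absurd h3 (not_le.2 (hn P₁ hZ₁))
          · rcases lt_or_ge t (θ₂ - ε) with c3 | c3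
            · have h3 := (hρ μ).1 t (abs_le.2 ⟨by linarith, by linarith⟩)
              rw [← hyt] at h3
              exact absurd h3 (not_le.2 hyM)
            · have h3 := (hδ θ₂).1 t (abs_le.2 ⟨by linarith, by linarith [ht.2]⟩)
              rw [← hyt] at h3
              exact absurd h3 (not_le.2 (hn P₂ hZ₂))
      obtain ⟨i, hi, hia, hib⟩ := key
      exact ⟨i, Or.inl ⟨hi, fun z hz => (hn z hz).le⟩, hia, hib⟩
  let lab : ℂ → Fin 6 := fun y => if dist y M ≤ ρ then b else if dist y P₁ ≤ δ then p₁ else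
    if dist y P₂ ≤ δ then p₂ else
      if h : ∃ i ∈ apF758 K Z f δ y, i ≠ a ∧ i ≠ b then h.choose else 0
  have lab_in : ∀ y, dist y M ≤ ρ → lab y = b := fun y hy => if_pos hy
  have lab_1 : ∀ y, ρ < dist y M → dist y P₁ ≤ δ → lab y = p₁ := fun y hy hy1 => by
    simp only [lab]
    rw [if_neg (not_le.2 hy), if_pos hy1]
  have lab_2 : ∀ y, ρ < dist y M → δ < dist y P₁ → dist y P₂ ≤ δ → lab y = p₂ :=
    fun y hy hy1 hy2 => by
      simp only [lab]
      rw [if_neg (not_le.2 hy), if_neg (not_le.2 hy1), if_pos hy2]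
  have lab_out : ∀ y, dist y x = 1 → ρ < dist y M →
      lab y ∈ apF758 K Z f δ y ∧ lab y ≠ a ∧ lab y ≠ b := by
    intro y hy hyM
    by_cases hy1 : dist y P₁ ≤ δ
    · rw [lab_1 y hyM hy1]
      exact ⟨mem1 y hy1, hp₁a, hp₁b⟩
    · by_cases hy2 : dist y P₂ ≤ δ
      · rw [lab_2 y hyM (not_le.1 hy1) hy2]
        exact ⟨mem2 y hy2, hp₂a, hp₂b⟩
      · have h3 := hex y hy hyM
        have h4 : lab y = h3.choose := by
          simp only [lab]
          rw [if_neg (not_le.2 hyM), if_neg hy1, if_neg hy2, dif_pos h3]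
        rw [h4]
        exact h3.choose_spec
  have hper : ∀ t, lab (x + Six.cis (t + 2 * Real.pi)) = lab (x + Six.cis t) := fun t => by
    rw [cis_per758]
  have hpt : ∀ j k, pt x j (2 ^ j) k = x + Six.cis (ang758 j k) := fun j k => pt_ring_eq758 x j k
  have hring := ring_two758 (L := fun t => lab (x + Six.cis t)) hper (b := b) (d := d) (p := p₁)
    (q := p₂) (θ₁ := θ₁ + ε) (θ₂ := θ₂ - ε) (η := ε) (by linarith) hε0 (by linarith) (by linarith)
    hp₁b hp₂b (fun t ht => lab_in _ ((hρ μ).1 t (abs_le.2 ⟨by linarith [ht.1], by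
      linarith [ht.2]⟩)))
    (fun t ht => by
      refine lab_1 _ ?_ ((hδ θ₁).1 t (abs_le.2 ⟨by linarith [ht.1], by linarith [ht.2]⟩))
      have h3 := (hρ μ).2 (t + 2 * Real.pi) (by linarith [ht.1]) (by linarith [ht.2])
      rwa [cis_per758] at h3)
    (fun t ht => by
      refine lab_2 _ ((hρ μ).2 t (by linarith [ht.1]) (by linarith [ht.2]))
        ((hδ θ₁).2 t (by linarith [ht.1]) (by linarith [ht.2]))
        ((hδ θ₂).1 t (abs_le.2 ⟨by linarith [ht.1], by linarith [ht.2]⟩)))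
    (fun t ht => (lab_out _ (Six.dist_add_cis x t) ((hρ μ).2 t (by linarith [ht.1])
      (by linarith [ht.2]))).2.2)
  refine H.jump758 hr hab hda.symm hdb.symm ha hb hδ0 (hδε.trans e2)
    (hring.mono fun j hj => ⟨fun k => lab (pt x j (2 ^ j) k), ?_, fun k hk => ?_, ?_⟩).frequently
  · show lab _ = lab _
    rw [pt_per]
  · simp only []
    rw [hpt]
    have hyx : dist (x + Six.cis (ang758 j k)) x = 1 := Six.dist_add_cis x _
    rcases le_or_gt (dist (x + Six.cis (ang758 j k)) M) ρ with h3 | h3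
    · rw [lab_in _ h3]
      -- the angle modulo the period
      obtain ⟨t, ht, hyt⟩ : ∃ t ∈ Ioc (μ - Real.pi) (μ + Real.pi),
          x + Six.cis (ang758 j k) = x + Six.cis t := by
        refine ⟨toIocMod (by linarith : (0 : ℝ) < 2 * Real.pi) (μ - Real.pi) (ang758 j k), ?_, ?_⟩
        · have := toIocMod_mem_Ioc (by linarith : (0 : ℝ) < 2 * Real.pi) (μ - Real.pi) (ang758 j k)
          rwa [show μ - Real.pi + 2 * Real.pi = μ + Real.pi by ring] at this
        · congr 1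
          symm
          rw [toIocMod]
          unfold Six.cis
          rw [Complex.exp_eq_exp_iff_exists_int]
          refine ⟨-toIocDiv (by linarith : (0 : ℝ) < 2 * Real.pi) (μ - Real.pi) (ang758 j k), ?_⟩
          push_cast
          rw [zsmul_eq_mul]
          ring
      have h4 : |t - μ| ≤ w := by
        rw [abs_le]
        rw [hyt] at h3
        constructor
        · by_contra hcon
          push Not at hcon
          have h5 := (hρ μ).2 (t + 2 * Real.pi) (by linarith [ht.1]) (by linarith)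
          rw [cis_per758] at h5
          exact absurd h3 (not_le.2 h5)
        · by_contra hcon
          push Not at hcon
          exact absurd h3 (not_le.2 ((hρ μ).2 t (by linarith) (by linarith [ht.2])))
      rw [hyt]
      exact ⟨(memb t h4).2, hab.symm, fun _ => (memb t h4).1⟩
    · obtain ⟨h4, h5, h6⟩ := lab_out _ hyx h3
      exact ⟨h4, h5, fun h7 => absurd h7 h6⟩
  · rw [← hj]
    refine Finset.sum_congr rfl fun k _ => ?_
    simp only []
    rw [hpt, hpt]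

/-- **the jump at the centre of one arc** -/
theorem Hm.short758 (H : Hm K Z f δ₀) (hr : Rg K Z x) (hab : a ≠ b) (hda : d ≠ a)
    (hdb : d ≠ b) {θ₁ θ₂ : ℝ} (h12 : θ₁ < θ₂) (h21 : θ₂ ≤ θ₁ + Real.pi)
    {p₁ p₂ : Fin 6} (hp₁a : p₁ ≠ a) (hp₁b : p₁ ≠ b) (hp₂a : p₂ ≠ a) (hp₂b : p₂ ≠ b)
    (hP₁ : p₁ ∈ K (x + Six.cis θ₁)) (hP₁f : p₁ ∉ f (x + Six.cis θ₁)) (hZ₁ : x + Six.cis θ₁ ∈ Z)
    (hP₂ : p₂ ∈ K (x + Six.cis θ₂)) (hP₂f : p₂ ∉ f (x + Six.cis θ₂)) (hZ₂ : x + Six.cis θ₂ ∈ Z)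
    (hiso₁ : ∀ᶠ z in 𝓝 (x + Six.cis θ₁), z ∈ Z → z = x + Six.cis θ₁)
    (hiso₂ : ∀ᶠ z in 𝓝 (x + Six.cis θ₂), z ∈ Z → z = x + Six.cis θ₂)
    (hin : ∀ t ∈ Ioo θ₁ θ₂, a ∈ K (x + Six.cis t) ∧ b ∈ K (x + Six.cis t) ∧ x + Six.cis t ∉ Z)
    (hout : ∀ t ∈ Ioo θ₂ (θ₁ + 2 * Real.pi), ∃ i ∈ K (x + Six.cis t), i ≠ a ∧ i ≠ b)
    (ha : Av K x a) (hb : Av K x b)
    (hz : ∀ z ∈ Z, dist z x = 1 → ∃ i, i ∈ K z ∧ i ∉ f z ∧ i ∉ ({a, b} : Set (Fin 6))) :
    lamT K Z f δ₀ a x b d + lamT K Z f δ₀ b x a d =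
      (if p₁ = d then (1 : ZMod 2) else 0) + (if p₂ = d then 1 else 0) := by
  have hpi := Real.pi_pos
  obtain ⟨N, hN⟩ := exists_nat_gt ((1 - θ₁) / (2 * Real.pi))
  rw [div_lt_iff₀ (by linarith)] at hN
  have e1 := cis_natper758 N θ₁
  have e2 := cis_natper758 N θ₂
  have e3 : ∀ t, Six.cis t = Six.cis (t - N * (2 * Real.pi)) := fun t => by
    rw [← cis_natper758 N (t - N * (2 * Real.pi)), sub_add_cancel]
  refine H.short_aux758 (θ₁ := θ₁ + N * (2 * Real.pi)) (θ₂ := θ₂ + N * (2 * Real.pi)) hr hab hda hdb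
    (by linarith) (by linarith) (by linarith) hp₁a hp₁b hp₂a hp₂b (by rw [e1]; exact hP₁)
    (by rw [e1]; exact hP₁f) (by rw [e1]; exact hZ₁) (by rw [e2]; exact hP₂)
    (by rw [e2]; exact hP₂f) (by rw [e2]; exact hZ₂) (by rw [e1]; exact hiso₁)
    (by rw [e2]; exact hiso₂) (fun t ht => ?_) (fun t ht => ?_) ha hb hz
  · rw [e3 t]
    exact hin _ ⟨by linarith [ht.1], by linarith [ht.2]⟩
  · rw [e3 t]
    exact hout _ ⟨by linarith [ht.1], by linarith [ht.2]⟩

end Vale.Agent.P032.Carr
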