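import Vale.Agent.P032.H538.State1
import Vale.Agent.P032.H961.QF
import Vale.Agent.P032.H758.Short

/-!
# P032, X.STATE.5: the jump at the colours of the connecting pair, read at the vertex itself

`DSt.shortV_758` : `V` quasi-full with the connecting pair `{a, b}` and the ends `V1`, `V2` (two-pair
points); `p₁`, `p₂` colours off `{a, b}` in the faces of `V1`, `V2`.  Then
`lam a V b d + lam b V a d = [p₁ = d] + [p₂ = d]`.
-/

open Set Filter Topology Metric

noncomputable section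

namespace Vale.Agent.P032.Six

open Vale.Agent.P032.S5 Vale.Agent.P032.Carr Vale.Agent.P032.H961

variable {U : Fin 6 → Set ℂ} {T : ℂ → Set (Fin 6)} {f : ℂ → Set (Fin 6)} {Z : Set ℂ} {c : ℂ}
  {R δ₀ : ℝ} {V V1 V2 : ℂ} {a b m n e g d p₁ p₂ : Fin 6}

/-- a palette of the circle about `x` inside the two colours `a`, `b` of `T x` is exact -/
theorem Irr.exact758 (h : Irr U T) {x y : ℂ} (ha : a ∈ T x) (hb : b ∈ T x) (hy : dist y x = 1)
    (hs : T y ⊆ {a, b}) : T y = {a, b} := by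
  obtain ⟨i, hi, hia⟩ := av_T h ha y hy
  obtain ⟨j, hj, hjb⟩ := av_T h hb y hy
  have hi' : i = b := by
    rcases hs hi with h1 | h1
    · exact absurd h1 hia
    · exact h1
  have hj' : j = a := by
    rcases hs hj with h1 | h1
    · exact h1
    · exact absurd h1 hjb
  refine hs.antisymm ?_
  rintro t (rfl | rfl)
  · exact hj' ▸ hj
  · exact hi' ▸ hi

theorem DSt.short_aux758 (D : DSt U T Z f c R δ₀) (hx : dist V c ≤ R - 1)
    (hT : T V = {a, b, m, n}) {s t : ℝ} (hst : s < t) (hts : t < s + 1)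
    (hin : ∀ u ∈ Ioo s t, T (S5.H767.pt V u) = {a, b})
    (hout : ∀ y, dist y V = 1 → a ∈ T y → b ∈ T y → y ∈ S5.H767.pt V '' Icc s t)
    (h1 : ∃ a b c d, DPt T (S5.H767.pt V s) a b c d) (h2 : ∃ a b c d, DPt T (S5.H767.pt V t) a b c d)
    (hab : a ≠ b) (hp₁a : p₁ ≠ a) (hp₁b : p₁ ≠ b) (hp₂a : p₂ ≠ a) (hp₂b : p₂ ≠ b)
    (hp1 : p₁ ∈ T (S5.H767.pt V s) \ f (S5.H767.pt V s))
    (hp2 : p₂ ∈ T (S5.H767.pt V t) \ f (S5.H767.pt V t)) (hda : d ≠ a) (hdb : d ≠ b) :
    lamT T Z f δ₀ a V b d + lamT T Z f δ₀ b V a d =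
      (if p₁ = d then (1 : ZMod 2) else 0) + (if p₂ = d then 1 else 0) := by
  have h := D.df.irr
  have hpi := Real.pi_pos
  have ha : a ∈ T V := by rw [hT]; simp
  have hb : b ∈ T V := by rw [hT]; simp
  obtain ⟨a1, b1, c1, d1, hD1⟩ := h1
  obtain ⟨a2, b2, c2, d2, hD2⟩ := h2
  have mZ : ∀ y, dist y V = 1 → 4 ≤ (T y).ncard → y ∈ Z := fun y hy h4 => D.memZ hx hy.le h4
  refine D.hm.short758 (θ₁ := s * (Real.pi / 3)) (θ₂ := t * (Real.pi / 3)) (D.rg hx) hab hda hdb
    (by nlinarith) (by nlinarith) hp₁a hp₁b hp₂a hp₂b hp1.1 hp1.2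
    (mZ _ (S5.H767.dist_pt _ _) hD1.ncard.ge) hp2.1 hp2.2
    (mZ _ (S5.H767.dist_pt _ _) hD2.ncard.ge) ?_ ?_ (fun u hu => ?_) (fun u hu => ?_)
    (av_T h ha) (av_T h hb) (fun z hz hzV => ?_)
  · filter_upwards [D.df.isolated4 hD1] with z hz hzZ
    exact hz (D.zs.four z hzZ)
  · filter_upwards [D.df.isolated4 hD2] with z hz hzZ
    exact hz (D.zs.four z hzZ)
  · have hu' : u / (Real.pi / 3) ∈ Ioo s t := by
      constructor
      · rw [lt_div_iff₀ (by positivity)]
        exact hu.1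
      · rw [div_lt_iff₀ (by positivity)]
        exact hu.2
    have e : V + cis u = S5.H767.pt V (u / (Real.pi / 3)) := by
      unfold S5.H767.pt
      congr 2
      field_simp
    rw [e, hin _ hu']
    refine ⟨by simp, by simp, fun hz => ?_⟩
    have h4 := D.zs.four _ hz
    rw [hin _ hu', Set.ncard_pair hab] at h4
    omega
  · by_contra hcon
    push Not at hcon
    have hs : T (V + cis u) ⊆ {a, b} := by
      intro i hi
      by_cases hia : i = a
      · exact Or.inl hia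
      · exact Or.inr (hcon i hi hia)
    have hex := h.exact758 ha hb (dist_add_cis V u) hs
    obtain ⟨r, hr, hre⟩ := hout (V + cis u) (dist_add_cis V u) (by rw [hex]; simp)
      (by rw [hex]; simp)
    have e : V + cis u = S5.H767.pt V (u / (Real.pi / 3)) := by
      unfold S5.H767.pt
      congr 2
      field_simp
    rw [e] at hre
    obtain ⟨k, hk⟩ := S5.H349.pt_eq hre
    have hu1 : t < u / (Real.pi / 3) := by
      rw [lt_div_iff₀ (by positivity)]
      exact hu.1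
    have hu2 : u / (Real.pi / 3) < s + 6 := by
      rw [div_lt_iff₀ (by positivity)]
      have := hu.2
      nlinarith
    have hk1 : (k : ℝ) < 0 := by nlinarith [hr.1, hr.2]
    have hk2 : (-1 : ℝ) < k := by nlinarith [hr.1, hr.2]
    have hk3 : k < 0 := by exact_mod_cast hk1
    have hk4 : -1 < k := by exact_mod_cast hk2
    omega
  · by_cases e1 : z = S5.H767.pt V s
    · subst e1
      exact ⟨p₁, hp1.1, hp1.2, by simp [hp₁a, hp₁b]⟩
    by_cases e2 : z = S5.H767.pt V t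
    · subst e2
      exact ⟨p₂, hp2.1, hp2.2, by simp [hp₂a, hp₂b]⟩
    by_contra hcon
    push Not at hcon
    have h4 := D.zs.four z hz
    have hcard : (T z \ f z).ncard = 2 := by
      have h5 := D.ch.circle D.df h4
      have h6 := Set.ncard_sdiff h5.2.1 (Set.toFinite _)
      have h7 := D.df.le4 z
      omega
    have hsub : T z \ f z ⊆ {a, b} := fun i hi => hcon i hi.1 hi.2
    have heq : T z \ f z = {a, b} := Set.eq_of_subset_of_ncard_le hsub
      (by rw [Set.ncard_pair hab, hcard]) (Set.toFinite _)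
    have haz : a ∈ T z := by
      have : a ∈ T z \ f z := by rw [heq]; simp
      exact this.1
    have hbz : b ∈ T z := by
      have : b ∈ T z \ f z := by rw [heq]; simp
      exact this.1
    obtain ⟨r, hr, rfl⟩ := hout z hzV haz hbz
    have h8 := hin r ⟨lt_of_le_of_ne hr.1 fun h9 => e1 (by rw [h9]),
      lt_of_le_of_ne hr.2 fun h9 => e2 (by rw [h9])⟩
    rw [h8, Set.ncard_pair hab] at h4
    omega

/-- **the jump at the connecting pair of `V`, read at `V`** -/
theorem DSt.shortV_758 (D : DSt U T Z f c R δ₀) (hx : dist V c ≤ R - 1)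
    (hV : QF0 T V a b m n e g V1 V2) (h1 : ∃ a b c d, DPt T V1 a b c d)
    (h2 : ∃ a b c d, DPt T V2 a b c d)
    (hp₁a : p₁ ≠ a) (hp₁b : p₁ ≠ b) (hp₂a : p₂ ≠ a) (hp₂b : p₂ ≠ b)
    (hp1 : p₁ ∈ T V1 \ f V1) (hp2 : p₂ ∈ T V2 \ f V2) (hda : d ≠ a) (hdb : d ≠ b) :
    lamT T Z f δ₀ a V b d + lamT T Z f δ₀ b V a d =
      (if p₁ = d then (1 : ZMod 2) else 0) + (if p₂ = d then 1 else 0) := by
  obtain ⟨s, t, hst, hts, hor, hin, hout⟩ := hV.arc
  rcases hor with ⟨rfl, rfl⟩ | ⟨rfl, rfl⟩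
  · rw [D.short_aux758 hx hV.pal hst hts hin hout h2 h1
      hV.dpt.ab hp₂a hp₂b hp₁a hp₁b hp2 hp1 hda hdb, add_comm]
  · exact D.short_aux758 hx hV.pal hst hts hin hout h1 h2 hV.dpt.ab hp₁a hp₁b hp₂a hp₂b
      hp1 hp2 hda hdb

end Vale.Agent.P032.Six
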