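import Vale.Agent.P032.H492.Border
import Vale.Agent.P032.H758.Jump2
import Vale.Agent.P032.H758.Short2
import Vale.Agent.P032.H758.Gauge

/-!
# P032, block X: all borders of a vertex of the chain

`DSt.jump_lim758` : the jump of the state across the border of `V` which is the connecting arc of the
neighbour `V1`; the other two-pair points of `S(V)` have another connecting pair, harmless points are
free.
`DSt.border758` : one formula for all borders of `V` with the neighbours `V1`, `V2`.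
-/

open Set Filter Topology Metric

noncomputable section

namespace Vale.Agent.P032.Six

open Vale.Agent.P032.S5 Vale.Agent.P032.Carr Vale.Agent.P032.H961

variable {U : Fin 6 → Set ℂ} {T : ℂ → Set (Fin 6)} {f : ℂ → Set (Fin 6)} {Z : Set ℂ} {c : ℂ}
  {R δ₀ : ℝ} {x V V1 V2 : ℂ} {a b m n d : Fin 6}

namespace DSt

/-- near `V` the apexes of the points of exactly the colours `a`, `m` are good, except `V1` -/
theorem near_apex758 (D : DSt U T Z f c R δ₀) (ham : a ≠ m)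
    (hcon : ∀ z g h i j, dist z V = 1 → DPt T z g h i j → z ≠ V1 → T z \ f z ≠ {a, m}) :
    ∀ᶠ w in 𝓝 V, T w = {a, m} → ∀ z, dist z w = 1 → 4 ≤ (T z).ncard → z ≠ V1 →
      ¬ T z \ f z ⊆ {a, m} := by
  have hE := D.df.fin V 2
  have h1 : ∀ᶠ w in 𝓝 V, ∀ z ∈ {z | dist z V ≤ 2 ∧ ∃ a b c d, DPt T z a b c d},
      dist z w = 1 → dist z V = 1 := by
    rw [hE.eventually_all]
    intro z _
    by_cases hz : dist z V = 1
    · exact Eventually.of_forall fun _ _ => hz
    · have hc : ContinuousAt (fun w : ℂ => dist z w) V := by fun_prop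
      filter_upwards [hc.eventually_ne hz] with w hw hw1
      exact absurd hw1 hw
  filter_upwards [h1, ball_mem_nhds V one_pos] with w h2 h3 hw z hzw h4 hz1 hsub
  have hcard : (T z \ f z).ncard = 2 := by
    have h5 := D.ch.circle D.df h4
    have h6 := Set.ncard_sdiff h5.2.1 (Set.toFinite _)
    have h7 := D.df.le4 z
    omega
  have heq : T z \ f z = {a, m} := Set.eq_of_subset_of_ncard_le hsub
    (by rw [Set.ncard_pair ham, hcard]) (Set.toFinite _)
  rcases D.df.harm_or h4 with ⟨A, hA⟩ | ⟨g, h, i, j, hD⟩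
  · have hfA := D.ch.harm z A hA
    have h5 := hA.h1 w (by rw [dist_comm]; exact hzw) (by rw [hw, ← heq]; exact sdiff_subset)
    obtain ⟨i, hi⟩ := Set.nonempty_of_ncard_ne_zero (s := A) (by rw [hA.cardA]; omega)
    have h6 := h5 hi
    rw [hw, ← heq] at h6
    exact h6.2 (by rw [hfA]; exact hi)
  · refine hcon z g h i j (h2 z ⟨?_, g, h, i, j, hD⟩ hzw) hD hz1 heq
    have := dist_triangle z w V
    rw [mem_ball] at h3
    linarith

/-- **the jump across an arc border**, in the limit -/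
theorem jump_lim758 (D : DSt U T Z f c R δ₀) (hx : dist V c ≤ R - 1) (hV1 : DPt T V1 a b m n)
    (hf : f V1 = {m, n}) (hcl : ∃ᶠ w in 𝓝 V, T w = {a, b} ∧ dist w V1 = 1)
    (hcon : ∀ z g h i j, dist z V = 1 → DPt T z g h i j → z ≠ V1 → T z \ f z ≠ {a, b})
    (hda : d ≠ a) (hdb : d ≠ b) :
    lamT T Z f δ₀ a V b d + lamT T Z f δ₀ b V a d = if d = m ∨ d = n then 1 else 0 := by
  have hsub : ({a, b} : Set (Fin 6)) ⊆ T V := by
    obtain ⟨w, h1, h2⟩ := (hcl.and_eventually (D.df.irr.nhd V)).exists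
    rw [← h1.1]
    exact h2
  refine D.lim2 hx (hsub (Or.inl rfl)) (hsub (Or.inr rfl))
    (P := fun A B => A b d + B a d = if d = m ∨ d = n then 1 else 0) ?_
  refine (hcl.and_eventually ((D.near_apex758 hV1.ab hcon).and (D.rg_near (D.rg hx)))).mono
    fun w hw => ?_
  obtain ⟨⟨hw1, hw4⟩, hw2, hw3⟩ := hw
  refine ⟨by rw [hw1]; exact Or.inl rfl, by rw [hw1]; exact Or.inr rfl,
    D.jumpR758 hw3 hV1 (by rw [dist_comm]; exact hw4) hf (fun y hy hs => ?_) (hw2 hw1) hda hdb⟩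
  have h3 : (T w).ncard ≤ 3 := by
    rw [hw1, Set.ncard_pair hV1.ab]
    omega
  obtain ⟨i, hi, hi'⟩ := D.df.irr.not_sub' hy h3
  rw [hw1] at hi'
  exact hi' (hs hi)

/-- the connecting pair of the neighbour is read in any order -/
theorem jump_lim'_758 (D : DSt U T Z f c R δ₀) (hx : dist V c ≤ R - 1) {a1 b1 : Fin 6}
    (hV1 : DPt T V1 a1 b1 m n) (hf : f V1 = {m, n})
    (hcl : ∃ᶠ w in 𝓝 V, T w = {a1, b1} ∧ dist w V1 = 1)
    (hp : a1 = a ∧ b1 = b ∨ a1 = b ∧ b1 = a)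
    (hcon : ∀ z g h i j, dist z V = 1 → DPt T z g h i j → z ≠ V1 → T z \ f z ≠ {a, b})
    (hda : d ≠ a) (hdb : d ≠ b) :
    lamT T Z f δ₀ a V b d + lamT T Z f δ₀ b V a d = if d = m ∨ d = n then 1 else 0 := by
  rcases hp with ⟨rfl, rfl⟩ | ⟨rfl, rfl⟩
  · exact D.jump_lim758 hx hV1 hf hcl hcon hda hdb
  · exact D.jump_lim758 hx hV1.swap12 hf (by rwa [pair_comm]) hcon hda hdb

/-- **all borders of a vertex** `V` whose neighbours on the chain are `V1`, `V2` -/
theorem border758 (D : DSt U T Z f c R δ₀) (hx : dist V c ≤ R - 1) {t t' u u' : Fin 6}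
    (hV : DPt T V t t' u u') {a1 b1 m1 n1 a2 b2 m2 n2 : Fin 6} (h1 : DPt T V1 a1 b1 m1 n1)
    (hf1 : f V1 = {m1, n1}) (hc1 : ∃ᶠ w in 𝓝 V, T w = {a1, b1} ∧ dist w V1 = 1)
    (h2 : DPt T V2 a2 b2 m2 n2) (hf2 : f V2 = {m2, n2})
    (hc2 : ∃ᶠ w in 𝓝 V, T w = {a2, b2} ∧ dist w V2 = 1)
    (hinv : ∀ z g h i j, dist z V = 1 → DPt T z g h i j → z ≠ V1 → z ≠ V2 → T z \ f z ≠ {t, u})
    (hne : ¬ ((a1 = t ∧ b1 = u ∨ a1 = u ∧ b1 = t) ∧ (a2 = t ∧ b2 = u ∨ a2 = u ∧ b2 = t)))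
    (hdt : d ≠ t) (hdu : d ≠ u) :
    lamT T Z f δ₀ t V u d + lamT T Z f δ₀ u V t d =
      (if (a1 = t ∧ b1 = u ∨ a1 = u ∧ b1 = t) ∧ (d = m1 ∨ d = n1) then 1 else 0) +
        (if (a2 = t ∧ b2 = u ∨ a2 = u ∧ b2 = t) ∧ (d = m2 ∨ d = n2) then 1 else 0) := by
  have e1 : T V1 \ f V1 = {a1, b1} := by rw [hf1]; exact h1.diff758
  have e2 : T V2 \ f V2 = {a2, b2} := by rw [hf2]; exact h2.diff758
  have key : ∀ {p q : Fin 6}, ({p, q} : Set (Fin 6)) = {t, u} → p ≠ q →
      (p = t ∧ q = u ∨ p = u ∧ q = t) := by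
    intro p q h3 h4
    exact Set.pair_eq_pair_iff.1 h3
  by_cases k1 : a1 = t ∧ b1 = u ∨ a1 = u ∧ b1 = t
  · have k2 : ¬ (a2 = t ∧ b2 = u ∨ a2 = u ∧ b2 = t) := fun k2 => hne ⟨k1, k2⟩
    rw [D.jump_lim'_758 hx h1 hf1 hc1 k1 (fun z g h i j hz hD hz1 heq => ?_) hdt hdu]
    · simp only [k1, true_and, k2, false_and, if_false, add_zero]
    · by_cases hz2 : z = V2
      · rw [hz2, e2] at heq
        exact k2 (key heq h2.ab)
      · exact hinv z g h i j hz hD hz1 hz2 heq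
  · by_cases k2 : a2 = t ∧ b2 = u ∨ a2 = u ∧ b2 = t
    · rw [D.jump_lim'_758 hx h2 hf2 hc2 k2 (fun z g h i j hz hD hz2 heq => ?_) hdt hdu]
      · simp only [k1, false_and, if_false, zero_add, k2, true_and]
      · by_cases hz1 : z = V1
        · rw [hz1, e1] at heq
          exact k1 (key heq h1.ab)
        · exact hinv z g h i j hz hD hz1 hz2 heq
    · simp only [k1, k2, false_and, if_false, add_zero]
      rw [D.agreeV hx hV (fun z g h i j hz hD heq => ?_) d, CharTwo.add_self_eq_zero]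
      by_cases hz1 : z = V1
      · rw [hz1, e1] at heq
        exact k1 (key heq h1.ab)
      · by_cases hz2 : z = V2
        · rw [hz2, e2] at heq
          exact k2 (key heq h2.ab)
        · exact hinv z g h i j hz hD hz1 hz2 heq

end DSt

end Vale.Agent.P032.Six
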