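import Vale.Agent.P032.H961.DH

/-!
# P032, degree theorem with `NoComp`: no `K`-corner of mode `e` on both circles (273's (K4))

`V = (ab | cd)` and `y = (ac | bf)` at distance one, both circles with at most two points of order at
least four, no point with at most three colours of the closed `ab`-, `cd`-arcs of `S(V)` has the colour
`f`, no such point of the closed `ac`-, `bf`-arcs of `S(y)` has the colour `d`, and there are exact
`cd`-points on `S(V)`: impossible (`K4d758.false`).
-/

open Set Filter Topology Metric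

noncomputable section

namespace Vale.Agent.P032.Six

open Vale.Agent.P032.S5.H767 Vale.Agent.P032.H961 Vale.Agent.P032.H564

variable {U : Fin 6 → Set ℂ} {T : ℂ → Set (Fin 6)} {V y x w : ℂ} {P : ℝ → ℂ}
  {a b c d e f : Fin 6} {lo hi : ℝ}

/-- near a point with one letter there is only this letter -/
theorem only_ev758 (C : Ctr U T V a b c d e f) {l : Fin 4}
    (only : ∀ m, x ∈ Lt T V a b c d e f m → m = l) :
    ∀ᶠ q in 𝓝[sphere V 1] x, q ∈ Lt T V a b c d e f l := by
  have h2 : ∀ m, m ≠ l → ∀ᶠ q in 𝓝 x, q ∉ Lt T V a b c d e f m := by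
    intro m hm
    exact (Lt_closed C.irr m).isOpen_compl.mem_nhds fun h3 => hm (only m h3)
  have h3 : ∀ᶠ q in 𝓝 x, ∀ m, m ≠ l → q ∉ Lt T V a b c d e f m := by
    rw [eventually_all]
    intro m
    by_cases hm : m = l
    · exact Eventually.of_forall fun q h4 => absurd hm h4
    · filter_upwards [h2 m hm] with q hq _
      exact hq
  filter_upwards [mem_nhdsWithin_of_mem_nhds h3, self_mem_nhdsWithin] with q hq hqz
  obtain ⟨m, hm⟩ := C.cover (y := q) hqz
  by_cases hml : m = l
  · rw [← hml]; exact hm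
  · exact absurd hm (hq m hml)

/-- **product rule** at a point with one letter -/
theorem only_free758 (C : Ctr U T V a b c d e f) {l : Fin 4} (hx : dist x V = 1)
    (only : ∀ m, x ∈ Lt T V a b c d e f m → m = l) (hy : dist y V = 1) (hxy : x ≠ y)
    (hw : x + y - V ≠ V) {i : Fin 6} (hi : i ∈ col a b c d e f l) : i ∉ T (x + y - V) := by
  intro hiw
  refine line_free C.irr hx (t := i) ((only_ev758 C only).mono fun q hq => Lt_col C.irr hq hi)
    (v := x + y - V) (by rw [dist_partner]; exact hy) hw (fun h1 => hxy ?_) (C.irr.sub _ hiw)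
  linear_combination -h1

/-- **the partner does not have all colours but one of `V`** -/
theorem share758 (h : Irr U T) (hy : dist y V = 1) (hx : dist x V = 1) (hxy : x ≠ y)
    (hw : x + y - V ≠ V) (h3 : (T (x + y - V)).ncard ≤ 3) {t : Fin 6} (ht : t ∈ T V)
    (hs : T x ⊆ insert t (T (x + y - V))) : False := by
  rcases h.lemmaX (u := x + y - V) (p := x) (v := V) (t := t)
    (by rw [dist_partner]; exact hy) h3 hs hx (h.sub _ ht) with h1 | h1
  · exact hw h1.symm
  · exact hxy (by linear_combination -h1)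

theorem eq_three758 {M : Set (Fin 6)} (h3 : M.ncard ≤ 3) {p q r : Fin 6} (hp : p ∈ M) (hq : q ∈ M)
    (hr : r ∈ M) (pq : p ≠ q) (pr : p ≠ r) (qr : q ≠ r) : M = {p, q, r} := by
  symm
  refine Set.eq_of_subset_of_ncard_le ?_ ?_ (Set.toFinite _)
  · rintro i (rfl | rfl | rfl) <;> assumption
  · rw [Set.ncard_eq_three.2 ⟨p, q, r, pq, pr, qr, rfl⟩]
    exact h3

/-- heights: the letters `e`, `f`, exact `ab` on an interval without `cd` and without points of order
four -/
theorem intCov758 (C : Ctr U T V c d a b e f) (hC : Circ V P)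
    (off : ∀ u ∈ Ioo lo hi, P u ∉ closure (Ex T V {c, d}))
    (three : ∀ u ∈ Ioo lo hi, (T (P u)).ncard ≤ 3) :
    IntCov (H961.Qd T V c d a b e f P) lo hi where
  ne t ht := by
    obtain ⟨l, hl⟩ := C.cover (hC.dst t)
    have h2 : l ≠ 2 := by
      rintro rfl
      exact off t ht hl
    obtain ⟨l', hl'⟩ := mm_surj l h2
    subst hl'
    exact ⟨l', hl⟩
  nu t ht := by
    by_contra hcon
    push Not at hcon
    have h0 : P t ∈ Lt T V c d a b e f (mm 0) := hcon 0
    have h1 : P t ∈ Lt T V c d a b e f (mm 1) := hcon 1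
    have h2 : P t ∈ Lt T V c d a b e f (mm 2) := hcon 2
    rcases C.two (three t ht) h0 h1 h2 with h | h | h
    · exact absurd h (by decide)
    · exact absurd h (by decide)
    · exact absurd h (by decide)
  usc t _ := by
    have h1 : ∀ l : Fin 3, l ∉ H961.Qd T V c d a b e f P t → ∀ᶠ s in 𝓝 t, l ∉ H961.Qd T V c d a b e f P s :=
      fun l hl => ((Lt_closed C.irr (mm l)).preimage hC.cont).isOpen_compl.mem_nhds hl
    have h2 : ∀ᶠ s in 𝓝 t, ∀ l : Fin 3, l ∉ H961.Qd T V c d a b e f P t →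
        l ∉ H961.Qd T V c d a b e f P s := by
      rw [eventually_all]
      intro l
      by_cases hl : l ∈ H961.Qd T V c d a b e f P t
      · exact Eventually.of_forall fun s k => absurd hl k
      · filter_upwards [h1 l hl] with s hs _
        exact hs
    filter_upwards [h2] with s hs l hl
    by_contra hcon
    exact hs l hcon hl
  inc t h1 h2 := fun hs => inc_aux C (hC.dst t) (hC.dst (t + 1)) (hC.one t)
    (three t ⟨h1, by linarith⟩) (three (t + 1) ⟨by linarith, h2⟩)
    (off t ⟨h1, by linarith⟩) fun l hl => hs hl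
  inc' t h1 h2 := fun hs => inc_aux C (hC.dst (t + 1)) (hC.dst t)
    (by rw [dist_comm]; exact hC.one t) (three (t + 1) ⟨by linarith, h2⟩)
    (three t ⟨h1, by linarith⟩) (off (t + 1) ⟨by linarith, h2⟩) fun l hl => hs hl

/-- the circle run backwards -/
theorem neg758 (hC : Circ V P) : Circ V fun t => P (-t) where
  dst u := hC.dst _
  cont := hC.cont.comp continuous_neg
  six u := by
    have := hC.six (-(u + 6))
    rw [show -(u + 6) + 6 = -u by ring] at this
    exact this.symm
  one u := by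
    have := hC.one (-(u + 1))
    rw [show -(u + 1) + 1 = -u by ring] at this
    rw [dist_comm]
    exact this
  sum u := by
    have := hC.sum (-(u + 2))
    rw [show -(u + 2) + 2 = -u by ring, show -(u + 2) + 1 = -(u + 1) by ring] at this
    rw [add_comm]
    exact this
  inj u v h1 h2 := (hC.inj (-v) (-u) (by linarith) (by linarith)).symm
  surj x hx r := by
    obtain ⟨v, hv, hxv⟩ := hC.surj x hx (-r)
    exact ⟨-v, ⟨by linarith [hv.2], by linarith [hv.1]⟩, by rw [neg_neg]; exact hxv⟩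

/-- points of the circle near `P t` have parameters near `t` -/
theorem nhds758 (hC : Circ V P) {t : ℝ} {N : Set ℝ} (hN : N ∈ 𝓝 t) :
    ∀ᶠ q in 𝓝 (P t), dist q V = 1 → ∃ s ∈ N, q = P s := by
  obtain ⟨ε, hε, hball⟩ := Metric.mem_nhds_iff.1 hN
  have hK : IsCompact (Icc (t - 3) (t + 3) \ ball t ε) := isCompact_Icc.diff isOpen_ball
  have hK2 : IsCompact (P '' (Icc (t - 3) (t + 3) \ ball t ε)) := hK.image hC.cont
  have hnot : P t ∉ P '' (Icc (t - 3) (t + 3) \ ball t ε) := by
    rintro ⟨s, ⟨hs, hs2⟩, hst⟩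
    have hne : s ≠ t := by
      rintro rfl
      exact hs2 (mem_ball_self hε)
    rcases lt_or_gt_of_ne hne with h1 | h1
    · exact hC.inj s t h1 (by linarith [hs.1]) hst
    · exact hC.inj t s h1 (by linarith [hs.2]) hst.symm
  filter_upwards [hK2.isClosed.isOpen_compl.mem_nhds hnot] with q hq hqV
  obtain ⟨v, hv, hqv⟩ := hC.surj q hqV t
  refine ⟨v, ?_, hqv⟩
  by_contra hcon
  exact hq ⟨v, ⟨hv, fun h1 => hcon (hball h1)⟩, hqv.symm⟩

/-- the closed exact arcs have no isolated points -/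
theorem not_iso758 {Q : Set (Fin 6)} (hx : x ∈ closure (Ex T V Q)) :
    x ∈ closure (Ex T V Q \ {x}) := by
  by_cases h1 : x ∈ Ex T V Q
  · exact ex_not_iso h1
  · refine closure_mono ?_ hx
    intro q hq
    refine ⟨hq, fun h2 => h1 ?_⟩
    rw [mem_singleton_iff] at h2
    exact h2 ▸ hq

/-- the pairs exchanged -/
theorem swap758 (C : Ctr U T V a b c d e f) : Ctr U T V c d a b e f where
  irr := C.irr
  pal := by
    rw [C.pal]
    ext i
    simp only [mem_insert_iff, mem_singleton_iff]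
    tauto
  nd := by
    have := C.nd
    simp only [List.nodup_cons, List.mem_cons, List.not_mem_nil, or_false, not_or, List.nodup_nil,
      and_true, not_false_eq_true] at this ⊢
    obtain ⟨⟨ab, ac, ad, ae, af⟩, ⟨bc, bd, be, bf⟩, ⟨cd, ce, cf⟩, ⟨de, df⟩, ef⟩ := this
    exact ⟨⟨cd, Ne.symm ac, Ne.symm bc, ce, cf⟩, ⟨Ne.symm ad, Ne.symm bd, de, df⟩, ⟨ab, ae, af⟩,
      ⟨be, bf⟩, ef⟩
  pairs := fun y hy h1 h2 => (C.pairs y hy h1 h2).symm

/-- the data of (K4) -/
structure K4d758 (U : Fin 6 → Set ℂ) (T : ℂ → Set (Fin 6)) (V y : ℂ) (P : ℝ → ℂ)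
    (a b c d e f : Fin 6) : Prop where
  cV : Ctr U T V a b c d e f
  cy : Ctr U T y a c b f e d
  circ : Circ V P
  p0 : P 0 = y
  mV : ∀ x, dist x V = 1 → (T x).ncard ≤ 3 →
    (x ∈ closure (Ex T V {a, b}) ∨ x ∈ closure (Ex T V {c, d})) → f ∉ T x
  mY : ∀ x, dist x y = 1 → (T x).ncard ≤ 3 →
    (x ∈ closure (Ex T y {a, c}) ∨ x ∈ closure (Ex T y {b, f})) → d ∉ T x
  n3V : ∀ y1 y2 y3, dist y1 V = 1 → dist y2 V = 1 → dist y3 V = 1 →
    4 ≤ (T y1).ncard → 4 ≤ (T y2).ncard → 4 ≤ (T y3).ncard → y1 = y2 ∨ y1 = y3 ∨ y2 = y3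
  n3y : ∀ y1 y2 y3, dist y1 y = 1 → dist y2 y = 1 → dist y3 y = 1 →
    4 ≤ (T y1).ncard → 4 ≤ (T y2).ncard → 4 ≤ (T y3).ncard → y1 = y2 ∨ y1 = y3 ∨ y2 = y3
  occ : (Ex T V {c, d}).Nonempty

/-- `v` in `{A, f}` or `w` in `{P, d}` (letters) -/
def F0_758 (T : ℂ → Set (Fin 6)) (V y : ℂ) (a b c d e f : Fin 6) (x : ℂ) : Prop :=
  (x ∈ Lt T V a b c d e f 2 ∨ x ∈ Lt T V a b c d e f 1) ∨
    (x + y - V ∈ Lt T y a c b f e d 2 ∨ x + y - V ∈ Lt T y a c b f e d 1)

/-- `v = C` or `w = Q` (letters) -/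
def F1_758 (T : ℂ → Set (Fin 6)) (V y : ℂ) (a b c d e f : Fin 6) (x : ℂ) : Prop :=
  x ∈ Lt T V a b c d e f 3 ∨ x + y - V ∈ Lt T y a c b f e d 3

namespace K4d758

variable (D : K4d758 U T V y P a b c d e f)
include D

theorem dyV : dist y V = 1 := by rw [← D.p0]; exact D.circ.dst 0

omit D in
theorem dw (hx : dist x V = 1) : dist (x + y - V) y = 1 := by rw [dist_partner']; exact hx

theorem cover01 (hx : dist x V = 1) (hxy : x ≠ y) (hw : x + y - V ≠ V) :
    F1_758 T V y a b c d e f x ∨ F0_758 T V y a b c d e f x := by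
  by_contra hcon
  rw [not_or] at hcon
  obtain ⟨h1, h0⟩ := hcon
  unfold F1_758 at h1
  unfold F0_758 at h0
  push Not at h1 h0
  have only : ∀ m, x ∈ Lt T V a b c d e f m → m = 0 := by
    intro m hm
    fin_cases m
    · rfl
    · exact absurd hm h0.1.2
    · exact absurd hm h0.1.1
    · exact absurd hm h1.1
  have hq : dist (x + y - V) y = 1 := dw hx
  obtain ⟨m, hm⟩ := D.cy.cover hq
  have hm0 : m = 0 := by
    fin_cases m
    · rfl
    · exact absurd hm h0.2.2
    · exact absurd hm h0.2.1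
    · exact absurd hm h1.2
  subst hm0
  exact only_free758 D.cV hx only D.dyV hxy hw (i := e) rfl hm.2

/-- **the two sets are disjoint off the points of order four** -/
theorem excl (hx : dist x V = 1) (h3 : (T x).ncard ≤ 3) (h3w : (T (x + y - V)).ncard ≤ 3)
    (hxy : x ≠ y) (hw : x + y - V ≠ V) (h1 : F1_758 T V y a b c d e f x)
    (h0 : F0_758 T V y a b c d e f x) : False := by
  have h := D.cV.irr
  have hn := D.cV.nd
  simp only [List.nodup_cons, List.mem_cons, List.not_mem_nil, or_false, not_or, List.nodup_nil,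
    and_true, not_false_eq_true] at hn
  obtain ⟨⟨ab, ac, ad, ae, af⟩, ⟨bc, bd, be, bf⟩, ⟨cd, ce, cf⟩, ⟨de, df⟩, ef⟩ := hn
  have hTV : T V = {a, b, c, d} := D.cV.pal
  have hTy : T y = {a, c, b, f} := D.cy.pal
  set w := x + y - V with hwdef
  have hwy : dist w y = 1 := dw hx
  have hVy : dist V y = 1 := by rw [dist_comm]; exact D.dyV
  have hback : w + V - y = x := by rw [hwdef]; ring
  -- product rules
  have pV : ∀ l, (∀ m, x ∈ Lt T V a b c d e f m → m = l) → ∀ i ∈ col a b c d e f l, i ∉ T w :=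
    fun l only i hi => only_free758 D.cV hx only D.dyV hxy hw hi
  have pY : ∀ l, (∀ m, w ∈ Lt T y a c b f e d m → m = l) → ∀ i ∈ col a c b f e d l, i ∉ T x := by
    intro l only i hi
    have := only_free758 D.cy hwy only hVy hw (by rw [hback]; exact hxy) hi
    rwa [hback] at this
  have sV : ∀ t ∈ T V, ¬ T x ⊆ insert t (T w) := fun t ht hs =>
    share758 h D.dyV hx hxy hw h3w ht hs
  have sY : ∀ t ∈ T y, ¬ T w ⊆ insert t (T x) := by
    intro t ht hs
    refine share758 h hVy hwy hw (by rw [hback]; exact hxy) (by rw [hback]; exact h3) ht ?_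
    rw [hback]; exact hs
  have cx : ∀ l, x ∈ Lt T V a b c d e f l → col a b c d e f l ⊆ T x := fun l hl => Lt_col h hl
  have cw : ∀ l, w ∈ Lt T y a c b f e d l → col a c b f e d l ⊆ T w := fun l hl => Lt_col h hl
  rcases h1 with h1 | h1
  · -- `C` at `x`
    have hc : c ∈ T x := cx 3 h1 (Or.inl rfl)
    have hd : d ∈ T x := cx 3 h1 (Or.inr rfl)
    have hf : f ∉ T x := D.mV x hx h3 (Or.inr h1)
    have hno2 : x ∉ Lt T V a b c d e f 2 := fun h2 => D.cV.noAC h3 h2 h1
    have onlyV : e ∉ T x → ∀ m, x ∈ Lt T V a b c d e f m → m = 3 := by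
      intro he m hm
      fin_cases m
      · exact absurd hm.2 he
      · exact absurd hm.2 hf
      · exact absurd hm hno2
      · rfl
    rcases h0 with (h0 | h0) | (h0 | h0)
    · exact hno2 h0
    · exact hf h0.2
    · have hcw : c ∈ T w := cw 2 h0 (Or.inr rfl)
      have he : e ∈ T x := by
        by_contra he
        exact pV 3 (onlyV he) c (Or.inl rfl) hcw
      have hdw : d ∉ T w := D.mY w hwy h3w (Or.inl h0)
      have hno3 : w ∉ Lt T y a c b f e d 3 := fun h2 => D.cy.noAC h3w h0 h2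
      have hew : e ∈ T w := by
        by_contra hew
        refine pY 2 (fun m hm => ?_) c (Or.inr rfl) hc
        fin_cases m
        · exact absurd hm.2 hew
        · exact absurd hm.2 hdw
        · rfl
        · exact absurd hm hno3
      refine sV d (by rw [hTV]; simp) ?_
      rw [eq_three758 h3 hc hd he cd ce de]
      rintro i (rfl | rfl | rfl)
      · exact Or.inr hcw
      · exact Or.inl rfl
      · exact Or.inr hew
    · have hdw : d ∈ T w := h0.2
      have he : e ∈ T x := by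
        by_contra he
        exact pV 3 (onlyV he) d (Or.inr rfl) hdw
      have hew : e ∈ T w := by
        by_contra hew
        refine pY 1 (fun m hm => ?_) d rfl hd
        fin_cases m
        · exact absurd hm.2 hew
        · rfl
        · exact absurd hdw (D.mY w hwy h3w (Or.inl hm))
        · exact absurd hdw (D.mY w hwy h3w (Or.inr hm))
      refine sV c (by rw [hTV]; simp) ?_
      rw [eq_three758 h3 hc hd he cd ce de]
      rintro i (rfl | rfl | rfl)
      · exact Or.inl rfl
      · exact Or.inr hdw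
      · exact Or.inr hew
  · -- `Q` at `w`
    have hb : b ∈ T w := cw 3 h1 (Or.inl rfl)
    have hfw : f ∈ T w := cw 3 h1 (Or.inr rfl)
    have hdw : d ∉ T w := D.mY w hwy h3w (Or.inr h1)
    have hno2 : w ∉ Lt T y a c b f e d 2 := fun h2 => D.cy.noAC h3w h2 h1
    have onlyY : e ∉ T w → ∀ m, w ∈ Lt T y a c b f e d m → m = 3 := by
      intro he m hm
      fin_cases m
      · exact absurd hm.2 he
      · exact absurd hm.2 hdw
      · exact absurd hm hno2
      · rfl
    rcases h0 with (h0 | h0) | (h0 | h0)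
    · have hbx : b ∈ T x := cx 2 h0 (Or.inr rfl)
      have hfx : f ∉ T x := D.mV x hx h3 (Or.inl h0)
      have hew : e ∈ T w := by
        by_contra hew
        exact pY 3 (onlyY hew) b (Or.inl rfl) hbx
      have hex : e ∈ T x := by
        by_contra hex
        refine pV 2 (fun m hm => ?_) b (Or.inr rfl) hb
        fin_cases m
        · exact absurd hm.2 hex
        · exact absurd hm.2 hfx
        · rfl
        · exact (D.cV.noAC h3 h0 hm).elim
      refine sY f (by rw [hTy]; simp) ?_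
      rw [eq_three758 h3w hb hfw hew bf be (Ne.symm ef)]
      rintro i (rfl | rfl | rfl)
      · exact Or.inr hbx
      · exact Or.inl rfl
      · exact Or.inr hex
    · have hfx : f ∈ T x := h0.2
      have hew : e ∈ T w := by
        by_contra hew
        exact pY 3 (onlyY hew) f (Or.inr rfl) hfx
      have hex : e ∈ T x := by
        by_contra hex
        refine pV 1 (fun m hm => ?_) f rfl hfw
        fin_cases m
        · exact absurd hm.2 hex
        · rfl
        · exact absurd hfx (D.mV x hx h3 (Or.inl hm))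
        · exact absurd hfx (D.mV x hx h3 (Or.inr hm))
      refine sY b (by rw [hTy]; simp) ?_
      rw [eq_three758 h3w hb hfw hew bf be (Ne.symm ef)]
      rintro i (rfl | rfl | rfl)
      · exact Or.inl rfl
      · exact Or.inr hfx
      · exact Or.inr hex
    · exact hno2 h0
    · exact hdw h0.2

/-! ### Topology -/

/-- closed in the parameter -/
theorem closed0 : IsClosed {t : ℝ | F0_758 T V y a b c d e f (P t)} := by
  have h := D.cV.irr
  have hc := D.circ.cont
  have hc2 : Continuous fun t => P t + y - V := by fun_prop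
  have e1 : {t : ℝ | F0_758 T V y a b c d e f (P t)} =
      ((P ⁻¹' Lt T V a b c d e f 2) ∪ (P ⁻¹' Lt T V a b c d e f 1)) ∪
      (((fun t => P t + y - V) ⁻¹' Lt T y a c b f e d 2) ∪
        ((fun t => P t + y - V) ⁻¹' Lt T y a c b f e d 1)) := rfl
  rw [e1]
  exact (((Lt_closed h 2).preimage hc).union ((Lt_closed h 1).preimage hc)).union
    (((Lt_closed h 2).preimage hc2).union ((Lt_closed h 1).preimage hc2))

theorem closed1 : IsClosed {t : ℝ | F1_758 T V y a b c d e f (P t)} := by
  have h := D.cV.irr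
  have hc := D.circ.cont
  have hc2 : Continuous fun t => P t + y - V := by fun_prop
  have e1 : {t : ℝ | F1_758 T V y a b c d e f (P t)} =
      (P ⁻¹' Lt T V a b c d e f 3) ∪
      ((fun t => P t + y - V) ⁻¹' Lt T y a c b f e d 3) := rfl
  rw [e1]
  exact ((Lt_closed h 3).preimage hc).union ((Lt_closed h 3).preimage hc2)

theorem four_y : 4 ≤ (T y).ncard := by
  have hn := D.cy.nd
  rw [D.cy.pal]
  simp only [List.nodup_cons, List.mem_cons, List.not_mem_nil, or_false, not_or, List.nodup_nil,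
    and_true, not_false_eq_true] at hn
  rw [Set.ncard_insert_of_notMem, Set.ncard_insert_of_notMem, Set.ncard_pair]
  · exact hn.2.2.1.1
  · simp only [mem_insert_iff, mem_singleton_iff, not_or]; exact ⟨hn.2.1.1, hn.2.1.2.1⟩
  · simp only [mem_insert_iff, mem_singleton_iff, not_or]
    exact ⟨hn.1.1, hn.1.2.1, hn.1.2.2.1⟩

theorem four_V : 4 ≤ (T V).ncard := by
  have hn := D.cV.nd
  rw [D.cV.pal]
  simp only [List.nodup_cons, List.mem_cons, List.not_mem_nil, or_false, not_or, List.nodup_nil,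
    and_true, not_false_eq_true] at hn
  rw [Set.ncard_insert_of_notMem, Set.ncard_insert_of_notMem, Set.ncard_pair]
  · exact hn.2.2.1.1
  · simp only [mem_insert_iff, mem_singleton_iff, not_or]; exact ⟨hn.2.1.1, hn.2.1.2.1⟩
  · simp only [mem_insert_iff, mem_singleton_iff, not_or]
    exact ⟨hn.1.1, hn.1.2.1, hn.1.2.2.1⟩

theorem p3 : P 3 + y - V = V := by
  have h1 := D.circ.sum 0
  have h2 := D.circ.sum 1
  rw [zero_add, zero_add, D.p0] at h1
  rw [show (1 : ℝ) + 2 = 3 by norm_num, show (1 : ℝ) + 1 = 2 by norm_num] at h2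
  linear_combination h1 + h2

/-- the exceptional directions in `(0, 6)` off `3` -/
theorem ne_y {t : ℝ} (h0 : 0 < t) (h6 : t < 6) : P t ≠ y := by
  rw [← D.p0]
  exact (D.circ.inj 0 t h0 (by linarith)).symm

theorem ne_V {t : ℝ} (h0 : 0 < t) (h6 : t < 6) (h3 : t ≠ 3) : P t + y - V ≠ V := by
  intro h
  have h4 : P t = P 3 := by linear_combination h - D.p3
  rcases lt_or_gt_of_ne h3 with h5 | h5
  · exact D.circ.inj t 3 h5 (by linarith) h4
  · exact D.circ.inj 3 t h5 (by linarith) h4.symm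

/-- points of order four of `S(V)` -/
theorem excV {s t : ℝ} (hs0 : 0 < s) (hs6 : s < 6) (ht0 : 0 < t) (ht6 : t < 6)
    (hs : 4 ≤ (T (P s)).ncard) (ht : 4 ≤ (T (P t)).ncard) : s = t := by
  rcases D.n3V y (P s) (P t) D.dyV (D.circ.dst s) (D.circ.dst t) D.four_y hs ht with h1 | h1 | h1
  · exact absurd h1.symm (D.ne_y hs0 hs6)
  · exact absurd h1.symm (D.ne_y ht0 ht6)
  · rcases lt_trichotomy s t with h2 | h2 | h2
    · exact absurd h1 (D.circ.inj s t h2 (by linarith))
    · exact h2
    · exact absurd h1.symm (D.circ.inj t s h2 (by linarith))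

theorem excY {s t : ℝ} (hs0 : 0 < s) (hs6 : s < 6) (hs3 : s ≠ 3) (ht0 : 0 < t) (ht6 : t < 6)
    (ht3 : t ≠ 3) (hs : 4 ≤ (T (P s + y - V)).ncard) (ht : 4 ≤ (T (P t + y - V)).ncard) :
    s = t := by
  rcases D.n3y V (P s + y - V) (P t + y - V) (by rw [dist_comm]; exact D.dyV)
    (dw (D.circ.dst s)) (dw (D.circ.dst t)) D.four_V hs ht with h1 | h1 | h1
  · exact absurd h1.symm (D.ne_V hs0 hs6 hs3)
  · exact absurd h1.symm (D.ne_V ht0 ht6 ht3)
  · have h1 : P s = P t := by linear_combination h1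
    rcases lt_trichotomy s t with h2 | h2 | h2
    · exact absurd h1 (D.circ.inj s t h2 (by linarith))
    · exact h2
    · exact absurd h1.symm (D.circ.inj t s h2 (by linarith))

/-- exceptional direction -/
def _root_.Vale.Agent.P032.Six.Exc758 (T : ℂ → Set (Fin 6)) (V y : ℂ) (P : ℝ → ℂ) (t : ℝ) : Prop :=
  4 ≤ (T (P t)).ncard ∨ 4 ≤ (T (P t + y - V)).ncard

/-- among three exceptional directions two are equal -/
theorem three {r s t : ℝ} (hr0 : 0 < r) (hr6 : r < 6) (hr3 : r ≠ 3) (hs0 : 0 < s) (hs6 : s < 6)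
    (hs3 : s ≠ 3) (ht0 : 0 < t) (ht6 : t < 6) (ht3 : t ≠ 3) (hr : Exc758 T V y P r)
    (hs : Exc758 T V y P s) (ht : Exc758 T V y P t) : r = s ∨ r = t ∨ s = t := by
  rcases hr with hr | hr <;> rcases hs with hs | hs <;> rcases ht with ht | ht
  · exact Or.inl (D.excV hr0 hr6 hs0 hs6 hr hs)
  · exact Or.inl (D.excV hr0 hr6 hs0 hs6 hr hs)
  · exact Or.inr (Or.inl (D.excV hr0 hr6 ht0 ht6 hr ht))
  · exact Or.inr (Or.inr (D.excY hs0 hs6 hs3 ht0 ht6 ht3 hs ht))
  · exact Or.inr (Or.inr (D.excV hs0 hs6 ht0 ht6 hs ht))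
  · exact Or.inr (Or.inl (D.excY hr0 hr6 hr3 ht0 ht6 ht3 hr ht))
  · exact Or.inl (D.excY hr0 hr6 hr3 hs0 hs6 hs3 hr hs)
  · exact Or.inl (D.excY hr0 hr6 hr3 hs0 hs6 hs3 hr hs)

/-- near `y` : `F0` -/
theorem near0 : ∀ᶠ t in 𝓝 (0 : ℝ), F0_758 T V y a b c d e f (P t) := by
  have hn := D.cV.nd
  simp only [List.nodup_cons, List.mem_cons, List.not_mem_nil, or_false, not_or, List.nodup_nil,
    and_true, not_false_eq_true] at hn
  have h1 : ∀ᶠ t in 𝓝 (0 : ℝ), T (P t) ⊆ T y := by
    have h2 := D.circ.cont.continuousAt (x := 0)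
    rw [ContinuousAt, D.p0] at h2
    exact h2.eventually (D.cV.irr.nhd y)
  filter_upwards [h1] with t ht
  rw [D.cy.pal] at ht
  obtain ⟨l, hl⟩ := D.cV.cover (D.circ.dst t)
  have hsub := Lt_col D.cV.irr hl
  fin_cases l
  · exfalso
    have h3 := ht (hsub rfl)
    simp only [mem_insert_iff, mem_singleton_iff] at h3
    tauto
  · exact Or.inl (Or.inr hl)
  · exact Or.inl (Or.inl hl)
  · exfalso
    have h3 := ht (hsub (Or.inr rfl))
    simp only [mem_insert_iff, mem_singleton_iff] at h3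
    tauto

/-- near `V` : `F0` -/
theorem near3 : ∀ᶠ t in 𝓝 (3 : ℝ), F0_758 T V y a b c d e f (P t) := by
  have hn := D.cV.nd
  simp only [List.nodup_cons, List.mem_cons, List.not_mem_nil, or_false, not_or, List.nodup_nil,
    and_true, not_false_eq_true] at hn
  have h1 : ∀ᶠ t in 𝓝 (3 : ℝ), T (P t + y - V) ⊆ T V := by
    have hc2 : Continuous fun t => P t + y - V := by
      have := D.circ.cont
      fun_prop
    have h2 := hc2.continuousAt (x := 3)
    rw [ContinuousAt, D.p3] at h2
    exact h2.eventually (D.cV.irr.nhd V)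
  filter_upwards [h1] with t ht
  rw [D.cV.pal] at ht
  obtain ⟨l, hl⟩ := D.cy.cover (dw (V := V) (y := y) (D.circ.dst t))
  have hsub := Lt_col D.cV.irr hl
  fin_cases l
  · exfalso
    have h3 := ht (hsub rfl)
    simp only [mem_insert_iff, mem_singleton_iff] at h3
    tauto
  · exact Or.inr (Or.inr hl)
  · exact Or.inr (Or.inl hl)
  · exfalso
    have h3 := ht (hsub (Or.inr rfl))
    simp only [mem_insert_iff, mem_singleton_iff] at h3
    tauto

theorem near6 : ∀ᶠ t in 𝓝 (6 : ℝ), F0_758 T V y a b c d e f (P t) := by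
  have h1 : Tendsto (fun t : ℝ => t - 6) (𝓝 6) (𝓝 0) := by
    have : Continuous fun t : ℝ => t - 6 := by fun_prop
    have h2 := this.tendsto 6
    simpa using h2
  filter_upwards [h1.eventually D.near0] with t ht
  have h3 := D.circ.six (t - 6)
  rw [sub_add_cancel] at h3
  rw [h3]
  exact ht

/-- boundary points of the complement of `F0` are exceptional -/
theorem bdry {t : ℝ} (ht : t ∈ closure {s : ℝ | ¬ F0_758 T V y a b c d e f (P s)})
    (h0 : F0_758 T V y a b c d e f (P t)) : Exc758 T V y P t := by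
  by_contra hcon
  unfold Exc758 at hcon
  rw [not_or] at hcon
  obtain ⟨hc1, hc2⟩ := hcon
  have hy4 := D.four_y
  have hV4 := D.four_V
  have hc : Continuous fun t => P t + y - V := by
    have := D.circ.cont
    fun_prop
  have e1 : ∀ᶠ s in 𝓝 t, T (P s) ⊆ T (P t) :=
    D.circ.cont.continuousAt.eventually (D.cV.irr.nhd (P t))
  have e2 : ∀ᶠ s in 𝓝 t, T (P s + y - V) ⊆ T (P t + y - V) :=
    hc.continuousAt.eventually (D.cV.irr.nhd (P t + y - V))
  have key : ∃ᶠ s in 𝓝 t, F1_758 T V y a b c d e f (P s) := by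
    refine ((mem_closure_iff_frequently.1 ht).and_eventually (e1.and e2)).mono ?_
    rintro s ⟨hs, h1, h2⟩
    have k1 := Set.ncard_le_ncard h1 (Set.toFinite _)
    have k2 := Set.ncard_le_ncard h2 (Set.toFinite _)
    refine (D.cover01 (D.circ.dst s) ?_ ?_).resolve_right hs
    · intro h3
      rw [h3] at k1
      omega
    · intro h3
      rw [h3] at k2
      omega
  have hF1 : F1_758 T V y a b c d e f (P t) := D.closed1.mem_of_frequently_of_tendsto key tendsto_id
  refine D.excl (D.circ.dst t) (by omega) (by omega) ?_ ?_ hF1 h0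
  · intro h3
    rw [h3] at hc1
    exact hc1 hy4
  · intro h3
    rw [h3] at hc2
    exact hc2 hV4

/-- an exact `cd`-point is not in `F0` -/
theorem not_F0 {x : ℂ} (hx : x ∈ Ex T V {c, d}) (hxy : x ≠ y) (hw : x + y - V ≠ V) :
    ¬ F0_758 T V y a b c d e f x := by
  have hn := D.cV.nd
  simp only [List.nodup_cons, List.mem_cons, List.not_mem_nil, or_false, not_or, List.nodup_nil,
    and_true, not_false_eq_true] at hn
  have hxT := ex_self hx
  have hfree := exact_free D.cV.irr hx D.dyV hxy hw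
  rintro ((h | h) | (h | h))
  · have h1 := Lt_col D.cV.irr h (Or.inl rfl : a ∈ ({a, b} : Set (Fin 6)))
    rw [hxT] at h1
    simp only [mem_insert_iff, mem_singleton_iff] at h1
    tauto
  · have h1 : f ∈ T x := h.2
    rw [hxT] at h1
    simp only [mem_insert_iff, mem_singleton_iff] at h1
    have h2 := hn.2.2.1.2.2
    have h3 := hn.2.2.2.1.2
    rcases h1 with h1 | h1
    · exact h2 h1.symm
    · exact h3 h1.symm
  · exact hfree c (Or.inl rfl) (Lt_col D.cV.irr h (Or.inr rfl : c ∈ ({a, c} : Set (Fin 6))))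
  · exact hfree d (Or.inr rfl) h.2

/-- **first half** -/
theorem half {t0 : ℝ} (h00 : 0 < t0) (h03 : t0 < 3) (ht0 : ¬ F0_758 T V y a b c d e f (P t0)) :
    False := by
  set O : Set ℝ := {s : ℝ | ¬ F0_758 T V y a b c d e f (P s)} with hO
  have hOo : IsOpen O := D.closed0.isOpen_compl
  have hnc : ∀ t, (∀ᶠ s in 𝓝 t, F0_758 T V y a b c d e f (P s)) → t ∉ closure O := by
    intro t ht h1
    obtain ⟨s, h2, h3⟩ := ((mem_closure_iff_frequently.1 h1).and_eventually ht).exists
    exact h2 h3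
  have n0 := hnc 0 D.near0
  have n3 := hnc 3 D.near3
  have n6 := hnc 6 D.near6
  -- a lemma on extremal points
  have ext : ∀ p q : ℝ, p ∉ closure O → q ∉ closure O → ∀ t ∈ Ioo p q, t ∈ O →
      (∃ m, t < m ∧ m < q ∧ m ∈ closure O ∧ m ∉ O ∧ ∀ s ∈ Ioo m q, s ∉ O) ∧
      ∃ l, p < l ∧ l < t ∧ l ∈ closure O ∧ l ∉ O := by
    intro p q hp hq t ht htO
    have hKc : IsCompact (closure O ∩ Icc p q) := isCompact_Icc.inter_left isClosed_closure
    have hne : (closure O ∩ Icc p q).Nonempty := ⟨t, subset_closure htO, ht.1.le, ht.2.le⟩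
    have hS := hKc.sSup_mem hne
    have hI := hKc.sInf_mem hne
    set m := sSup (closure O ∩ Icc p q) with hm
    set l := sInf (closure O ∩ Icc p q) with hl
    have hub : ∀ s ∈ closure O ∩ Icc p q, s ≤ m := fun s hs => le_csSup hKc.bddAbove hs
    have hlb : ∀ s ∈ closure O ∩ Icc p q, l ≤ s := fun s hs => csInf_le hKc.bddBelow hs
    have hmq : m < q := lt_of_le_of_ne hS.2.2 fun h => hq (h ▸ hS.1)
    have hpl : p < l := lt_of_le_of_ne hI.2.1 fun h => hp (h ▸ hI.1)
    have htm : t ≤ m := hub t ⟨subset_closure htO, ht.1.le, ht.2.le⟩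
    have hlt : l ≤ t := hlb t ⟨subset_closure htO, ht.1.le, ht.2.le⟩
    have hmO : m ∉ O := by
      intro h1
      obtain ⟨ε, hε, hb⟩ := Metric.isOpen_iff.1 hOo m h1
      have h3 : 0 < min (ε / 2) ((q - m) / 2) := lt_min (by linarith) (by linarith)
      have h2 : m + min (ε / 2) ((q - m) / 2) ∈ O := hb (by
        rw [mem_ball, Real.dist_eq, add_sub_cancel_left, abs_of_nonneg h3.le]
        exact lt_of_le_of_lt (min_le_left _ _) (by linarith))
      have h4 := hub _ ⟨subset_closure h2, by linarith [ht.1], by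
        linarith [min_le_right (ε / 2) ((q - m) / 2)]⟩
      linarith
    have hlO : l ∉ O := by
      intro h1
      obtain ⟨ε, hε, hb⟩ := Metric.isOpen_iff.1 hOo l h1
      have h3 : 0 < min (ε / 2) ((l - p) / 2) := lt_min (by linarith) (by linarith)
      have h2 : l - min (ε / 2) ((l - p) / 2) ∈ O := hb (by
        rw [mem_ball, Real.dist_eq, show l - min (ε / 2) ((l - p) / 2) - l =
          -min (ε / 2) ((l - p) / 2) by ring, abs_neg, abs_of_nonneg h3.le]
        exact lt_of_le_of_lt (min_le_left _ _) (by linarith))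
      have h4 := hlb _ ⟨subset_closure h2, by
        linarith [min_le_right (ε / 2) ((l - p) / 2)], by linarith [ht.2]⟩
      linarith
    refine ⟨⟨m, lt_of_le_of_ne htm fun h => hmO (h ▸ htO), hmq, hS.1, hmO, fun s hs hsO => ?_⟩,
      l, hpl, lt_of_le_of_ne hlt fun h => hlO (h ▸ htO), hI.1, hlO⟩
    have := hub s ⟨subset_closure hsO, by linarith [hs.1, ht.1], hs.2.le⟩
    linarith [hs.1]
  have nO : ∀ t, t ∉ O → F0_758 T V y a b c d e f (P t) := fun t ht => by
    by_contra h1
    exact ht h1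
  obtain ⟨⟨m, hm1, hm2, hm3, hm4, hm5⟩, l, hl1, hl2, hl3, hl4⟩ := ext 0 3 n0 n3 t0 ⟨h00, h03⟩ ht0
  have hmE : Exc758 T V y P m := D.bdry hm3 (nO m hm4)
  have hlE : Exc758 T V y P l := D.bdry hl3 (nO l hl4)
  have hlm : l < m := by linarith
  -- nothing in the second half
  have h36 : ∀ t ∈ Ioo (3 : ℝ) 6, t ∉ O := by
    intro t ht htO
    obtain ⟨-, n, hn1, hn2, hn3, hn4⟩ := ext 3 6 n3 n6 t ht htO
    have hnE : Exc758 T V y P n := D.bdry hn3 (nO n hn4)
    have hn6 : n < 6 := by linarith [ht.2]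
    rcases D.three hl1 (by linarith) (by linarith : l ≠ 3) (by linarith) (by linarith)
      (by linarith : m ≠ 3) (by linarith : 0 < n) hn6 (ne_of_gt hn1) hlE hmE hnE
      with h1 | h1 | h1 <;> linarith
  have hall : ∀ t ∈ Ioo m 6, F0_758 T V y a b c d e f (P t) := by
    intro t ht
    refine nO t ?_
    rcases lt_trichotomy t 3 with h1 | h1 | h1
    · exact hm5 t ⟨ht.1, h1⟩
    · rw [h1]
      exact fun h2 => n3 (subset_closure h2)
    · exact h36 t ⟨h1, ht.2⟩
  -- one of the two exceptional directions is a point of order four of `S(V)`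
  have hphi : ∃ φ, 0 < φ ∧ φ ≤ m ∧ 4 ≤ (T (P φ)).ncard := by
    rcases hmE with h1 | h1
    · exact ⟨m, by linarith, le_refl _, h1⟩
    · rcases hlE with h2 | h2
      · exact ⟨l, hl1, hlm.le, h2⟩
      · have h3 := D.excY hl1 (by linarith) (by linarith : l ≠ 3) (by linarith) (by linarith)
          (by linarith : m ≠ 3) h2 h1
        linarith
  obtain ⟨φ, hφ0, hφm, hφ⟩ := hphi
  have three' : ∀ t ∈ Ioo m 6, (T (P t)).ncard ≤ 3 := by
    intro t ht
    by_contra hcon
    have h1 := D.excV hφ0 (by linarith) (by linarith [ht.1]) ht.2 hφ (by omega)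
    linarith [ht.1]
  have off : ∀ t ∈ Ioo m 6, P t ∉ closure (Ex T V {c, d}) := by
    intro t ht hcl
    have h1 := not_iso758 hcl
    have hN : {s : ℝ | s ∈ Ioo m 6 ∧ (s = 3 → t = 3)} ∈ 𝓝 t := by
      by_cases h3 : t = 3
      · filter_upwards [Ioo_mem_nhds ht.1 ht.2] with s hs
        exact ⟨hs, fun _ => h3⟩
      · filter_upwards [Ioo_mem_nhds ht.1 ht.2, isOpen_ne.mem_nhds h3] with s hs hs3
        exact ⟨hs, fun h4 => absurd h4 hs3⟩
    obtain ⟨q, ⟨hq, hqt⟩, hqN⟩ :=
      ((mem_closure_iff_frequently.1 h1).and_eventually (nhds758 D.circ hN)).exists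
    obtain ⟨s, ⟨hs, hs3⟩, hqs⟩ := hqN hq.1
    have hst : s ≠ t := by
      rintro rfl
      exact hqt hqs
    have hs3' : s ≠ 3 := fun h4 => hst (by rw [h4, hs3 h4])
    rw [hqs] at hq
    exact D.not_F0 hq (D.ne_y (by linarith [hs.1]) hs.2) (D.ne_V (by linarith [hs.1]) hs.2 hs3')
      (hall s hs)
  refine a4 (intCov758 (swap758 D.cV) D.circ off three') (l0 := 1) (l1 := 0) (l2 := 2) (by decide)
    (by decide) (by decide) (c := m) ?_ le_rfl (by linarith)
  rintro s hs ⟨h1, h2⟩
  exact D.mV (P s) (D.circ.dst s) (three' s hs) (Or.inl h2) h1.2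

/-- the data reversed -/
theorem neg : K4d758 U T V y (fun t => P (-t)) a b c d e f where
  cV := D.cV
  cy := D.cy
  circ := neg758 D.circ
  p0 := by
    rw [neg_zero]
    exact D.p0
  mV := D.mV
  mY := D.mY
  n3V := D.n3V
  n3y := D.n3y
  occ := D.occ

/-- **(K4)** -/
protected theorem false : False := by
  have hn := D.cV.nd
  simp only [List.nodup_cons, List.mem_cons, List.not_mem_nil, or_false, not_or, List.nodup_nil,
    and_true, not_false_eq_true] at hn
  obtain ⟨x0, hx0⟩ := D.occ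
  obtain ⟨x, hx, hx3⟩ : ∃ x ∈ Ex T V {c, d}, x ≠ P 3 := by
    by_cases h : x0 = P 3
    · obtain ⟨x, hx⟩ := closure_nonempty_iff.1 ⟨x0, ex_not_iso hx0⟩
      refine ⟨x, hx.1, fun h2 => hx.2 ?_⟩
      rw [h2, h]
      rfl
    · exact ⟨x0, hx0, h⟩
  have hxy : x ≠ y := by
    intro h
    have h1 := ex_self hx
    rw [h, D.cy.pal] at h1
    have h2 : d ∈ ({a, c, b, f} : Set (Fin 6)) := by
      rw [h1]
      exact Or.inr rfl
    simp only [mem_insert_iff, mem_singleton_iff] at h2
    have := hn.1.2.2.1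
    have := hn.2.1.2.1
    have := hn.2.2.1.1
    have := hn.2.2.2.1.2
    grind
  obtain ⟨v, hv, hxv⟩ := D.circ.surj x hx.1 3
  have hv0 : v ≠ 0 := by
    rintro rfl
    exact hxy (hxv.trans D.p0)
  have hv6 : v ≠ 6 := by
    rintro rfl
    have h6 := D.circ.six 0
    rw [zero_add] at h6
    exact hxy (hxv.trans (h6.trans D.p0))
  have hv3 : v ≠ 3 := by
    rintro rfl
    exact hx3 hxv
  have h0 : 0 < v := lt_of_le_of_ne (by linarith [hv.1]) hv0.symm
  have h6 : v < 6 := lt_of_le_of_ne (by linarith [hv.2]) hv6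
  have hF : ¬ F0_758 T V y a b c d e f (P v) := by
    rw [hxv] at hx
    exact D.not_F0 hx (D.ne_y h0 h6) (D.ne_V h0 h6 hv3)
  rcases lt_or_gt_of_ne hv3 with h3 | h3
  · exact D.half h0 h3 hF
  · refine D.neg.half (t0 := 6 - v) (by linarith) (by linarith) ?_
    have h7 := D.circ.six (v - 6)
    rw [sub_add_cancel] at h7
    rw [show -(6 - v) = v - 6 by ring, ← h7]
    exact hF

end K4d758

end Vale.Agent.P032.Six
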