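import Vale.Agent.P032.H758.K4
import Vale.Agent.P032.H98.MRow

/-!
# P032, degree theorem with `NoComp`: (K4) over two-pair points

* `k4_758` : 255's literal (`V = (ab | cd)`, `y = (ac | bf)`).
* `k4_md758` : 98's literal (`V = (ab | cd)` of mode `e`, `y = (ac | df)` of mode `e`).
-/

open Set Filter Topology Metric

noncomputable section

namespace Vale.Agent.P032.Six

open Vale.Agent.P032.S5.H767 Vale.Agent.P032.H961

variable {U : Fin 6 → Set ℂ} {T : ℂ → Set (Fin 6)} {V y : ℂ} {a b c d e f : Fin 6}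

theorem k4_758 (h : Irr U T) (hV : DPt T V a b c d) (hy : DPt T y a c b f)
    (nd : [a, b, c, d, e, f].Nodup) (hyV : dist y V = 1)
    (mV : ∀ x, dist x V = 1 → (T x).ncard ≤ 3 →
      (x ∈ closure (Ex T V {a, b}) ∨ x ∈ closure (Ex T V {c, d})) → f ∉ T x)
    (mY : ∀ x, dist x y = 1 → (T x).ncard ≤ 3 →
      (x ∈ closure (Ex T y {a, c}) ∨ x ∈ closure (Ex T y {b, f})) → d ∉ T x)
    (n3V : ∀ y1 y2 y3, dist y1 V = 1 → dist y2 V = 1 → dist y3 V = 1 →
      4 ≤ (T y1).ncard → 4 ≤ (T y2).ncard → 4 ≤ (T y3).ncard → y1 = y2 ∨ y1 = y3 ∨ y2 = y3)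
    (n3y : ∀ y1 y2 y3, dist y1 y = 1 → dist y2 y = 1 → dist y3 y = 1 →
      4 ≤ (T y1).ncard → 4 ≤ (T y2).ncard → 4 ≤ (T y3).ncard → y1 = y2 ∨ y1 = y3 ∨ y2 = y3) :
    False := by
  have nd' : [a, c, b, f, e, d].Nodup := by
    simp only [List.nodup_cons, List.mem_cons, List.not_mem_nil, or_false, not_or, List.nodup_nil,
      and_true, not_false_eq_true] at nd ⊢
    obtain ⟨⟨ab, ac, ad, ae, af⟩, ⟨bc, bd, be, bf⟩, ⟨cd, ce, cf⟩, ⟨de, df⟩, ef⟩ := nd
    exact ⟨⟨ac, ab, af, ae, ad⟩, ⟨Ne.symm bc, cf, ce, cd⟩, ⟨bf, be, bd⟩, ⟨Ne.symm ef, Ne.symm df⟩,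
      Ne.symm de⟩
  obtain ⟨θ, -, hθ⟩ := exists_pt (V := V) hyV 0
  obtain ⟨p, hp⟩ := hV.arc2
  refine K4d758.false (U := U) (T := T) (V := V) (y := y) (P := fun u => pt V (θ + 1 * u))
    (a := a) (b := b) (c := c) (d := d) (e := e) (f := f) ?_
  exact
    { cV := ctr_of_dpt h hV nd
      cy := ctr_of_dpt h hy nd'
      circ := circ_pt V θ (Or.inl rfl)
      p0 := by simp only [mul_zero, add_zero]; exact hθ.symm
      mV := mV
      mY := mY
      n3V := n3V
      n3y := n3y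
      occ := ⟨p, hp⟩ }

end Vale.Agent.P032.Six

namespace Vale.Agent.P032.H98

open Vale.Agent.P032.Six Vale.Agent.P032.S5.H767 Vale.Agent.P032.H961 Vale.Agent.P032.H800

variable {U : Fin 6 → Set ℂ} {T : ℂ → Set (Fin 6)} {V y : ℂ} {a b c d e f : Fin 6}

/-- no plain point of the closed arcs has the colour `f` -/
theorem Md98.mode758 (M : Md98 T V a b c d e f) : ∀ x, dist x V = 1 → (T x).ncard ≤ 3 →
    (x ∈ closure (Ex T V {a, b}) ∨ x ∈ closure (Ex T V {c, d})) → f ∉ T x := by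
  have hn := M.nd
  simp only [List.nodup_cons, List.mem_cons, List.not_mem_nil, or_false, not_or, List.nodup_nil,
    and_true, not_false_eq_true] at hn
  obtain ⟨⟨ab, ac, ad, ae, af⟩, ⟨bc, bd, be, bf⟩, ⟨cd, ce, cf⟩, ⟨de, df⟩, ef⟩ := hn
  intro x _ h3 hx hf
  rcases hx with hx | hx
  · rcases M.hA x hx h3 with h1 | h1 <;> rw [h1] at hf <;>
      simp only [mem_insert_iff, mem_singleton_iff] at hf
    · rcases hf with h | h
      · exact af h.symm
      · exact bf h.symm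
    · rcases hf with h | h | h
      · exact af h.symm
      · exact bf h.symm
      · exact ef h.symm
  · rcases M.hC x hx h3 with h1 | h1 <;> rw [h1] at hf <;>
      simp only [mem_insert_iff, mem_singleton_iff] at hf
    · rcases hf with h | h
      · exact cf h.symm
      · exact df h.symm
    · rcases hf with h | h | h
      · exact cf h.symm
      · exact df h.symm
      · exact ef h.symm

/-- **(K4) in 98's literal**: both `V = (ab | cd)` and `y = (ac | df)` of mode `e` -/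
theorem k4_md758 (h : Irr U T) (n3 : N3 T) (M : Md98 T V a b c d e f) (hyV : dist y V = 1)
    (hy : DPt T y a c d f)
    (mY : ∀ x, dist x y = 1 → (T x).ncard ≤ 3 →
      (x ∈ closure (Ex T y {a, c}) ∨ x ∈ closure (Ex T y {d, f})) → b ∉ T x) : False := by
  refine k4_758 (a := c) (b := d) (c := a) (d := b) (e := e) (f := f) h M.dpt.swap hy.swap12
    (nd_swap M.nd) hyV (fun x hx h3 hc => M.mode758 x hx h3 hc.symm)
    (fun x hx h3 hc => mY x hx h3 ?_)
    (fun y1 y2 y3 => n3 V y1 y2 y3 M.dpt.ncard.ge)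
    (fun y1 y2 y3 => n3 y y1 y2 y3 hy.ncard.ge)
  rw [Set.pair_comm a c]
  exact hc

/-- **(K4)**, `y` a point of mode `e` -/
theorem k4_md2_758 (X : XC U T) (M : Md98 T V a b c d e f) (hyV : dist y V = 1)
    (hy : Md98 T y a c d f e b) : False :=
  k4_md758 X.df.irr X.n3 M hyV hy.dpt hy.mode758

end Vale.Agent.P032.H98
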