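import Vale.Agent.P032.H961.QI

/-!
# P032, world without covering pairs: contacts of order four

`cov_contact758` : `V` a two-pair point, `W` with `T V ∪ T W` = all six colours, `p` a common point of
`S(V)` and `S(W)` (crossing) with a colour in neither `T V` nor `T p` (this is `NoCov` at `V, p` if `p`
has four colours): then `p` is on the closure of an exact arc of `S(V)`.
-/

open Set Filter Topology Metric

noncomputable section

namespace Vale.Agent.P032.Six

open Vale.Agent.P032.S5.H767 Vale.Agent.P032.H678 Vale.Agent.P032.H961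

variable {U : Fin 6 → Set ℂ} {T : ℂ → Set (Fin 6)} {V W p u : ℂ} {P P' : Set (Fin 6)}

theorem cov_contact758 (h : Irr U T) (hV : TP T V P P') (hcov : ∀ i, i ∈ T V ∨ i ∈ T W)
    (hne : V ≠ W) (hne2 : V + W ≠ 2 * p) (hpV : dist p V = 1) (hpW : dist p W = 1)
    (hN : ∃ i, i ∉ T V ∧ i ∉ T p) : p ∈ closure (Ex T V P) ∨ p ∈ closure (Ex T V P') := by
  by_contra hcon
  push Not at hcon
  obtain ⟨i, hiV, hip⟩ := hN
  -- the other free colour of `V`
  obtain ⟨x, hxV, hxall⟩ : ∃ x, x ∉ T V ∧ ∀ j, j ∉ T V → j = i ∨ j = x := by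
    obtain ⟨e, f, hef, hF⟩ := Set.ncard_eq_two.1 hV.free
    have hmem : ∀ j, j ∉ T V ↔ j = e ∨ j = f := by
      intro j
      rw [← mem_compl_iff, hF]
      simp
    rcases (hmem i).1 hiV with rfl | rfl
    · exact ⟨f, (hmem f).2 (Or.inr rfl), fun j hj => (hmem j).1 hj⟩
    · exact ⟨e, (hmem e).2 (Or.inl rfl), fun j hj => ((hmem j).1 hj).symm⟩
  have hxW : x ∈ T W := (hcov x).resolve_left hxV
  refine no_const h hpV hpW hne hne2 hxW ?_
  filter_upwards [ev_sub h, ev_off hcon.1, ev_off hcon.2, self_mem_nhdsWithin] with q h1 h2 h3 h4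
  have h5 : ¬ T q ⊆ T V := by
    intro h5
    rcases hV.near q h4 h5 with h6 | h6
    · exact h2 h6.1
    · exact h3 h6.1
  obtain ⟨j, hj, hjV⟩ := Set.not_subset.1 h5
  rcases hxall j hjV with rfl | rfl
  · exact absurd (h1 hj) hip
  · exact hj

/-- the same for a set `Arcs` of excluded ends: contacts have at most three colours -/
theorem cov_contact_le758 (h : Irr U T) (hV : TP T V P P') (hcov : ∀ i, i ∈ T V ∨ i ∈ T W)
    (hne : V ≠ W) (hne2 : V + W ≠ 2 * p) (hpV : dist p V = 1) (hpW : dist p W = 1)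
    (hN : 4 ≤ (T p).ncard → ∃ i, i ∉ T V ∧ i ∉ T p)
    (h1 : 4 ≤ (T p).ncard → p ∉ closure (Ex T V P))
    (h2 : 4 ≤ (T p).ncard → p ∉ closure (Ex T V P')) : (T p).ncard ≤ 3 := by
  by_contra h3
  push Not at h3
  rcases cov_contact758 h hV hcov hne hne2 hpV hpW (hN h3) with h4 | h4
  · exact h1 h3 h4
  · exact h2 h3 h4

end Vale.Agent.P032.Six
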