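import Vale.Agent.P032.H353.Corner
import Vale.Agent.P032.H98.MRow
import Vale.Agent.P032.H353.HM

/-!
# P032: one corner and quiet points

As `St353` (a two-pair point has two ends of the free colour `f`) with a further kind of harmless
neighbours: `Quiet758 T z a b c d e f y` : no exact `ab`-, `cd`-points of `S(z)` near `y` and no point
of the two circles has both colours `e, f`.

* `quiet_corner758` : one corner, all the others of at most three colours, harmless or quiet: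
  impossible;
* `apexEF758` : in the world `XC`, an `H`-neighbour `y = (ab | ef)` of a point `V = (ab | cd)` whose
  plain ends have the colour `e` has an apex with the colours `e, f`;
* `rowH758` : row H, from the rows T and HA.
-/

open Set Filter Topology Metric

noncomputable section

namespace Vale.Agent.P032.Six

open Vale.Agent.P032.S5.H767 Vale.Agent.P032.S5.H122 Vale.Agent.P032.Sweep

variable {U : Fin 6 → Set ℂ} {T : ℂ → Set (Fin 6)} {z y p y₀ : ℂ} {a b c d e f : Fin 6}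

/-- no pair letters at `y`, no point of the two circles with both free colours -/
def Quiet758 (T : ℂ → Set (Fin 6)) (z : ℂ) (a b c d e f : Fin 6) (y : ℂ) : Prop :=
  y ∉ closure (Ex T z {a, b}) ∧ y ∉ closure (Ex T z {c, d}) ∧
    ∀ p, dist p z = 1 → dist p y = 1 → ¬ (e ∈ T p ∧ f ∈ T p)

theorem Quiet758.noswap {y' : ℂ} {l m : Fin 4} (h : Quiet758 T z a b c d e f y) (hlm : l ≠ m)
    (hyy : dist y y' = 1) (hl : y ∈ Lt T z a b c d e f l) (hm : y ∈ Lt T z a b c d e f m)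
    (hl' : y' ∈ Lt T z a b c d e f l) (hm' : y' ∈ Lt T z a b c d e f m) : False := by
  have key : ∀ l : Fin 4, y ∈ Lt T z a b c d e f l → l = 0 ∨ l = 1 := by
    intro l hl
    fin_cases l
    · exact Or.inl rfl
    · exact Or.inr rfl
    · exact absurd hl h.1
    · exact absurd hl h.2.1
  have hz : dist y' z = 1 := Lt_dist hl'
  have hyy' : dist y' y = 1 := by rw [dist_comm]; exact hyy
  rcases key l hl with rfl | rfl <;> rcases key m hm with rfl | rfl
  · exact hlm rfl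
  · exact h.2.2 y' hz hyy' ⟨hl'.2, hm'.2⟩
  · exact h.2.2 y' hz hyy' ⟨hm'.2, hl'.2⟩
  · exact hlm rfl

/-- all neighbours except `y₀` satisfy the conditions of the mode of `e` -/
structure St758 (U : Fin 6 → Set ℂ) (T : ℂ → Set (Fin 6)) (z : ℂ) (a b c d e f : Fin 6) (y₀ : ℂ) :
    Prop where
  irr : Irr U T
  dpt : DPt T z a b c d
  nd : [a, b, c, d, e, f].Nodup
  hJ : ∀ y, dist y z = 1 → y ≠ y₀ → (T y).ncard ≤ 3 ∨ T y = T z ∨ Harm353 T e f y ∨
    Quiet758 T z a b c d e f y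
  hAp : ∀ y p, dist y z = 1 → dist p z = 1 → dist p y = 1 → y ≠ y₀ → Harm353 T e f y →
    (T p).ncard ≤ 3 ∨ T p = T z
  h0 : (T y₀).ncard ≤ 3 ∨ T y₀ = T z ∨ ((∃ P Q, PQ738 T y₀ P Q) ∧
    ∀ p, dist p z = 1 → dist p y₀ = 1 → (T p).ncard ≤ 3)
  hA : ∀ y ∈ closure (Ex T z {a, b}), y ≠ y₀ → (T y).ncard ≤ 3 → f ∉ T y
  hC : ∀ y ∈ closure (Ex T z {c, d}), y ≠ y₀ → (T y).ncard ≤ 3 → f ∉ T y

namespace St758

theorem ctr (S : St758 U T z a b c d e f y₀) : Ctr U T z a b c d e f where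
  irr := S.irr
  pal := S.dpt.pal
  nd := S.nd
  pairs := fun y hy hloc hsub => S.irr.twoPairs S.dpt y hy hloc hsub

theorem swap (S : St758 U T z a b c d e f y₀) : St758 U T z c d a b e f y₀ :=
  ⟨S.irr, S.dpt.swap, (Ctr.swap353 S.ctr).nd, fun y hy hne => by
    rcases S.hJ y hy hne with h | h | h | h
    · exact Or.inl h
    · exact Or.inr (Or.inl h)
    · exact Or.inr (Or.inr (Or.inl h))
    · exact Or.inr (Or.inr (Or.inr ⟨h.2.1, h.1, h.2.2⟩)), S.hAp, S.h0, S.hC, S.hA⟩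

/-- the letters which are available at a point -/
theorem mem_Lt (S : St758 U T z a b c d e f y₀) {j : Fin 6} {l : Fin 4} {u : ℝ}
    (hu : u ∈ St98.X T z a b e f ((), j) l) : St98.pj z u j ∈ Lt T z a b c d e f l := by
  obtain ⟨P, hP, h1, h2⟩ := Xl_pal hu
  have hsub : P ⊆ T (St98.pj z u j) := sub_of_closure S.irr h2
  have hP : lt98 a b e f P = l := hP
  unfold lt98 at hP
  by_cases he : e ∈ P
  · rw [if_pos he] at hP
    subst hP
    exact ⟨St98.dist_pj z u j, hsub he⟩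
  rw [if_neg he] at hP
  by_cases hf : f ∈ P
  · rw [if_pos hf] at hP
    subst hP
    exact ⟨St98.dist_pj z u j, hsub hf⟩
  rw [if_neg hf] at hP
  by_cases hab : P = {a, b}
  · rw [if_pos hab] at hP
    subst hP
    subst hab
    exact h2
  rw [if_neg hab] at hP
  subst hP
  have hcd : P = {c, d} := by
    rcases pal_z353 S.ctr h2 with h | h | h | h
    · exact absurd h he
    · exact absurd h hf
    · exact absurd h hab
    · exact h
  rw [hcd] at h2
  exact h2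

/-- `A` and `C` are not available at opposite slots -/
theorem opp (S : St758 U T z a b c d e f y₀) {j : Fin 6} {u : ℝ}
    (h2 : u ∈ St98.X T z a b e f ((), j) 2) (h3 : u ∈ St98.X T z a b e f ((), j + 3) 3) :
    False := by
  have k2 : St98.pj z u j ∈ closure (Ex T z {a, b}) := S.mem_Lt h2
  have k3 : St98.pj z u (j + 3) ∈ closure (Ex T z {c, d}) := S.mem_Lt h3
  have hsub : ({c, d} : Set (Fin 6)) ⊆ T (St98.pj z u (j + 3)) := sub_of_closure S.irr k3
  refine S.irr.anti_clo S.dpt (St98.dist_pj z u (j + 3)) (hsub (by simp)) (hsub (by simp)) ?_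
  rw [St98.pj_add3, sub_sub_cancel]
  exact k2

theorem sw (S : St758 U T z a b c d e f y₀) : Sw (St98.X T z a b e f) St98.Leg := by
  refine sw_of S.irr dense_univ fun u _ hu => ?_
  have hav : ∀ j : Fin 6, u ∈ St98.X T z a b e f ((), j) (lt98 a b e f (T (St98.pj z u j))) :=
    fun j => (Xl_Lc (hu ((), j))).2 rfl
  constructor
  · intro j hj
    have hj : lt98 a b e f (T (St98.pj z u j)) = lt98 a b e f (T (St98.pj z u (j + 1))) := hj
    have hdis : Disjoint (T (St98.pj z u j)) (T (St98.pj z u (j + 1))) := by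
      rw [St98.pj_succ]; exact dj_sixty S.irr (hu ((), j))
    obtain ⟨t, ht⟩ := col_nonempty (a := a) (b := b) (c := c) (d := d) (e := e) (f := f)
      (lt98 a b e f (T (St98.pj z u j)))
    have h1 := Lt_col S.irr (S.mem_Lt (hav j)) ht
    have h2 := Lt_col S.irr (S.mem_Lt (hav (j + 1))) (hj ▸ ht)
    exact Set.disjoint_left.1 hdis h1 h2
  · rintro j ⟨h2, h3⟩
    have h2 : lt98 a b e f (T (St98.pj z u j)) = 2 := h2
    have h3 : lt98 a b e f (T (St98.pj z u (j + 3))) = 3 := h3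
    exact S.opp (h2 ▸ hav j) (h3 ▸ hav (j + 3))

/-- no letter `e`, `f` at a point with the palette of `z` -/
theorem noEF_of_eq (S : St758 U T z a b c d e f y₀) {y : ℂ} (hy : T y = T z) {l : Fin 4}
    (hl : y ∈ Lt T z a b c d e f l) : l = 2 ∨ l = 3 := by
  obtain ⟨⟨ab, ac, ad, ae, af⟩, ⟨bc, bd, be, bf⟩, ⟨cd, ce, cf⟩, ⟨de, df⟩, ef⟩ := nd_all353 S.nd
  have he : e ∉ T y := by
    rw [hy, S.dpt.pal]
    simp only [mem_insert_iff, mem_singleton_iff, not_or]
    exact ⟨Ne.symm ae, Ne.symm be, Ne.symm ce, Ne.symm de⟩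
  have hf : f ∉ T y := by
    rw [hy, S.dpt.pal]
    simp only [mem_insert_iff, mem_singleton_iff, not_or]
    exact ⟨Ne.symm af, Ne.symm bf, Ne.symm cf, Ne.symm df⟩
  have h4 : l = 0 ∨ l = 1 ∨ l = 2 ∨ l = 3 := by fin_cases l <;> decide
  rcases h4 with rfl | rfl | h4 | h4
  · exact absurd hl.2 he
  · exact absurd hl.2 hf
  · exact Or.inl h4
  · exact Or.inr h4

/-- a point which is not `y₀`, with the letters `f` and `A`: no pair letters at `120` degrees -/
theorem far_A (S : St758 U T z a b c d e f y₀) {y p p' : ℂ} (hy0 : y ≠ y₀)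
    (h1 : y ∈ Lt T z a b c d e f 1) (h2 : y ∈ Lt T z a b c d e f 2) (hpz : dist p z = 1)
    (hpy : dist p y = 1) (hpz' : dist p' z = 1) (hpy' : dist p' y = 1) {v : ℂ}
    (hv : v = p + z - y) (hv' : v = 2 * z - p') :
    v ∉ closure (Ex T z {a, b}) ∧ v ∉ closure (Ex T z {c, d}) := by
  have hyz := Lt_dist h1
  have c2 := Lt_col S.irr h2
  rcases S.hJ y hyz hy0 with h3 | h3 | ⟨P, Q, hPQ, hP, hQ, he⟩ | h3
  rotate_left 3
  · exact absurd h2 h3.1
  · exact absurd h1.2 (S.hA y h2 hy0 h3)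
  · rcases S.noEF_of_eq h3 h1 with h4 | h4 <;> exact absurd h4 (by decide)
  · exact he_two353 S.ctr S.dpt hPQ hP hQ hyz (c2 (Or.inl rfl)) (c2 (Or.inr rfl)) he h1.2 hpz hpy
      hpz' hpy' (S.hAp y p hyz hpz hpy hy0 ⟨P, Q, hPQ, hP, hQ, he⟩)
      (S.hAp y p' hyz hpz' hpy' hy0 ⟨P, Q, hPQ, hP, hQ, he⟩) hv hv'

/-- the same for the letters `f` and `A` or `C` -/
theorem far (S : St758 U T z a b c d e f y₀) {y p p' : ℂ} (hy0 : y ≠ y₀)
    (h1 : y ∈ Lt T z a b c d e f 1) (h2 : y ∈ Lt T z a b c d e f 2 ∨ y ∈ Lt T z a b c d e f 3)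
    (hpz : dist p z = 1) (hpy : dist p y = 1) (hpz' : dist p' z = 1) (hpy' : dist p' y = 1)
    {v : ℂ} (hv : v = p + z - y) (hv' : v = 2 * z - p') {n : Fin 4}
    (hn : v ∈ Lt T z a b c d e f n) : n ≤ 1 := by
  have key : v ∉ closure (Ex T z {a, b}) ∧ v ∉ closure (Ex T z {c, d}) := by
    rcases h2 with h2 | h2
    · exact S.far_A hy0 h1 h2 hpz hpy hpz' hpy' hv hv'
    · have h3 := S.swap.far_A hy0 (y := y) h1 h2 hpz hpy hpz' hpy' hv hv'
      exact ⟨h3.2, h3.1⟩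
  have h4 : n = 0 ∨ n = 1 ∨ n = 2 ∨ n = 3 := by fin_cases n <;> decide
  rcases h4 with rfl | rfl | rfl | rfl
  · decide
  · decide
  · exact absurd hn key.1
  · exact absurd hn key.2

/-- **one slot**: possible pairs of letters at a slot which is not `y₀` -/
theorem ct (S : St758 U T z a b c d e f y₀) {u : ℝ} {g g' : Unit × Fin 6 → Fin 4}
    (ha : Av (St98.X T z a b e f) u g) (ha' : Av (St98.X T z a b e f) u g') {j : Fin 6}
    (hj : St98.pj z u j ≠ y₀) : H98.Ct (g ((), j)) (g' ((), j)) ∨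
      (g ((), j + 2) ≤ 1 ∧ g' ((), j + 2) ≤ 1 ∧ g ((), j + 4) ≤ 1 ∧ g' ((), j + 4) ≤ 1) := by
  by_cases hct : H98.Ct (g ((), j)) (g' ((), j))
  · exact Or.inl hct
  right
  have k := S.mem_Lt (ha ((), j))
  have k' := S.mem_Lt (ha' ((), j))
  have hfA : St98.pj z u j ∈ Lt T z a b c d e f 1 ∧ (St98.pj z u j ∈ Lt T z a b c d e f 2 ∨
      St98.pj z u j ∈ Lt T z a b c d e f 3) := by
    have hct' : (g ((), j) = 1 ∧ g' ((), j) = 2) ∨ (g ((), j) = 1 ∧ g' ((), j) = 3) ∨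
        (g ((), j) = 2 ∧ g' ((), j) = 1) ∨ (g ((), j) = 3 ∧ g' ((), j) = 1) := by
      unfold H98.Ct at hct
      tauto
    rcases hct' with ⟨h1, h2⟩ | ⟨h1, h2⟩ | ⟨h1, h2⟩ | ⟨h1, h2⟩
    · rw [h1] at k; rw [h2] at k'; exact ⟨k, Or.inl k'⟩
    · rw [h1] at k; rw [h2] at k'; exact ⟨k, Or.inr k'⟩
    · rw [h1] at k; rw [h2] at k'; exact ⟨k', Or.inl k⟩
    · rw [h1] at k; rw [h2] at k'; exact ⟨k', Or.inr k⟩
  have dz := fun i : Fin 6 => St98.dist_pj z u i
  have d1 : dist (St98.pj z u (j + 1)) (St98.pj z u j) = 1 := by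
    rw [dist_comm]; exact St98.dist_pj_succ z u j
  have d5 := St353.dist_pj_pred z u j
  have t2 := St353.pj_two z u j
  have t4 := St353.pj_four z u j
  refine ⟨?_, ?_, ?_, ?_⟩
  · exact S.far hj hfA.1 hfA.2 (dz _) d1 (dz _) d5 t2.1 t2.2 (S.mem_Lt (ha ((), j + 2)))
  · exact S.far hj hfA.1 hfA.2 (dz _) d1 (dz _) d5 t2.1 t2.2 (S.mem_Lt (ha' ((), j + 2)))
  · exact S.far hj hfA.1 hfA.2 (dz _) d5 (dz _) d1 t4.1 t4.2 (S.mem_Lt (ha ((), j + 4)))
  · exact S.far hj hfA.1 hfA.2 (dz _) d5 (dz _) d1 t4.1 t4.2 (S.mem_Lt (ha' ((), j + 4)))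

/-- the apexes of an exceptional point -/
theorem exc (S : St758 U T z a b c d e f y₀) {y : ℂ} (hy : dist y z = 1)
    (h3 : ¬ (T y).ncard ≤ 3) (hz : T y ≠ T z) (hqu : ¬ (y ≠ y₀ ∧ Quiet758 T z a b c d e f y)) : ∃ P Q, PQ738 T y P Q ∧
      (P = {e, f} ∨ Q = {e, f} → y = y₀) ∧
      (∀ p, dist p z = 1 → dist p y = 1 → (T p).ncard ≤ 3 ∨ (T p = T z ∧ y ≠ y₀)) := by
  by_cases hy0 : y = y₀
  · rcases S.h0 with h | h | ⟨⟨P, Q, hPQ⟩, h⟩
    · exact absurd (hy0 ▸ h) h3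
    · exact absurd (hy0 ▸ h) hz
    · refine ⟨P, Q, hy0 ▸ hPQ, fun _ => hy0, fun p h1 h2 => Or.inl (h p h1 (hy0 ▸ h2))⟩
  · rcases S.hJ y hy hy0 with h | h | ⟨P, Q, hPQ, hP, hQ, he⟩ | h
    rotate_left 3
    · exact absurd ⟨hy0, h⟩ hqu
    · exact absurd h h3
    · exact absurd h hz
    · refine ⟨P, Q, hPQ, ?_, fun p h1 h2 => ?_⟩
      · rintro (h | h)
        · exact absurd h hP
        · exact absurd h hQ
      · rcases S.hAp y p hy h1 h2 hy0 ⟨P, Q, hPQ, hP, hQ, he⟩ with h4 | h4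
        · exact Or.inl h4
        · exact Or.inr ⟨h4, hy0⟩

/-- **swaps of neighbours**: `A`, `C`, or `e`, `f` at `y₀` -/
theorem noswap (S : St758 U T z a b c d e f y₀) {y y' : ℂ} {l m : Fin 4} (hlm : l ≠ m)
    (hyy : dist y y' = 1) (hl : y ∈ Lt T z a b c d e f l) (hm : y ∈ Lt T z a b c d e f m)
    (hl' : y' ∈ Lt T z a b c d e f l) (hm' : y' ∈ Lt T z a b c d e f m) :
    ((l = 2 ∧ m = 3) ∨ (l = 3 ∧ m = 2)) ∨ (l ≤ 1 ∧ m ≤ 1 ∧
      ((y = y₀ ∧ (T y').ncard ≤ 3 ∧ ∃ P Q, PQ738 T y P Q ∧ P = {e, f}) ∨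
      (y' = y₀ ∧ (T y).ncard ≤ 3 ∧ ∃ P Q, PQ738 T y' P Q ∧ P = {e, f}))) := by
  have hy := Lt_dist hl
  have hy' := Lt_dist hl'
  have fin : (l = 2 ∨ l = 3) → (m = 2 ∨ m = 3) → (l = 2 ∧ m = 3) ∨ (l = 3 ∧ m = 2) := by
    rintro (rfl | rfl) (rfl | rfl)
    · exact absurd rfl hlm
    · exact Or.inl ⟨rfl, rfl⟩
    · exact Or.inr ⟨rfl, rfl⟩
    · exact absurd rfl hlm
  by_cases hqu : y ≠ y₀ ∧ Quiet758 T z a b c d e f y
  · exact (hqu.2.noswap hlm hyy hl hm hl' hm').elim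
  by_cases hqu' : y' ≠ y₀ ∧ Quiet758 T z a b c d e f y'
  · exact (hqu'.2.noswap hlm (by rw [dist_comm]; exact hyy) hl' hm' hl hm).elim
  by_cases hz : T y = T z
  · exact Or.inl (fin (S.noEF_of_eq hz hl) (S.noEF_of_eq hz hm))
  by_cases hz' : T y' = T z
  · exact Or.inl (fin (S.noEF_of_eq hz' hl') (S.noEF_of_eq hz' hm'))
  by_cases h3 : (T y).ncard ≤ 3
  · by_cases h3' : (T y').ncard ≤ 3
    · exact (S.ctr.noswap hlm hyy h3 h3' hl hm hl' hm').elim
    · obtain ⟨P, Q, hPQ, hef, -⟩ := S.exc hy' h3' hz' hqu'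
      obtain ⟨h5, h6, h7⟩ := swap_exc353 S.ctr hPQ hy' hy hyy h3 hlm hl' hm' hl hm
      refine Or.inr ⟨h6, h7, Or.inr ⟨hef h5, h3, ?_⟩⟩
      rcases h5 with h5 | h5
      · exact ⟨P, Q, hPQ, h5⟩
      · exact ⟨Q, P, hPQ.symm, h5⟩
  · obtain ⟨P, Q, hPQ, hef, hap⟩ := S.exc hy h3 hz hqu
    have hyy' : dist y' y = 1 := by rw [dist_comm]; exact hyy
    rcases hap y' hy' hyy' with h3' | h3'
    · obtain ⟨h5, h6, h7⟩ := swap_exc353 S.ctr hPQ hy hy' hyy' h3' hlm hl hm hl' hm'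
      refine Or.inr ⟨h6, h7, Or.inl ⟨hef h5, h3', ?_⟩⟩
      rcases h5 with h5 | h5
      · exact ⟨P, Q, hPQ, h5⟩
      · exact ⟨Q, P, hPQ.symm, h5⟩
    · exact absurd h3'.1 hz'

/-- the condition for opposite slots -/
theorem opOK (S : St758 U T z a b c d e f y₀) {u : ℝ} {g g' : Unit × Fin 6 → Fin 4}
    (ha : Av (St98.X T z a b e f) u g) (ha' : Av (St98.X T z a b e f) u g') (j : Fin 6) :
    H98.OpOK (g ((), j)) (g' ((), j)) (g ((), j + 3)) (g' ((), j + 3)) := by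
  have e3 : j + 3 + 3 = j := by rw [add_assoc]; exact add_zero j
  constructor
  · rintro ⟨h1, h2⟩
    have k1 : u ∈ St98.X T z a b e f ((), j) 2 := by
      rcases h1 with h1 | h1
      · rw [← h1]; exact ha ((), j)
      · rw [← h1]; exact ha' ((), j)
    have k2 : u ∈ St98.X T z a b e f ((), j + 3) 3 := by
      rcases h2 with h2 | h2
      · rw [← h2]; exact ha ((), j + 3)
      · rw [← h2]; exact ha' ((), j + 3)
    exact S.opp k1 k2
  · rintro ⟨h1, h2⟩
    have k1 : u ∈ St98.X T z a b e f ((), j + 3 + 3) 3 := by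
      rw [e3]
      rcases h1 with h1 | h1
      · rw [← h1]; exact ha ((), j)
      · rw [← h1]; exact ha' ((), j)
    have k2 : u ∈ St98.X T z a b e f ((), j + 3) 2 := by
      rcases h2 with h2 | h2
      · rw [← h2]; exact ha ((), j + 3)
      · rw [← h2]; exact ha' ((), j + 3)
    exact S.opp k2 k1

/-- neighbouring slots, none of them `y₀` -/
theorem adjOK (S : St758 U T z a b c d e f y₀) {u : ℝ} {g g' : Unit × Fin 6 → Fin 4}
    (hg : St98.Leg g) (hg' : St98.Leg g') (ha : Av (St98.X T z a b e f) u g)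
    (ha' : Av (St98.X T z a b e f) u g') (j : Fin 6) (h1 : St98.pj z u j ≠ y₀)
    (h2 : St98.pj z u (j + 1) ≠ y₀) :
    H98.AdjOK (g ((), j)) (g' ((), j)) (g ((), j + 1)) (g' ((), j + 1)) := by
  refine ⟨hg.1 j, hg'.1 j, ?_⟩
  rintro ⟨k1, k2, k3, k4⟩
  rcases S.noswap k1 (St98.dist_pj_succ z u j) (S.mem_Lt (ha ((), j))) (S.mem_Lt (ha' ((), j)))
    (by rw [k2]; exact S.mem_Lt (ha' ((), j + 1))) (by rw [k3]; exact S.mem_Lt (ha ((), j + 1)))
    with h | ⟨-, -, ⟨h, -⟩ | ⟨h, -⟩⟩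
  · exact k4 h
  · exact h1 h
  · exact h2 h

/-- **the step** at a time without `y₀` -/
theorem loc (S : St758 U T z a b c d e f y₀) {u : ℝ} (hu : ∀ j, St98.pj z u j ≠ y₀)
    {g g' : Unit × Fin 6 → Fin 4} (hg : St98.Leg g) (hg' : St98.Leg g')
    (ha : Av (St98.X T z a b e f) u g) (ha' : Av (St98.X T z a b e f) u g') :
    H98.lab (fun j => g ((), j)) = H98.lab (fun j => g' ((), j)) :=
  H738.tieX _ _ (fun j => S.ct ha ha' (hu j))
    (fun j => S.adjOK hg hg' ha ha' j (hu j) (hu (j + 1))) (fun j => S.opOK ha ha' j)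

/-- the pair letters next to `y₀` -/
theorem ref (S : St758 U T z a b c d e f y₀) {P Q : Set (Fin 6)} (hPQ : PQ738 T y₀ P Q)
    (hP : P = {e, f}) (hyz : dist y₀ z = 1) {p : ℂ} (hpz : dist p z = 1) (hpy : dist p y₀ = 1)
    (h3 : (T p).ncard ≤ 3) {X : Fin 4} (hX : X = 2 ∨ X = 3) (hp : p ∈ Lt T z a b c d e f X) :
    p + z - y₀ ∉ Lt T z a b c d e f X := by
  have hc := Lt_col S.irr hp
  rcases hX with rfl | rfl
  · exact ref353 S.ctr hPQ hP hyz hpz hpy h3 (hc (Or.inl rfl)) (hc (Or.inr rfl))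
  · exact ref353 (Ctr.swap353 S.ctr) hPQ hP hyz hpz hpy h3 (hc (Or.inl rfl)) (hc (Or.inr rfl))

/-- the apexes of `y₀` if it has the pair `{e, f}` -/
theorem apex0 (S : St758 U T z a b c d e f y₀) {P Q : Set (Fin 6)} (hPQ : PQ738 T y₀ P Q)
    (hP : P = {e, f}) : ∀ p, dist p z = 1 → dist p y₀ = 1 → (T p).ncard ≤ 3 := by
  have he : e ∈ T y₀ := hPQ.mem353.2 (Or.inl (by rw [hP]; exact Or.inl rfl))
  rcases S.h0 with h | h | ⟨-, h⟩
  · rw [hPQ.four353] at h; omega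
  · exfalso
    rw [h, S.dpt.pal] at he
    obtain ⟨⟨ab, ac, ad, ae, af⟩, ⟨bc, bd, be, bf⟩, ⟨cd, ce, cf⟩, ⟨de, df⟩, ef⟩ :=
      nd_all353 S.nd
    rcases he with he | he | he | he
    · exact ae he.symm
    · exact be he.symm
    · exact ce he.symm
    · exact de (mem_singleton_iff.1 he).symm
  · exact h

/-- **the step** at a time with `y₀` in the slot `0` -/
theorem loc0 (S : St758 U T z a b c d e f y₀) {u : ℝ} (h0 : St98.pj z u 0 = y₀)
    (hu : ∀ j, j ≠ 0 → St98.pj z u j ≠ y₀) {g g' : Unit × Fin 6 → Fin 4} (hg : St98.Leg g)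
    (hg' : St98.Leg g') (ha : Av (St98.X T z a b e f) u g) (ha' : Av (St98.X T z a b e f) u g') :
    H98.lab (fun j => g ((), j)) = H98.lab (fun j => g' ((), j)) ∨
      (H738.big (H98.lab (fun j => g ((), j))) ↔ ¬ H738.big (H98.lab (fun j => g' ((), j)))) := by
  have hyz : dist y₀ z = 1 := by rw [← h0]; exact St98.dist_pj z u 0
  by_cases hall : ∀ j, H98.AdjOK (g ((), j)) (g' ((), j)) (g ((), j + 1)) (g' ((), j + 1))
  · exact H353.cornerN _ _ (fun j hj => S.ct ha ha' (hu j hj)) hall (fun j => S.opOK ha ha' j)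
  push Not at hall
  obtain ⟨i, hadj⟩ := hall
  -- the pair `{e, f}` at `y₀`
  have hef : (∃ P Q, PQ738 T y₀ P Q ∧ P = {e, f}) ∧
      ∀ p, dist p z = 1 → dist p y₀ = 1 → (T p).ncard ≤ 3 := by
    unfold H98.AdjOK at hadj
    push Not at hadj
    obtain ⟨k1, k2, k3, k4⟩ := hadj (hg.1 i) (hg'.1 i)
    have k5 := S.noswap k1 (St98.dist_pj_succ z u i) (S.mem_Lt (ha ((), i)))
      (S.mem_Lt (ha' ((), i))) (by rw [k2]; exact S.mem_Lt (ha' ((), i + 1)))
      (by rw [k3]; exact S.mem_Lt (ha ((), i + 1)))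
    rcases k5 with h | ⟨-, -, ⟨h1, -, P, Q, h2, h4⟩ | ⟨h1, -, P, Q, h2, h4⟩⟩
    · exact absurd h (by tauto)
    · rw [h1] at h2
      exact ⟨⟨P, Q, h2, h4⟩, S.apex0 h2 h4⟩
    · rw [h1] at h2
      exact ⟨⟨P, Q, h2, h4⟩, S.apex0 h2 h4⟩
  obtain ⟨⟨P, Q, hPQ, hP⟩, hap⟩ := hef
  have href : ∀ s t : Fin 6, dist (St98.pj z u s) y₀ = 1 →
      St98.pj z u t = St98.pj z u s + z - y₀ → ∀ X : Fin 4, 2 ≤ X →
      (g ((), s) = X ∨ g' ((), s) = X) → g ((), t) ≠ X ∧ g' ((), t) ≠ X := by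
    intro s t h1 h2 X hX hor
    have hX' : X = 2 ∨ X = 3 := by
      have : ∀ X : Fin 4, 2 ≤ X → X = 2 ∨ X = 3 := by decide
      exact this X hX
    have hp : St98.pj z u s ∈ Lt T z a b c d e f X := by
      rcases hor with h | h
      · rw [← h]; exact S.mem_Lt (ha ((), s))
      · rw [← h]; exact S.mem_Lt (ha' ((), s))
    have hno : St98.pj z u t ∉ Lt T z a b c d e f X := by
      rw [h2]
      exact S.ref hPQ hP hyz (St98.dist_pj z u _) h1 (hap _ (St98.dist_pj z u _) h1) hX' hp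
    constructor
    · intro h
      exact hno (h ▸ S.mem_Lt (ha ((), t)))
    · intro h
      exact hno (h ▸ S.mem_Lt (ha' ((), t)))
  refine H738.cornerX _ _ 0 (fun j hj => S.ct ha ha' (hu j hj)) (fun j => ?_)
    (fun j => S.opOK ha ha' j) ?_ ?_
  · by_cases hadj : H98.AdjOK (g ((), j)) (g' ((), j)) (g ((), j + 1)) (g' ((), j + 1))
    · exact Or.inl hadj
    · right
      by_cases h1 : j = 0 ∨ j + 1 = 0
      · refine ⟨h1, hg.1 j, hg'.1 j, ?_⟩
        unfold H98.AdjOK at hadj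
        push Not at hadj
        obtain ⟨k1, k2, k3, k4⟩ := hadj (hg.1 j) (hg'.1 j)
        have k5 := S.noswap k1 (St98.dist_pj_succ z u j) (S.mem_Lt (ha ((), j)))
          (S.mem_Lt (ha' ((), j))) (by rw [k2]; exact S.mem_Lt (ha' ((), j + 1)))
          (by rw [k3]; exact S.mem_Lt (ha ((), j + 1)))
        rcases k5 with h | ⟨h5, h6, -⟩
        · exact absurd h (by tauto)
        · exact ⟨h5, h6, by rw [← k3]; exact h6, by rw [← k2]; exact h5⟩
      · push Not at h1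
        exact absurd (S.adjOK hg hg' ha ha' j (hu j h1.1) (hu (j + 1) h1.2)) hadj
  · refine href (0 + 1) (0 + 2) ?_ ?_
    · rw [← h0, dist_comm]; exact St98.dist_pj_succ z u 0
    · rw [← h0]; exact St353.pj_mid z u 0
  · refine href (0 + 5) (0 + 4) ?_ ?_
    · rw [← h0]; exact St353.dist_pj_pred z u 0
    · rw [← h0]; exact (St353.pj_four z u 0).1

theorem false (S : St758 U T z a b c d e f y₀) (hy₀ : dist y₀ z = 1) : False := by
  have w := S.sw
  have key : ∀ u, ∀ h ∈ LC (St98.X T z a b e f) u ∪ RC (St98.X T z a b e f) u,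
      St98.Leg h ∧ Av (St98.X T z a b e f) u h := by
    rintro u h (hh | hh)
    · exact ⟨w.leg_of_LC hh, w.av_of_LC hh⟩
    · exact ⟨w.leg_of_RC hh, w.av_of_RC hh⟩
  -- the direction of `y₀`
  obtain ⟨s₀, hs₀⟩ : ∃ s : ℝ, pt z s = y₀ := by
    obtain ⟨t, ht⟩ := exists_cis (u := y₀ - z) (by rw [← dist_eq_norm]; exact hy₀)
    refine ⟨t / (Real.pi / 3), ?_⟩
    unfold pt
    rw [div_mul_cancel₀ _ (by positivity), ← ht]
    ring
  have hslot : ∀ (u : ℝ) (j : Fin 6), St98.pj z u j = y₀ → ∃ n : ℤ,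
      u + (j.val : ℝ) = s₀ + 6 * (n : ℝ) := by
    intro u j h
    have h1 : pt z (0 + u + (j.val : ℝ)) = pt z s₀ := h.trans hs₀.symm
    obtain ⟨n, hn⟩ := pt_eq_iff h1
    exact ⟨n, by rw [← hn]; ring⟩
  have h0 : St98.pj z s₀ 0 = y₀ := by
    show pt z (0 + s₀ + (((0 : Fin 6) : ℕ) : ℝ)) = y₀
    rw [← hs₀]; congr 1; simp
  have h0' : ∀ j : Fin 6, j ≠ 0 → St98.pj z s₀ j ≠ y₀ := by
    intro j hj h
    obtain ⟨n, hn⟩ := hslot s₀ j h
    have h1 : ((j.val : ℤ) : ℝ) = ((6 * n : ℤ) : ℝ) := by push_cast; linarith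
    have h2 : (j.val : ℤ) = 6 * n := by exact_mod_cast h1
    have h3 := j.isLt
    have h4 : j.val ≠ 0 := fun h => hj (Fin.ext h)
    omega
  have hI : ∀ u ∈ Ioo s₀ (s₀ + 1), ∀ j : Fin 6, St98.pj z u j ≠ y₀ := by
    intro u hu j h
    obtain ⟨n, hn⟩ := hslot u j h
    have h1 : ((6 * n - (j.val : ℤ) : ℤ) : ℝ) = u - s₀ := by push_cast; linarith
    have h2 : (0 : ℝ) < ((6 * n - (j.val : ℤ) : ℤ) : ℝ) := by rw [h1]; linarith [hu.1]
    have h3 : ((6 * n - (j.val : ℤ) : ℤ) : ℝ) < 1 := by rw [h1]; linarith [hu.2]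
    have h4 : (0 : ℤ) < 6 * n - (j.val : ℤ) := by exact_mod_cast h2
    have h5 : 6 * n - (j.val : ℤ) < (1 : ℤ) := by exact_mod_cast h3
    omega
  obtain ⟨h, hh⟩ := w.LC_ne s₀
  obtain ⟨h', hh'⟩ := w.RC_ne s₀
  have h1 := w.turn (σ := rt Unit) (fun s l u => Xl_per s l u)
    (R := fun g g' => H98.lab (fun j => g ((), j)) = H98.lab (fun j => g' ((), j)))
    (fun _ _ _ h1 h2 => h1.trans h2) s₀
    (fun u hu g hg g' hg' => S.loc (hI u hu) (key u g hg).1 (key u g' hg').1 (key u g hg).2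
      (key u g' hg').2) h hh h' hh'
  have k := key s₀ h (Or.inl hh)
  have k' := key s₀ h' (Or.inr hh')
  have h2 := S.loc0 h0 h0' k.1 k'.1 k.2 k'.2
  have hrot := H98.rot (fun j => h ((), j)) k.1.1 k.1.2
  have hbig := H738.rot_big (fun j => h ((), j)) k.1.1 k.1.2
  have h3 : H98.lab (fun j => h' ((), j)) = H98.lab (fun j => h ((), j + 1)) := h1
  rcases h2 with h2 | h2
  · exact hrot (h3.symm.trans h2.symm)
  · rw [h3] at h2
    tauto

end St758


/-- **one corner, the others harmless or quiet: impossible** -/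
theorem quiet_corner758 (h : Irr U T) (hz : DPt T z a b c d) (nd : [a, b, c, d, e, f].Nodup)
    (hy₀ : dist y₀ z = 1)
    (hJ : ∀ y, dist y z = 1 → y ≠ y₀ → (T y).ncard ≤ 3 ∨ T y = T z ∨ Harm353 T e f y ∨
      Quiet758 T z a b c d e f y)
    (hAp : ∀ y p, dist y z = 1 → dist p z = 1 → dist p y = 1 → y ≠ y₀ → Harm353 T e f y →
      (T p).ncard ≤ 3 ∨ T p = T z)
    (h0 : (T y₀).ncard ≤ 3 ∨ T y₀ = T z ∨ ((∃ P Q, PQ738 T y₀ P Q) ∧
      ∀ p, dist p z = 1 → dist p y₀ = 1 → (T p).ncard ≤ 3))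
    (hA : ∀ y ∈ closure (Ex T z {a, b}), y ≠ y₀ → (T y).ncard ≤ 3 → f ∉ T y)
    (hC : ∀ y ∈ closure (Ex T z {c, d}), y ≠ y₀ → (T y).ncard ≤ 3 → f ∉ T y) : False :=
  St758.false ⟨h, hz, nd, hJ, hAp, h0, hA, hC⟩ hy₀

/-- an apex of an `H`-pair with the colours `e, f` is in the closure of the `ef`-arcs -/
theorem ef_mem758 {V u : ℂ} (h : Irr U T) (hV : DPt T V a b c d) (hD : DPt T y a b e f)
    (nd : [a, b, c, d, e, f].Nodup) (hy : dist y V = 1) (hu : dist u V = 1) (huy : dist u y = 1)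
    (h3 : (T u).ncard ≤ 3) (he : e ∈ T u) (hf : f ∈ T u) : u ∈ closure (Ex T y {e, f}) := by
  obtain ⟨⟨ab, ac, ad, ae, af⟩, ⟨bc, bd, be, bf⟩, ⟨cd, ce, cf⟩, ⟨de, df⟩, ef⟩ := nd_all353 nd
  have C : Ctr U T y a b e f c d := by
    refine ⟨h, hD.pal, ?_, fun q hq h1 h2 => h.twoPairs hD q hq h1 h2⟩
    simp [ab, ac, ad, ae, af, bc, bd, be, bf, cd, Ne.symm ce, Ne.symm cf, Ne.symm de, Ne.symm df, ef]
  by_contra hno
  have n2 : u ∉ Lt T y a b e f c d 2 := by
    intro h1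
    have h2 := Lt_col h h1
    exact four_false h3 (h2 (Or.inl rfl)) (h2 (Or.inr rfl)) he hf ab ae af be bf ef
  have ncd : ¬ (c ∈ T u ∧ d ∈ T u) := fun h1 => four_false h3 h1.1 h1.2 he hf cd ce cf de df ef
  have hVy : V ≠ y := by
    rintro rfl
    rw [dist_self] at hy
    exact zero_ne_one hy
  have hVu : V + y ≠ 2 * u := by
    intro h1
    have h2 : u - y = (V - y) / 2 := by linear_combination -h1 / 2
    have h4 : dist u y = 1 / 2 := by
      rw [dist_eq_norm, h2, norm_div, ← dist_eq_norm, dist_comm V y, hy]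
      norm_num
    rw [huy] at h4
    norm_num at h4
  have key : ∀ l : Fin 4, ∀ i ∈ col a b e f c d l, i ∈ T V →
      (∀ m, u ∈ Lt T y a b e f c d m → m = l) → False := by
    intro l i hi hiV only
    have hev : ∀ᶠ q in 𝓝[sphere y 1] u, q ∈ Lt T y a b e f c d l := by
      have h2 : ∀ m, m ≠ l → ∀ᶠ q in 𝓝 u, q ∉ Lt T y a b e f c d m := fun m hm =>
        (Lt_closed C.irr m).isOpen_compl.mem_nhds fun h3 => hm (only m h3)
      have h3 : ∀ᶠ q in 𝓝 u, ∀ m, m ≠ l → q ∉ Lt T y a b e f c d m := by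
        rw [eventually_all]
        intro m
        by_cases hm : m = l
        · exact Eventually.of_forall fun q h4 => absurd hm h4
        · filter_upwards [h2 m hm] with q hq _
          exact hq
      filter_upwards [mem_nhdsWithin_of_mem_nhds h3, self_mem_nhdsWithin] with q hq hqz
      obtain ⟨m, hm⟩ := C.cover (y := q) hqz
      by_cases hml : m = l
      · rw [← hml]; exact hm
      · exact absurd hm (hq m hml)
    exact line_free h huy (t := i) (hev.mono fun q hq => Lt_col h hq hi) (v := V) hu hVy hVu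
      (h.sub _ hiV)
  obtain ⟨l, hl⟩ := C.cover huy
  have hcV : c ∈ T V := by rw [hV.pal]; simp
  have hdV : d ∈ T V := by rw [hV.pal]; simp
  fin_cases l
  · refine key 0 c rfl hcV fun m hm => ?_
    fin_cases m
    · rfl
    · exact absurd ⟨hl.2, hm.2⟩ ncd
    · exact absurd hm n2
    · exact absurd hm hno
  · refine key 1 d rfl hdV fun m hm => ?_
    fin_cases m
    · exact absurd ⟨hm.2, hl.2⟩ ncd
    · rfl
    · exact absurd hm n2
    · exact absurd hm hno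
  · exact n2 hl
  · exact hno hl

end Vale.Agent.P032.Six

namespace Vale.Agent.P032.H98

open Vale.Agent.P032.Six Vale.Agent.P032.S5.H767 Vale.Agent.P032.H383 Vale.Agent.P032.H800

variable {U : Fin 6 → Set ℂ} {T : ℂ → Set (Fin 6)} {V y : ℂ} {a b c d e f : Fin 6}

/-- no point of at most three colours of the closed arcs has the colour `f` -/
theorem Md98.notf758 (M : Md98 T V a b c d e f) : ∀ x, (T x).ncard ≤ 3 →
    (x ∈ closure (Ex T V {a, b}) ∨ x ∈ closure (Ex T V {c, d})) → f ∉ T x := by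
  obtain ⟨⟨ab, ac, ad, ae, af⟩, ⟨bc, bd, be, bf⟩, ⟨cd, ce, cf⟩, ⟨de, df⟩, ef⟩ := nd_all353 M.nd
  intro x h3 hx hf
  rcases hx with hx | hx
  · rcases M.hA x hx h3 with h1 | h1 <;> rw [h1] at hf <;>
      simp only [mem_insert_iff, mem_singleton_iff] at hf
    · rcases hf with h | h
      · exact af h.symm
      · exact bf h.symm
    · rcases hf with h | h | h
      · exact af h.symm
      · exact bf h.symm
      · exact ef h.symm
  · rcases M.hC x hx h3 with h1 | h1 <;> rw [h1] at hf <;>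
      simp only [mem_insert_iff, mem_singleton_iff] at hf
    · rcases hf with h | h
      · exact cf h.symm
      · exact df h.symm
    · rcases hf with h | h | h
      · exact cf h.symm
      · exact df h.symm
      · exact ef h.symm

/-- **an `H`-neighbour has an apex with both colours `e, f`** -/
theorem apexEF758 (X : XC U T) (hT : RowTri98) (hH : RowHarm98) (M : Md98 T V a b c d e f)
    (hy : dist y V = 1) (hD : DPt T y a b e f) :
    ∃ u, dist u V = 1 ∧ dist u y = 1 ∧ (T u).ncard ≤ 3 ∧ e ∈ T u ∧ f ∈ T u := by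
  by_contra hcon
  push Not at hcon
  obtain ⟨⟨ab, ac, ad, ae, af⟩, ⟨bc, bd, be, bf⟩, ⟨cd, ce, cf⟩, ⟨de, df⟩, ef⟩ := nd_all353 M.nd
  have hy4 : 4 ≤ (T y).ncard := hD.ncard.ge
  have hV4 : 4 ≤ (T V).ncard := M.dpt.ncard.ge
  have tri : ∀ q u, dist q V = 1 → dist u V = 1 → dist u q = 1 → 4 ≤ (T q).ncard →
      (T u).ncard ≤ 3 := by
    intro q u hq hu huq h4
    by_contra h5
    exact hT U T X V a b c d e f M u q hu hq huq (by omega) h4
  have hquiet : Quiet758 T V a b c d e f y := by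
    refine ⟨fun h1 => ?_, fun h1 => ?_, ?_⟩
    · refine no_pair800 X.df.irr hD (y := V) (by rw [dist_comm]; exact hy)
        (closure_mono (fun q hq => ?_) h1)
      exact ⟨hq.1, ex_self hq⟩
    · have h5 := sub_of_closure X.df.irr h1 (show c ∈ ({c, d} : Set (Fin 6)) by simp)
      rw [hD.pal] at h5
      rcases h5 with h5 | h5 | h5 | h5
      · exact ac h5.symm
      · exact bc h5.symm
      · exact ce h5
      · exact cf h5
    · rintro p hp hpy ⟨he, hf⟩
      exact hcon p hp hpy (tri y p hy hp hpy hy4) he hf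
  obtain ⟨y₀, hy₀, huniq⟩ : ∃ y₀, dist y₀ V = 1 ∧
      ∀ q, dist q V = 1 → 4 ≤ (T q).ncard → q = y ∨ q = y₀ := by
    by_cases hex : ∃ q, dist q V = 1 ∧ 4 ≤ (T q).ncard ∧ q ≠ y
    · obtain ⟨q, hq, hq4, hqy⟩ := hex
      refine ⟨q, hq, fun r hr hr4 => ?_⟩
      rcases X.n3 V y q r hV4 hy hq hr hy4 hq4 hr4 with h | h | h
      · exact absurd h.symm hqy
      · exact Or.inl h.symm
      · exact Or.inr h.symm
    · push Not at hex
      obtain ⟨g, hg⟩ := M.dpt.arc1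
      exact ⟨g, hg.1, fun r hr hr4 => Or.inl (hex r hr hr4)⟩
  refine quiet_corner758 (y₀ := y₀) X.df.irr M.dpt M.nd hy₀ ?_ ?_ ?_ ?_ ?_
  · intro q hq hq0
    by_cases h3 : (T q).ncard ≤ 3
    · exact Or.inl h3
    · rcases huniq q hq (by omega) with h | h
      · exact Or.inr (Or.inr (Or.inr (h ▸ hquiet)))
      · exact absurd h hq0
  · rintro q p hq hp hpq - ⟨P, Q, hPQ, -, -, -⟩
    exact Or.inl (tri q p hq hp hpq hPQ.four353.ge)
  · by_cases h3 : (T y₀).ncard ≤ 3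
    · exact Or.inl h3
    · refine Or.inr (Or.inr ⟨?_, fun p hp hpy => tri y₀ p hy₀ hp hpy (by omega)⟩)
      rcases X.df.harm_or (z := y₀) (by omega) with ⟨A, hA⟩ | ⟨p, q, r, s, hD'⟩
      · exact (hH U T X V a b c d e f M y₀ hy₀ A hA).elim
      · exact ⟨_, _, PQ738.of_dpt X.df.irr hD'⟩
  · exact fun q hq _ h3 => M.notf758 q h3 (Or.inl hq)
  · exact fun q hq _ h3 => M.notf758 q h3 (Or.inr hq)

/-- **row H**, from the rows T and HA -/
theorem rowH758 (hT : RowTri98) (hH : RowHarm98) : RowH98 := by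
  intro U T X _ V a b c d e f M y hy hD
  obtain ⟨u, hu, huy, h3, he, hf⟩ := apexEF758 X hT hH M hy hD
  exact H353.HS353.false (U := U) (T := T) (V := V) (y := y) (u := u) (a := a) (b := b) (c := c)
    (d := d) (e := e) (f := f)
    { irr := X.df.irr
      mn := X.df.mn
      le4 := X.df.le4
      hV := M.dpt
      hY := hD
      nd := M.nd
      hyV := hy
      huV := hu
      hu := ef_mem758 X.df.irr M.dpt hD M.nd hy hu huy h3 he hf
      n3 := X.n3
      hA := fun x hx h3 => M.notf758 x h3 (Or.inl hx)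
      hC := fun x hx h3 => M.notf758 x h3 (Or.inr hx) }

end Vale.Agent.P032.H98
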