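import Vale.Agent.P032.H274.XCore
import Vale.Agent.P032.H802.ChainZ
import Vale.Agent.P032.H758.Jump3

/-!
# P032, block X, row G1: the linear facts along a chain of quasi-full points

`Chn758 nx T f V l name` : what is used of the chain (both `ChZ` with `Gauge758` and its version with
invisible points give it).  `DSt` (H538) : the state functions on a ball.  `Chn758.brd758`,
`Chn758.glue758`, `DSt.zero758` : the facts at one vertex, colours read in roles.
-/

open Set Filter Topology Metric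

noncomputable section

namespace Vale.Agent.P032.Six

open Vale.Agent.P032.S5 Vale.Agent.P032.Carr Vale.Agent.P032.H961

variable {U : Fin 6 → Set ℂ} {T : ℂ → Set (Fin 6)} {f : ℂ → Set (Fin 6)} {Z : Set ℂ} {c : ℂ}
  {R δ₀ : ℝ} {x : ℂ} {V : ℤ → ℂ} {l : ℤ → Fin 6} {name : ℤ → Fin 6 → Fin 6}

/-- no face `s` is seen from the colour `t` in the closed disc about `x` -/
def NoF758 (T : ℂ → Set (Fin 6)) (f : ℂ → Set (Fin 6)) (x : ℂ) (s : Set (Fin 6)) (t : Fin 6) : Prop :=
  ∀ u ∈ closedBall x 1, FcD T f u s → ¬ ∃ᶠ w in 𝓝[closedBall x 1 \ {u}] u, t ∈ T w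

theorem DSt.zero758 (D : DSt U T Z f c R δ₀) (hx : dist x c ≤ R - 1) {a b d : Fin 6} (ha : a ∈ T x)
    (h : NoF758 T f x {a, b, d} a) : lamT T Z f δ₀ a x b d = 0 := by
  by_contra hne
  obtain ⟨u, hu, hF, hev⟩ := D.supp hx ha hne
  exact h u hu hF hev

/-- what is used of the chain: roles `0, .., 5` = inner, outer, `p`, `q`, `e`, `f` -/
structure Chn758 (nx : Fin 6 → Fin 6 → Fin 6) (T : ℂ → Set (Fin 6)) (f : ℂ → Set (Fin 6))
    (V : ℤ → ℂ) (l : ℤ → Fin 6) (name : ℤ → Fin 6 → Fin 6) : Prop where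
  inj : ∀ j, Function.Injective (name j)
  dpt : ∀ j, DPt T (V j) (name j 0) (name j 1) (name j 2) (name j 3)
  gau : ∀ j, f (V j) = {name j 2, name j 3}
  memR : ∀ j, V (j + 1) ∈ closure (S5.H767.Ex T (V j) {name j 0, name j 1})
  memL : ∀ j, V (j - 1) ∈ closure (S5.H767.Ex T (V j) {name j 0, name j 1})
  conn : ∀ j, IsPreconnected (closure (S5.H767.Ex T (V j) {name j 0, name j 1}))
  inv : ∀ j z, dist z (V j) = 1 → (∃ a b c d, DPt T z a b c d) → z ≠ V (j + 1) → z ≠ V (j - 1) →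
    ∀ t u : Fin 6, (t = 0 ∨ t = 1) → (u = 2 ∨ u = 3) → T z \ f z ≠ {name j t, name j u}
  nm : ∀ j r, name (j + 1) r = name j (nx (l j) r)

theorem nodup_inj758 {g : Fin 6 → Fin 6} (h : [g 0, g 1, g 2, g 3, g 4, g 5].Nodup) :
    Function.Injective g := by
  have e : [g 0, g 1, g 2, g 3, g 4, g 5] = List.ofFn g := by
    simp [List.ofFn_succ]
  rw [e] at h
  exact List.nodup_ofFn.1 h

/-- the chain of H802 with the gauge -/
theorem ChZ.chn758 {nx : Fin 6 → Fin 6 → Fin 6} (h : Irr U T) (hC : ChZ nx T V l name)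
    (G : Gauge758 T f) : Chn758 nx T f V l name where
  inj := fun j => nodup_inj758 (hC.qf j).nd
  dpt := fun j => (hC.qf j).dpt
  gau := fun j => G.qf (hC.qf j).toQF0
  memR := fun j => (hC.qf j).toQF0.mem1 h
  memL := fun j => (hC.qf j).toQF0.mem2 h
  conn := fun j => by
    obtain ⟨s, t, -, -, -, -, h5⟩ := (hC.qf j).toQF0.arc' h
    rw [h5]
    exact isPreconnected_Icc.image _ (S5.H767.continuous_pt _).continuousOn
  inv := fun j z hz hD hz1 hz2 => by
    obtain ⟨a, b, c, d, hD⟩ := hD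
    rcases (hC.qf j).ord z hz hD.ncard.ge with h1 | h1
    · exact absurd h1 hz1
    · exact absurd h1 hz2
  nm := hC.nm

namespace Chn758

variable {nx : Fin 6 → Fin 6 → Fin 6}

theorem nmB (hC : Chn758 nx T f V l name) (j : ℤ) (r : Fin 6) :
    name j r = name (j - 1) (nx (l (j - 1)) r) := by
  have h := hC.nm (j - 1) r
  rwa [sub_add_cancel] at h

theorem mem (hC : Chn758 nx T f V l name) (j : ℤ) {r : Fin 6} (hr : r < 4) : name j r ∈ T (V j) := by
  rw [(hC.dpt j).pal]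
  have : r = 0 ∨ r = 1 ∨ r = 2 ∨ r = 3 := by revert hr; revert r; decide
  rcases this with rfl | rfl | rfl | rfl <;> simp

theorem dist_succ (hC : Chn758 nx T f V l name) (j : ℤ) : dist (V (j + 1)) (V j) = 1 :=
  S5.H767.dist_of_closure (hC.memR j)

/-- the vertices of a window are near its first vertex -/
theorem dist_le (hC : Chn758 nx T f V l name) (a : ℤ) (n : ℕ) : dist (V (a + n)) (V a) ≤ n := by
  induction n with
  | zero => simp
  | succ n ih =>
    have h1 := hC.dist_succ (a + n)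
    have h2 := dist_triangle (V (a + n + 1)) (V (a + n)) (V a)
    have e : a + ((n + 1 : ℕ) : ℤ) = a + n + 1 := by push_cast; ring
    rw [e]
    push_cast
    linarith

/-- the exact points of the arc of `V (j + 1)` near its end `V j` -/
theorem arcR (hC : Chn758 nx T f V l name) (j : ℤ) :
    ∃ᶠ w in 𝓝 (V j), T w = {name (j + 1) 0, name (j + 1) 1} ∧ dist w (V (j + 1)) = 1 := by
  have h1 := hC.memL (j + 1)
  rw [add_sub_cancel_right] at h1
  exact (mem_closure_iff_frequently.1 h1).mono fun w hw => ⟨S5.H767.ex_self hw, hw.1⟩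

/-- the exact points of the arc of `V (j - 1)` near its end `V j` -/
theorem arcL (hC : Chn758 nx T f V l name) (j : ℤ) :
    ∃ᶠ w in 𝓝 (V j), T w = {name (j - 1) 0, name (j - 1) 1} ∧ dist w (V (j - 1)) = 1 := by
  have h1 := hC.memR (j - 1)
  rw [sub_add_cancel] at h1
  exact (mem_closure_iff_frequently.1 h1).mono fun w hw => ⟨S5.H767.ex_self hw, hw.1⟩

theorem brd_aux (hC : Chn758 nx T f V l name) (D : DSt U T Z f c R δ₀) {j : ℤ}
    (hj : dist (V j) c ≤ R - 1) {t u : Fin 6} {t' u' : Fin 6}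
    (hV : DPt T (V j) (name j t) t' (name j u) u')
    (hinv : ∀ z g h i k, dist z (V j) = 1 → DPt T z g h i k → z ≠ V (j + 1) → z ≠ V (j - 1) →
      T z \ f z ≠ {name j t, name j u})
    (hne : ¬ ((nx (l j) 0 = t ∧ nx (l j) 1 = u ∨ nx (l j) 0 = u ∧ nx (l j) 1 = t) ∧
      (nx (l (j - 1)) t = 0 ∧ nx (l (j - 1)) u = 1 ∨ nx (l (j - 1)) u = 0 ∧ nx (l (j - 1)) t = 1)))
    {d : Fin 6} (hdt : d ≠ t) (hdu : d ≠ u) :
    lamT T Z f δ₀ (name j t) (V j) (name j u) (name j d) +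
      lamT T Z f δ₀ (name j u) (V j) (name j t) (name j d) =
      (if (nx (l j) 0 = t ∧ nx (l j) 1 = u ∨ nx (l j) 0 = u ∧ nx (l j) 1 = t) ∧
        (d = nx (l j) 2 ∨ d = nx (l j) 3) then 1 else 0) +
      (if (nx (l (j - 1)) t = 0 ∧ nx (l (j - 1)) u = 1 ∨
          nx (l (j - 1)) u = 0 ∧ nx (l (j - 1)) t = 1) ∧
        (nx (l (j - 1)) d = 2 ∨ nx (l (j - 1)) d = 3) then 1 else 0) := by
  have hi := hC.inj j
  have hi' := hC.inj (j - 1)
  have n0 : ∀ r s, name (j + 1) r = name j s ↔ nx (l j) r = s := by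
    intro r s
    rw [hC.nm j r]
    exact hi.eq_iff
  have n0' : ∀ r s, name j s = name (j + 1) r ↔ s = nx (l j) r := by
    intro r s
    rw [hC.nm j r]
    exact hi.eq_iff
  have n1 : ∀ r s, name (j - 1) r = name j s ↔ nx (l (j - 1)) s = r := by
    intro r s
    rw [hC.nmB j s, hi'.eq_iff]
    exact eq_comm
  have n1' : ∀ r s, name j s = name (j - 1) r ↔ nx (l (j - 1)) s = r := by
    intro r s
    rw [hC.nmB j s, hi'.eq_iff]
  have key := D.border758 hj hV (V1 := V (j + 1)) (V2 := V (j - 1)) (hC.dpt (j + 1))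
    (hC.gau (j + 1)) (hC.arcR j) (hC.dpt (j - 1)) (hC.gau (j - 1)) (hC.arcL j) hinv
    (by simp only [n0, n1]; exact hne) (fun h1 => hdt (hi h1)) (fun h1 => hdu (hi h1))
  simp only [n0, n0', n1, n1'] at key
  exact key

/-- **the borders of `V j`** : `t` a role of the connecting pair, `u` a role of the other pair -/
theorem brd (hC : Chn758 nx T f V l name) (D : DSt U T Z f c R δ₀) {j : ℤ}
    (hj : dist (V j) c ≤ R - 1) {t u : Fin 6} (ht : t = 0 ∨ t = 1) (hu : u = 2 ∨ u = 3)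
    (hne : ¬ ((nx (l j) 0 = t ∧ nx (l j) 1 = u ∨ nx (l j) 0 = u ∧ nx (l j) 1 = t) ∧
      (nx (l (j - 1)) t = 0 ∧ nx (l (j - 1)) u = 1 ∨ nx (l (j - 1)) u = 0 ∧ nx (l (j - 1)) t = 1)))
    {d : Fin 6} (hdt : d ≠ t) (hdu : d ≠ u) :
    lamT T Z f δ₀ (name j t) (V j) (name j u) (name j d) +
      lamT T Z f δ₀ (name j u) (V j) (name j t) (name j d) =
      (if (nx (l j) 0 = t ∧ nx (l j) 1 = u ∨ nx (l j) 0 = u ∧ nx (l j) 1 = t) ∧
        (d = nx (l j) 2 ∨ d = nx (l j) 3) then 1 else 0) +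
      (if (nx (l (j - 1)) t = 0 ∧ nx (l (j - 1)) u = 1 ∨
          nx (l (j - 1)) u = 0 ∧ nx (l (j - 1)) t = 1) ∧
        (nx (l (j - 1)) d = 2 ∨ nx (l (j - 1)) d = 3) then 1 else 0) := by
  have hV : ∃ t' u', DPt T (V j) (name j t) t' (name j u) u' := by
    have h0 := hC.dpt j
    rcases ht with rfl | rfl <;> rcases hu with rfl | rfl
    · exact ⟨_, _, h0⟩
    · exact ⟨_, _, h0.swap34⟩
    · exact ⟨_, _, h0.swap12⟩
    · exact ⟨_, _, h0.swap12.swap34⟩
  obtain ⟨t', u', hV⟩ := hV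
  exact hC.brd_aux D hj hV (fun z g h i k hz hD hz1 hz2 =>
    hC.inv j z hz ⟨g, h, i, k, hD⟩ hz1 hz2 t u ht hu) hne hdt hdu

/-- **gluing along the arc of `V (j + 1)`** -/
theorem glue (hC : Chn758 nx T f V l name) (D : DSt U T Z f c R δ₀) {j : ℤ}
    (hj : dist (V (j + 1)) c ≤ R - 2) {r : Fin 6} (hr : r = 0 ∨ r = 1) :
    lamT T Z f δ₀ (name (j + 1) r) (V j) = lamT T Z f δ₀ (name (j + 1) r) (V (j + 2)) := by
  have h1 := hC.memR (j + 1)
  have h2 := hC.memL (j + 1)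
  rw [add_sub_cancel_right] at h2
  rw [show j + 1 + 1 = j + 2 by ring] at h1
  refine D.glueEx (W := V (j + 1)) (C := {name (j + 1) 0, name (j + 1) 1}) (hC.conn (j + 1)) hj ?_
    h2 h1
  rcases hr with rfl | rfl <;> simp

/-- Euler in roles -/
theorem eul (hC : Chn758 nx T f V l name) (D : DSt U T Z f c R δ₀) {j : ℤ}
    (hj : dist (V j) c ≤ R - 1) {t u : Fin 6} (ht : t < 4) (htu : t ≠ u) :
    ∑ y : Fin 6, lamT T Z f δ₀ (name j t) (V j) (name j u) (name j y) = 0 := by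
  have hb : Function.Bijective (name j) :=
    Finite.injective_iff_bijective.1 (hC.inj j)
  rw [← D.euler hj (hC.mem j ht) (b := name j u) (fun h => htu (hC.inj j h).symm)]
  exact (Equiv.ofBijective (name j) hb).sum_comp
    (fun y => lamT T Z f δ₀ (name j t) (V j) (name j u) y)

end Chn758

end Vale.Agent.P032.Six
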